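import Vale.Agent.P100.Point

namespace Vale.Agent.P100
open MeasureTheory Set Real Filter Topology
open scoped ENNReal NNReal
set_option linter.unusedSectionVars false

variable {Ω : Type*} [TopologicalSpace Ω] [MeasurableSpace Ω] [BorelSpace Ω]
  [SecondCountableTopology Ω]

def low (T : ℝ) : Set (Ω × ℝ) := {x | x.2 < T}

lemma mlow (T : ℝ) : MeasurableSet (low (Ω := Ω) T) :=
  measurableSet_lt measurable_snd measurable_const

lemma lintegral_low (σ : Measure Ω) [SFinite σ] (T : ℝ) {F : ℝ → ℝ≥0∞} (hF : Measurable F) :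
    ∫⁻ x in low T, F x.2 ∂muP σ = σ univ * ∫⁻ s in Iic T, F s := by
  have e : low (Ω := Ω) T = univ ×ˢ Iio T := by ext x; simp [low]
  rw [e, muP, ← Measure.prod_restrict, Measure.restrict_univ,
    lintegral_prod (fun x : Ω × ℝ => F x.2) (hF.comp measurable_snd).aemeasurable]
  simp only [lintegral_const]
  rw [mul_comm, setLIntegral_congr Iio_ae_eq_Iic]

lemma lintegral_exp_Iic {C a : ℝ} (hC : 0 ≤ C) (ha : 0 < a) (T : ℝ) :
    ∫⁻ s in Iic T, ENNReal.ofReal (C * exp (a * s)) = ENNReal.ofReal (C * (exp (a * T) / a)) := by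
  rw [← ofReal_integral_eq_lintegral_ofReal ((integrableOn_exp_mul_Iic ha T).const_mul C)
    (Eventually.of_forall fun s => by positivity), integral_const_mul, integral_exp_mul_Iic ha]

namespace Sys
variable {σ : Measure Ω} [IsFiniteMeasure σ] (S : Sys σ)

noncomputable def ef (x : Ω × ℝ) : ℝ≥0∞ := ENNReal.ofReal (exp (S.g1 * x.2) * S.f x)

noncomputable def mass (T : ℝ) : ℝ≥0∞ := ∫⁻ x in low T, S.ef x ∂muP σ

noncomputable def c1 : ℝ := S.c0 * 2 ^ (-S.m)

lemma c1_pos : 0 < S.c1 := mul_pos S.hc0 (by positivity)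

lemma mef : Measurable S.ef := by
  refine (Measurable.mul (by fun_prop) S.mf).ennreal_ofReal

include S in
lemma sig_pos : 0 < (σ univ).toReal :=
  ENNReal.toReal_pos (by simpa using S.hσ) (measure_ne_top _ _)

lemma mass_ne_top (T : ℝ) : S.mass T ≠ ∞ := by
  obtain ⟨C, hC, H⟩ := S.f_bdd T
  have ha : 0 < (S.q + 1) * S.g1 := by have := S.hq; have := S.g1_pos; positivity
  have h1 : S.mass T ≤ ∫⁻ x in low T, ENNReal.ofReal (C * exp ((S.q + 1) * S.g1 * x.2)) ∂muP σ := by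
    refine setLIntegral_mono' (mlow T) fun x hx => ENNReal.ofReal_le_ofReal ?_
    calc _ ≤ exp (S.g1 * x.2) * (C * exp (S.q * S.g1 * x.2)) := by
          gcongr; exact H x.1 x.2 (le_of_lt hx)
      _ = _ := by rw [mul_left_comm, ← exp_add]; congr 2; ring
  refine ne_top_of_le_ne_top ?_ h1
  rw [lintegral_low σ T (F := fun s => ENNReal.ofReal (C * exp ((S.q + 1) * S.g1 * s)))
    (by fun_prop), lintegral_exp_Iic hC ha]
  finiteness

lemma mass_ne_zero (T : ℝ) : S.mass T ≠ 0 := by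
  intro h
  rw [mass, lintegral_eq_zero_iff S.mef] at h
  have h2 : ∀ᵐ x ∂(muP σ).restrict (low T), False := by
    filter_upwards [h] with x hx
    have := mul_pos (exp_pos (S.g1 * x.2)) (S.f_pos x)
    exact absurd (ENNReal.ofReal_eq_zero.1 hx) (not_le.2 this)
  have h3 : (muP σ).restrict (low T) = 0 := by
    rwa [eventually_false_iff_eq_bot, ae_eq_bot] at h2
  have h4 := lintegral_low σ T (F := fun _ => 1) measurable_const
  rw [h3] at h4
  simp only [Measure.coe_zero, Pi.zero_apply, mul_zero, lintegral_const, one_mul, Measure.restrict_apply_univ,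
    Real.volume_Iic] at h4
  rw [ENNReal.mul_top (by simpa using S.hσ)] at h4
  exact ENNReal.zero_ne_top h4

lemma kk_lower {x y : Ω × ℝ} {T : ℝ} (hx : x.2 ≤ T) (hy : y.2 ≤ T) (hc : S.cs x.1 y.1 < 1) :
    S.c1 * exp (-(2 * S.m * T)) * exp (S.g1 * x.2) * exp (S.g2 * y.2) ≤ S.kk x y := by
  have h1 : cosh (x.2 - y.2) - S.cs x.1 y.1 ≤ 2 * exp (2 * T - x.2 - y.2) := by
    have h2 : exp (x.2 - y.2) ≤ exp (2 * T - x.2 - y.2) := exp_le_exp.2 (by linarith)
    have h3 : exp (-(x.2 - y.2)) ≤ exp (2 * T - x.2 - y.2) := exp_le_exp.2 (by linarith)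
    have h4 : 1 ≤ exp (2 * T - x.2 - y.2) := one_le_exp (by linarith)
    rw [cosh_eq]
    linarith [(abs_le.1 (S.cs_abs x.1 y.1)).1]
  have h5 : (2 * exp (2 * T - x.2 - y.2)) ^ (-S.m) ≤ kr S.m (S.cs x.1 y.1) (x.2 - y.2) :=
    rpow_le_rpow_of_nonpos (coshD_pos hc _) h1 (by linarith [S.hm])
  rw [kk_eq]
  refine le_trans (le_of_eq ?_)
    (mul_le_mul_of_nonneg_left h5 (mul_pos S.hc0 (S.wt_pos x y)).le)
  rw [mul_rpow (by norm_num) (exp_pos _).le, ← exp_mul, c1, wt]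
  have : exp (-(2 * S.m * T)) * exp (S.g1 * x.2) * exp (S.g2 * y.2)
      = exp ((S.g1 - S.m) * x.2 + (S.g2 - S.m) * y.2) * exp ((2 * T - x.2 - y.2) * -S.m) := by
    rw [← exp_add, ← exp_add, ← exp_add]; congr 1; ring
  calc _ = S.c0 * 2 ^ (-S.m) * (exp (-(2 * S.m * T)) * exp (S.g1 * x.2) * exp (S.g2 * y.2)) := by
        ring
    _ = _ := by rw [this]; ring

lemma low_lower {x : Ω × ℝ} {T : ℝ} (hx : x.2 ≤ T) :
    ENNReal.ofReal (S.c1 * exp (-(2 * S.m * T)) * exp (S.g1 * x.2)) * S.swap.mass T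
      ≤ ∫⁻ y in low T, ENNReal.ofReal (S.kk x y) * ENNReal.ofReal (S.g y) ∂muP σ := by
  rw [mass, ← lintegral_const_mul' _ _ ENNReal.ofReal_ne_top]
  refine lintegral_mono_ae ?_
  filter_upwards [ae_restrict_mem (mlow T), ae_restrict_of_ae (S.ae_lt x.1)] with y hy hc
  have := S.c1_pos
  rw [ef, ← ENNReal.ofReal_mul (by positivity), ← ENNReal.ofReal_mul (S.kk_nonneg _ _)]
  refine ENNReal.ofReal_le_ofReal ?_
  rw [← mul_assoc]
  exact mul_le_mul_of_nonneg_right (S.kk_lower hx (le_of_lt hy) hc) (S.g_pos y).le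

lemma U_lower {x : Ω × ℝ} {T : ℝ} (hx : x.2 ≤ T) :
    S.c1 * exp (-(2 * S.m * T)) * (S.swap.mass T).toReal * exp (S.g1 * x.2) ≤ S.U x := by
  have h1 := (S.low_lower hx).trans ((setLIntegral_le_lintegral _ _).trans (S.U_rep' x).ge)
  have h2 := ENNReal.toReal_mono ENNReal.ofReal_ne_top h1
  have := S.c1_pos
  rw [ENNReal.toReal_mul, ENNReal.toReal_ofReal (by positivity),
    ENNReal.toReal_ofReal (S.U_pos x).le] at h2
  linarith

lemma both_ne_zero (T : ℝ) : S.mu (both T) ≠ 0 := by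
  have h1 : ENNReal.ofReal (S.c1 * exp (-(2 * S.m * T))) * S.swap.mass T * S.mass T
      ≤ S.mu (both T) := by
    have e : both (Ω := Ω) T = low T ×ˢ low T := rfl
    rw [mu, withDensity_apply _ (mboth T), e, ← Measure.prod_restrict,
      lintegral_prod _ S.mdens.aemeasurable, mass.eq_1 S, ← lintegral_const_mul' _ _
        (ENNReal.mul_ne_top ENNReal.ofReal_ne_top (S.swap.mass_ne_top T))]
    refine setLIntegral_mono' (mlow T) fun x hx => ?_
    unfold dens
    simp only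
    rw [lintegral_mul_const' _ _ ENNReal.ofReal_ne_top]
    refine le_trans (le_of_eq ?_) (mul_le_mul_left (S.low_lower (le_of_lt hx)) _)
    have := S.c1_pos
    rw [ef, ENNReal.ofReal_mul (exp_pos _).le, ENNReal.ofReal_mul (p := S.c1 * _) (by positivity)]
    ring
  intro h
  rw [h, nonpos_iff_eq_zero, mul_eq_zero, mul_eq_zero] at h1
  rcases h1 with (h1 | h1) | h1
  · exact absurd (ENNReal.ofReal_eq_zero.1 h1) (not_le.2 (mul_pos S.c1_pos (exp_pos _)))
  · exact S.swap.mass_ne_zero T h1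
  · exact S.mass_ne_zero T h1

noncomputable def lm (T : ℝ) : ℝ := Real.log (S.mass T).toReal - 2 * S.m * T

lemma mass_pos (T : ℝ) : 0 < (S.mass T).toReal :=
  ENNReal.toReal_pos (S.mass_ne_zero T) (S.mass_ne_top T)

lemma exp_lm (T : ℝ) : exp (S.lm T) = exp (-(2 * S.m * T)) * (S.mass T).toReal := by
  rw [lm, sub_eq_add_neg, exp_add, exp_log (S.mass_pos T), mul_comm]

lemma lm_lower : ∃ k, ∀ T, k + ((S.q + 1) * S.g1 - 2 * S.m) * T + S.q * S.swap.lm T ≤ S.lm T := by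
  have ha : 0 < (S.q + 1) * S.g1 := by have := S.hq; have := S.g1_pos; positivity
  refine ⟨Real.log (σ univ).toReal + S.q * Real.log S.c1 - Real.log ((S.q + 1) * S.g1), fun T => ?_⟩
  set B := S.c1 * exp (S.swap.lm T) with hB
  have hB0 : 0 < B := mul_pos S.c1_pos (exp_pos _)
  have h1 : ∫⁻ x in low T, ENNReal.ofReal (B ^ S.q * exp ((S.q + 1) * S.g1 * x.2)) ∂muP σ
      ≤ S.mass T := by
    refine setLIntegral_mono' (mlow T) fun x hx => ENNReal.ofReal_le_ofReal ?_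
    have h2 : B * exp (S.g1 * x.2) ≤ S.U x := by
      have := S.U_lower (T := T) (le_of_lt hx)
      rw [hB, S.swap.exp_lm, ← mul_assoc]
      exact this
    have h3 : (B * exp (S.g1 * x.2)) ^ S.q ≤ S.f x := rpow_le_rpow (by positivity) h2 S.hq.le
    rw [mul_rpow hB0.le (exp_pos _).le, ← exp_mul] at h3
    calc _ = exp (S.g1 * x.2) * (B ^ S.q * exp (S.g1 * x.2 * S.q)) := by
          rw [mul_left_comm, ← exp_add]; congr 2; ring
      _ ≤ _ := by gcongr
  rw [lintegral_low σ T (F := fun s => ENNReal.ofReal (B ^ S.q * exp ((S.q + 1) * S.g1 * s)))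
    (by fun_prop), lintegral_exp_Iic (by positivity) ha] at h1
  have h2 := ENNReal.toReal_mono (S.mass_ne_top T) h1
  rw [ENNReal.toReal_mul, ENNReal.toReal_ofReal (by positivity)] at h2
  have hs := S.sig_pos
  have h3 := Real.log_le_log (by positivity) h2
  rw [Real.log_mul hs.ne' (by positivity), Real.log_mul (by positivity) (by positivity),
    Real.log_div (by positivity) ha.ne', Real.log_exp, Real.log_rpow hB0, hB,
    Real.log_mul S.c1_pos.ne' (by positivity), Real.log_exp] at h3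
  unfold lm at h3 ⊢
  linarith

lemma lm_upper : ∃ X, ∀ T, 0 ≤ T → S.swap.lm T ≤ X := by
  have : Nonempty Ω := by
    by_contra hc
    rw [not_nonempty_iff] at hc
    exact S.hσ (Measure.eq_zero_of_isEmpty σ)
  obtain ⟨θ⟩ := this
  refine ⟨Real.log (S.U (θ, 0) / S.c1), fun T hT => ?_⟩
  have h1 := S.U_lower (x := (θ, 0)) hT
  rw [le_log_iff_exp_le (div_pos (S.U_pos _) S.c1_pos), le_div_iff₀ S.c1_pos, S.swap.exp_lm]
  simp only [mul_zero, exp_zero, mul_one] at h1
  calc _ = S.c1 * exp (-(2 * S.m * T)) * (S.swap.mass T).toReal := by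
        change exp (-(2 * S.m * T)) * _ * _ = _
        ring
    _ ≤ _ := h1

lemma pq_gt : 1 < S.p * S.q := by
  by_contra hc
  have hc := not_lt.1 hc
  obtain ⟨k1, h1⟩ := S.lm_lower
  obtain ⟨k2, h2⟩ := S.swap.lm_lower
  obtain ⟨X, hX⟩ := S.lm_upper
  have hp := S.hp
  have b1 : 0 < (S.q + 1) * S.g1 - 2 * S.m := by linarith [S.hg1]
  have b2 : 0 < (S.p + 1) * S.g2 - 2 * S.m := by linarith [S.hg2]
  set T := max 0 (((1 - S.p * S.q) * X - k2 - S.p * k1 + 1) / ((S.p + 1) * S.g2 - 2 * S.m)) with hT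
  have hT0 : 0 ≤ T := le_max_left _ _
  have hT1 : (1 - S.p * S.q) * X - k2 - S.p * k1 + 1 ≤ T * ((S.p + 1) * S.g2 - 2 * S.m) :=
    (div_le_iff₀ b2).1 (le_max_right _ _)
  have e1 := mul_le_mul_of_nonneg_left (h1 T) hp.le
  have e2 : k2 + ((S.p + 1) * S.g2 - 2 * S.m) * T + S.p * S.lm T ≤ S.swap.lm T := h2 T
  have e3 := mul_le_mul_of_nonneg_left (hX T hT0) (by linarith : 0 ≤ 1 - S.p * S.q)
  have e4 : 0 ≤ S.p * (((S.q + 1) * S.g1 - 2 * S.m) * T) := by positivity
  nlinarith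

lemma prod_bound : ∃ C γ, 0 < γ ∧ ∀ T,
    ENNReal.ofReal (exp (-(2 * S.m * T))) * (S.mass T * S.swap.mass T)
      ≤ ENNReal.ofReal (exp (C - γ * T)) := by
  obtain ⟨k1, h1⟩ := S.lm_lower
  obtain ⟨k2, h2⟩ := S.swap.lm_lower
  have hp := S.hp
  have hq := S.hq
  have hpq : 0 < S.p * S.q - 1 := by linarith [S.pq_gt]
  refine ⟨-((S.p + 1) * k1 + (S.q + 1) * k2) / (S.p * S.q - 1),
    (S.p + 1) * (S.q + 1) * S.del / (S.p * S.q - 1), by have := S.del_pos; positivity, fun T => ?_⟩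
  have e2 : k2 + ((S.p + 1) * S.g2 - 2 * S.m) * T + S.p * S.lm T ≤ S.swap.lm T := h2 T
  have e1 := h1 T
  have e3 : S.lm T + S.swap.lm T + 2 * S.m * T ≤ -((S.p + 1) * k1 + (S.q + 1) * k2) / (S.p * S.q - 1)
      - (S.p + 1) * (S.q + 1) * S.del / (S.p * S.q - 1) * T := by
    rw [div_mul_eq_mul_div, ← sub_div, le_div_iff₀ hpq, del]
    have f1 := mul_le_mul_of_nonneg_left e1 (by linarith : 0 ≤ S.p + 1)
    have f2 := mul_le_mul_of_nonneg_left e2 (by linarith : 0 ≤ S.q + 1)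
    nlinarith
  rw [← ENNReal.ofReal_toReal (S.mass_ne_top T), ← ENNReal.ofReal_toReal (S.swap.mass_ne_top T),
    ← ENNReal.ofReal_mul ENNReal.toReal_nonneg, ← ENNReal.ofReal_mul (exp_pos _).le]
  refine ENNReal.ofReal_le_ofReal (le_trans (le_of_eq ?_) (exp_le_exp.2 e3))
  rw [exp_add, exp_add, S.exp_lm, S.swap.exp_lm]
  have : exp (-(2 * S.m * T)) * exp (2 * S.m * T) = 1 := by rw [← exp_add]; simp
  change _ = _ * (exp (-(2 * S.m * T)) * _) * _
  calc _ = exp (-(2 * S.m * T)) * ((S.mass T).toReal * (S.swap.mass T).toReal)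
        * (exp (-(2 * S.m * T)) * exp (2 * S.m * T)) := by rw [this, mul_one]
    _ = _ := by ring

def farset (T : ℝ) : Set ((Ω × ℝ) × (Ω × ℝ)) := {z | T ≤ max z.1.2 z.2.2}

omit S in
lemma mfarset (T : ℝ) : MeasurableSet (farset (Ω := Ω) T) :=
  measurableSet_le measurable_const (measurable_fst.snd.max measurable_snd.snd)

lemma hfar_eq (z : (Ω × ℝ) × (Ω × ℝ)) : S.hfar z
    = ENNReal.ofReal (exp (-(2 * S.m * max z.1.2 z.2.2))) * (S.ef z.1 * S.swap.ef z.2) := by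
  have hf := S.f_pos z.1
  have hg := S.g_pos z.2
  have hw := S.wt_pos z.1 z.2
  have e : S.wt z.1 z.2 * exp (-S.m * |z.1.2 - z.2.2|)
      = exp (-(2 * S.m * max z.1.2 z.2.2)) * exp (S.g1 * z.1.2) * exp (S.g2 * z.2.2) := by
    rw [wt, ← exp_add, ← exp_add, ← exp_add]
    congr 1
    rcases le_total z.1.2 z.2.2 with h | h
    · rw [max_eq_right h, abs_of_nonpos (by linarith)]; ring
    · rw [max_eq_left h, abs_of_nonneg (by linarith)]; ring
  unfold hfar ef
  rw [e, ENNReal.ofReal_mul (by positivity), ENNReal.ofReal_mul (by positivity),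
    ENNReal.ofReal_mul (by positivity), ENNReal.ofReal_mul (by positivity)]
  change _ = _ * (_ * (ENNReal.ofReal (exp (S.g2 * z.2.2)) * ENNReal.ofReal (S.g z.2)))
  ring

lemma nu_piece (T : ℝ) : S.nu (farset T ∩ both (T + 1))
    ≤ ENNReal.ofReal (exp (-(2 * S.m * T))) * (S.mass (T + 1) * S.swap.mass (T + 1)) := by
  have e : both (Ω := Ω) (T + 1) = low (T + 1) ×ˢ low (T + 1) := rfl
  rw [nu, withDensity_apply _ ((mfarset T).inter (mboth _)), mass, mass,
    ← lintegral_prod_mul S.mef.aemeasurable S.swap.mef.aemeasurable, Measure.prod_restrict, ← e,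
    ← lintegral_const_mul' _ _ ENNReal.ofReal_ne_top]
  refine le_trans ?_ (lintegral_mono_set (inter_subset_right (s := farset T)))
  refine setLIntegral_mono' ((mfarset T).inter (mboth _)) fun z hz => ?_
  rw [hfar_eq]
  have h1 : T ≤ max z.1.2 z.2.2 := hz.1
  have := S.hm
  gcongr

lemma far_bound : ∃ (C : ℝ≥0∞) (γ : ℝ), C ≠ ∞ ∧ 0 < γ ∧ ∀ T,
    S.nu (farset T) ≤ C * ENNReal.ofReal (exp (-γ * T)) := by
  obtain ⟨C, γ, hγ, H⟩ := S.prod_bound
  have hr : ENNReal.ofReal (exp (-γ)) < 1 := by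
    rw [ENNReal.ofReal_lt_one]; exact Real.exp_lt_one_iff.2 (by linarith)
  refine ⟨ENNReal.ofReal (exp (2 * S.m + C)) * (1 - ENNReal.ofReal (exp (-γ)))⁻¹, γ,
    ENNReal.mul_ne_top ENNReal.ofReal_ne_top (ENNReal.inv_ne_top.2 (tsub_pos_of_lt hr).ne'), hγ,
    fun T => ?_⟩
  have hcov : farset (Ω := Ω) T ⊆ ⋃ j : ℕ, farset (T + j) ∩ both (T + j + 1) := by
    intro z hz
    have h0 : 0 ≤ max z.1.2 z.2.2 - T := sub_nonneg.2 hz
    refine mem_iUnion.2 ⟨⌊max z.1.2 z.2.2 - T⌋₊, ?_, ?_⟩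
    · have := Nat.floor_le h0
      change T + _ ≤ max z.1.2 z.2.2
      linarith
    · have := Nat.lt_floor_add_one (max z.1.2 z.2.2 - T)
      exact ⟨by linarith [le_max_left z.1.2 z.2.2], by linarith [le_max_right z.1.2 z.2.2]⟩
  refine (measure_mono hcov).trans ((measure_iUnion_le _).trans ?_)
  rw [mul_right_comm, ← ENNReal.tsum_geometric, ← ENNReal.tsum_mul_left]
  refine ENNReal.tsum_le_tsum fun j => (S.nu_piece _).trans ?_
  have e1 : exp (-(2 * S.m * (T + j))) = exp (2 * S.m) * exp (-(2 * S.m * (T + j + 1))) := by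
    rw [← exp_add]; congr 1; ring
  rw [e1, ENNReal.ofReal_mul (exp_pos _).le, mul_assoc]
  refine (mul_le_mul_right (H _) _).trans ?_
  rw [← ENNReal.ofReal_pow (exp_pos _).le, ← ENNReal.ofReal_mul (exp_pos _).le,
    ← ENNReal.ofReal_mul (exp_pos _).le, ← ENNReal.ofReal_mul (by positivity), ← exp_nat_mul,
    ← exp_add, ← exp_add, ← exp_add]
  refine ENNReal.ofReal_le_ofReal (exp_le_exp.2 ?_)
  nlinarith

end Sys

end Vale.Agent.P100
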