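import Vale.Agent.P100.Apriori

namespace Vale.Agent.P100
open MeasureTheory Set Real Filter Topology
open scoped ENNReal NNReal
set_option linter.unusedSectionVars false

variable {Ω : Type*} [TopologicalSpace Ω] [MeasurableSpace Ω] [BorelSpace Ω]
  [SecondCountableTopology Ω]

lemma iter_lemma {a : ℕ → ℝ} {A C r : ℝ} (hr : 1 ≤ r) (hC : 0 ≤ C) (hA : ∀ j, a j ≤ A)
    (h : ∀ j, a j ≤ 1 / (2 * r) * a (j + 1) + C * r ^ j) : a 0 ≤ 2 * C := by
  have hr0 : 0 < r := by linarith
  have key : ∀ J : ℕ, a 0 ≤ (1 / (2 * r)) ^ J * a J + C * (2 - 2 * (1 / 2) ^ J) := by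
    intro J
    induction J with
    | zero => simp
    | succ J ih =>
      have h1 := mul_le_mul_of_nonneg_left (h J) (by positivity : 0 ≤ (1 / (2 * r)) ^ J)
      have h2 : (1 / (2 * r)) ^ J * r ^ J = (1 / 2) ^ J := by
        rw [← mul_pow]; congr 1; field_simp
      have h3 : (1 / (2 * r)) ^ J * (1 / (2 * r) * a (J + 1) + C * r ^ J)
          = (1 / (2 * r)) ^ (J + 1) * a (J + 1) + C * ((1 / (2 * r)) ^ J * r ^ J) := by ring
      rw [h3, h2] at h1
      rw [pow_succ (1 / 2 : ℝ)]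
      linarith
  have hlim : Tendsto (fun J : ℕ => (1 / (2 * r)) ^ J * A + 2 * C) atTop (𝓝 (0 * A + 2 * C)) :=
    ((tendsto_pow_atTop_nhds_zero_of_lt_one (by positivity)
      (by rw [div_lt_one (by positivity)]; linarith)).mul_const A).add_const _
  rw [zero_mul, zero_add] at hlim
  refine ge_of_tendsto' hlim fun J => (key J).trans ?_
  have h4 : (1 / (2 * r)) ^ J * a J ≤ (1 / (2 * r)) ^ J * A := by gcongr; exact hA J
  have h5 : 0 ≤ C * (1 / 2) ^ J := by positivity
  linarith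

namespace Sys
variable {σ : Measure Ω} [IsFiniteMeasure σ] (S : Sys σ)

def apart (ε : ℝ) : Set ((Ω × ℝ) × (Ω × ℝ)) := {z | ε ≤ |z.1.2 - z.2.2|}

omit S in
lemma mapart (ε : ℝ) : MeasurableSet (apart (Ω := Ω) ε) :=
  measurableSet_le measurable_const (measurable_fst.snd.sub measurable_snd.snd).abs

lemma mu_apart {ε : ℝ} (hε : 0 < ε) (hε1 : ε ≤ 1) (T : ℝ) :
    S.mu (farset T ∩ apart ε) ≤ ENNReal.ofReal (S.c0 * Cf S.m ε) * S.nu (farset T) := by
  rw [mu, nu, withDensity_apply _ ((mfarset T).inter (mapart ε)), withDensity_apply _ (mfarset T),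
    ← lintegral_const_mul' _ _ ENNReal.ofReal_ne_top]
  refine le_trans ?_ (lintegral_mono_set (inter_subset_left (t := apart ε)))
  refine setLIntegral_mono' ((mfarset T).inter (mapart ε)) fun z hz => ?_
  unfold dens hfar
  rw [← mul_assoc, ← mul_assoc, ← ENNReal.ofReal_mul (mul_pos S.hc0 (Cf_pos _ hε)).le]
  gcongr
  have h1 := kr_far S.hm (S.cs_le z.1.1 z.2.1) hε hε1 hz.2
  have h2 := mul_pos S.hc0 (S.wt_pos z.1 z.2)
  rw [kk_eq]
  calc _ ≤ S.c0 * S.wt z.1 z.2 * (Cf S.m ε * exp (-S.m * |z.1.2 - z.2.2|)) := by gcongr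
    _ = _ := by ring

lemma mm1 : Measurable S.m1 := by
  unfold m1
  refine Measurable.lintegral_prod_left' (f := fun x : Ω × ℝ =>
    ENNReal.ofReal (S.U x ^ (S.q + 1))) ?_
  exact (S.U_cont.measurable.pow_const _).ennreal_ofReal

lemma mfar1 : Measurable S.far1 := by
  unfold far1
  exact Measurable.lintegral_prod_left' (f := fun x : Ω × ℝ => ∫⁻ y, S.hfar (x, y) ∂muP σ)
    S.mhfar.lintegral_prod_right'

lemma both_swap (t : ℝ) : S.swap.mu (both t) = S.mu (both t) := by
  rw [S.mu_swap (mboth t)]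
  congr 1
  ext z; exact and_comm

lemma farset_swap (t : ℝ) : S.swap.nu (farset t) = S.nu (farset t) := by
  rw [S.nu_swap (mfarset t)]
  congr 1
  ext z; simp [farset, or_comm]

lemma win_m1 {ε T t w : ℝ} (hε : 0 < ε) (hε1 : ε ≤ 1) (hT : T ≤ t) :
    ∫⁻ s in Ioo t (t + w), S.m1 s ≤ S.mu (both (t + w + ε))
      + ENNReal.ofReal (S.c0 * Cf S.m ε) * S.nu (farset T) := by
  rw [← S.mu_slice measurableSet_Ioo]
  refine le_trans ?_ (add_le_add le_rfl (S.mu_apart hε hε1 T))
  refine (measure_mono ?_).trans (measure_union_le _ _)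
  intro z hz
  have h1 : t < z.1.2 ∧ z.1.2 < t + w := hz
  by_cases h : z.2.2 < t + w + ε
  · exact Or.inl ⟨by linarith [h1.2], h⟩
  · refine Or.inr ⟨le_max_of_le_left (hT.trans h1.1.le), ?_⟩
    change ε ≤ |z.1.2 - z.2.2|
    rw [abs_sub_comm]
    exact le_trans (by linarith [h1.2, not_lt.1 h]) (le_abs_self _)

lemma win_far1 {T t w : ℝ} (hT : T ≤ t) :
    ∫⁻ s in Ioo t (t + w), S.far1 s ≤ S.nu (farset T) := by
  rw [← S.nu_slice measurableSet_Ioo]
  refine measure_mono fun z hz => ?_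
  have h1 : t < z.1.2 ∧ z.1.2 < t + w := hz
  exact le_max_of_le_left (hT.trans h1.1.le)

instance : SFinite S.mu := by unfold mu; infer_instance

lemma win_cross {ε T t w : ℝ} (hε : 0 < ε) (hε1 : ε ≤ 1) (hT : T ≤ t) :
    ∫⁻ s in Ioo t (t + w), S.mu (cross s) ≤ ENNReal.ofReal ε * S.mu (both (t + w + ε))
      + ENNReal.ofReal w * (ENNReal.ofReal (S.c0 * Cf S.m ε) * S.nu (farset T)) := by
  have hA : MeasurableSet {z : ℝ × ((Ω × ℝ) × (Ω × ℝ)) | z.2 ∈ cross z.1} :=
    ((measurableSet_lt measurable_snd.fst.snd measurable_fst).inter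
      (measurableSet_le measurable_fst measurable_snd.snd.snd)).union
    ((measurableSet_lt measurable_snd.snd.snd measurable_fst).inter
      (measurableSet_le measurable_fst measurable_snd.fst.snd))
  have e1 : ∀ s : ℝ, S.mu (cross s) = ∫⁻ z, {z : ℝ × ((Ω × ℝ) × (Ω × ℝ)) | z.2 ∈ cross z.1}.indicator
      (fun _ => (1 : ℝ≥0∞)) (s, z) ∂S.mu := by
    intro s
    rw [← lintegral_indicator_one (mcross s)]
    rfl
  simp only [e1]
  rw [lintegral_lintegral_swap (f := fun s z =>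
    {z : ℝ × ((Ω × ℝ) × (Ω × ℝ)) | z.2 ∈ cross z.1}.indicator (fun _ => (1 : ℝ≥0∞)) (s, z))
    (measurable_const.indicator hA).aemeasurable]
  refine le_trans ?_ (add_le_add le_rfl (mul_le_mul_right (S.mu_apart hε hε1 T) _))
  rw [← lintegral_indicator_const (mboth _),
    ← lintegral_indicator_const ((mfarset T).inter (mapart ε)),
    ← lintegral_add_left (measurable_const.indicator (mboth _))]
  refine lintegral_mono fun z => ?_
  have hB : MeasurableSet {s : ℝ | z ∈ cross s} := measurable_prodMk_right hA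
  have e2 : ∫⁻ s in Ioo t (t + w), {z : ℝ × ((Ω × ℝ) × (Ω × ℝ)) | z.2 ∈ cross z.1}.indicator
      (fun _ => (1 : ℝ≥0∞)) (s, z) = volume ({s : ℝ | z ∈ cross s} ∩ Ioo t (t + w)) := by
    rw [← Measure.restrict_apply hB, ← lintegral_indicator_one hB]
    rfl
  simp only
  rw [e2]
  rcases ({s : ℝ | z ∈ cross s} ∩ Ioo t (t + w)).eq_empty_or_nonempty with h | ⟨s, hs, hs'⟩
  · rw [h, measure_empty]; exact zero_le
  have hs2 : min z.1.2 z.2.2 < s ∧ s ≤ max z.1.2 z.2.2 := by
    rcases hs with h | h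
    · exact ⟨min_lt_of_left_lt h.1, le_max_of_le_right h.2⟩
    · exact ⟨min_lt_of_right_lt h.1, le_max_of_le_left h.2⟩
  have e3 := max_sub_min_eq_abs' z.1.2 z.2.2
  by_cases ha : z ∈ apart ε
  · refine le_trans ?_ le_add_self
    rw [indicator_of_mem (show z ∈ farset T ∩ apart ε from
      ⟨le_trans (by linarith [hs'.1]) hs2.2, ha⟩)]
    refine (measure_mono inter_subset_right).trans ?_
    rw [Real.volume_Ioo, add_sub_cancel_left]
  · have ha' : |z.1.2 - z.2.2| < ε := not_le.1 ha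
    refine le_trans ?_ le_self_add
    rw [indicator_of_mem (show z ∈ both (t + w + ε) from
      ⟨by linarith [le_max_left z.1.2 z.2.2, hs2.1, hs'.2],
        by linarith [le_max_right z.1.2 z.2.2, hs2.1, hs'.2]⟩)]
    have hsub : {s : ℝ | z ∈ cross s} ∩ Ioo t (t + w) ⊆ Ioc (min z.1.2 z.2.2) (max z.1.2 z.2.2) := by
      rintro s ⟨h | h, -⟩
      · exact ⟨min_lt_of_left_lt h.1, le_max_of_le_right h.2⟩
      · exact ⟨min_lt_of_right_lt h.1, le_max_of_le_left h.2⟩
    refine (measure_mono hsub).trans ?_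
    rw [Real.volume_Ioc, e3]
    exact ENNReal.ofReal_le_ofReal ha'.le

lemma both_mono {s t : ℝ} (h : s ≤ t) : S.mu (both s) ≤ S.mu (both t) :=
  measure_mono fun _ hz => ⟨hz.1.trans_le h, hz.2.trans_le h⟩

noncomputable def EE (t : ℝ) : ℝ := (S.mu (both t)).toReal

lemma window {ε ζ : ℝ} (hε : 0 < ε) (hε1 : ε ≤ 1) {N : ℕ} (hN : 0 < N)
    (hζ : S.sb * (2 * N * ε + ε) ≤ ζ) {T t w : ℝ} (hT : T ≤ t) (hw : 0 ≤ w)
    (hG : S.nu (farset T) ≠ ∞) :
    S.del * S.EE t * w ≤ (2 * (2 * ζ + 1 / N) + S.sb * ε) * S.EE (t + w + ε)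
      + (2 * (2 * ζ + 1 / N) + S.sb * w + 2) * (S.c0 * Cf S.m ε * (S.nu (farset T)).toReal) := by
  have hζ0 : 0 ≤ ζ := le_trans (mul_nonneg S.sb_nonneg (by positivity)) hζ
  have h1 : ENNReal.ofReal S.del * S.mu (both t) * ENNReal.ofReal w
      ≤ ∫⁻ s in Ioo t (t + w), ENNReal.ofReal (2 * ζ + 1 / N) * (S.m1 s + S.swap.m1 s)
        + ENNReal.ofReal (S.c0 * Cf S.m ε) * (S.far1 s + S.swap.far1 s)
        + ENNReal.ofReal S.sb * S.mu (cross s) := by
    calc _ = ∫⁻ _ in Ioo t (t + w), ENNReal.ofReal S.del * S.mu (both t) := by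
          rw [setLIntegral_const, Real.volume_Ioo, add_sub_cancel_left]
      _ ≤ _ := by
          refine setLIntegral_mono' measurableSet_Ioo fun s hs => ?_
          refine (mul_le_mul_right (S.both_mono hs.1.le) _).trans ?_
          rw [add_right_comm]
          exact S.point S.pq_gt.le hε hε1 hN hζ s
  rw [lintegral_add_left (((S.mm1.fun_add S.swap.mm1).const_mul _).fun_add
      ((S.mfar1.fun_add S.swap.mfar1).const_mul _)),
    lintegral_add_left ((S.mm1.fun_add S.swap.mm1).const_mul _),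
    lintegral_const_mul' _ _ ENNReal.ofReal_ne_top, lintegral_const_mul' _ _ ENNReal.ofReal_ne_top,
    lintegral_const_mul' _ _ ENNReal.ofReal_ne_top, lintegral_add_left S.mm1,
    lintegral_add_left S.mfar1] at h1
  have a1 := S.win_m1 (w := w) hε hε1 hT
  have a2 := S.swap.win_m1 (w := w) hε hε1 hT
  have a3 := S.win_far1 (w := w) hT
  have a4 := S.swap.win_far1 (w := w) hT
  have a5 := S.win_cross (w := w) hε hε1 hT
  rw [both_swap, farset_swap] at a2
  rw [farset_swap] at a4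
  have h2 := h1.trans (add_le_add (add_le_add (mul_le_mul_right (add_le_add a1 a2) _)
    (mul_le_mul_right (add_le_add a3 a4) _)) (mul_le_mul_right a5 _))
  have hE := S.both_ne_top t
  have hE' := S.both_ne_top (t + w + ε)
  have h3 := ENNReal.toReal_mono (by finiteness) h2
  have hcf := mul_pos S.hc0 (Cf_pos S.m hε)
  have hcf' : S.swap.c0 * Cf S.swap.m ε = S.c0 * Cf S.m ε := rfl
  have hd := S.del_pos
  have hsb := S.sb_nonneg
  rw [hcf'] at h3
  simp (disch := first | finiteness | positivity) only [ENNReal.toReal_add, ENNReal.toReal_mul,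
    ENNReal.toReal_ofReal] at h3
  unfold EE
  linarith

lemma step {T t : ℝ} (hT : T ≤ t) (hG : S.nu (farset T) ≠ ∞) {D : ℝ} (hD : 0 < D) (j : ℕ) :
    S.EE t ≤ (13 * S.sb + 2) / (S.del * D) * S.EE (t + (D + 1) / 2 ^ j)
      + (12 * S.sb + 4 + S.sb * D) * S.c0 * 8 ^ S.m / (S.del * D) * (S.nu (farset T)).toReal
        * (2 ^ (4 * S.m + 1)) ^ j := by
  set N : ℝ := 2 ^ j with hN
  have hN1 : 1 ≤ N := one_le_pow₀ (by norm_num)
  have hN0 : 0 < N := by linarith
  have hsb := S.sb_nonneg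
  have hd := S.del_pos
  have hc0 := S.hc0
  have hε1 : 1 / N ^ 2 ≤ 1 / N := by
    rw [div_le_div_iff₀ (by positivity) hN0]; nlinarith
  have hε2 : 1 / N ≤ 1 := by rw [div_le_one hN0]; exact hN1
  have hNc : ((2 ^ j : ℕ) : ℝ) = N := by rw [hN]; push_cast; rfl
  have h1 := S.window (ε := 1 / N ^ 2) (ζ := 3 * S.sb / N) (by positivity) (hε1.trans hε2)
    (N := 2 ^ j) (by positivity) (by
      rw [hNc]
      have : 2 * N * (1 / N ^ 2) = 2 * (1 / N) := by field_simp
      rw [this]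
      have : 3 * S.sb / N = S.sb * (3 * (1 / N)) := by ring
      rw [this]; gcongr; linarith) (w := D / N) hT (by positivity) hG
  rw [hNc] at h1
  have hE : S.EE (t + D / N + 1 / N ^ 2) ≤ S.EE (t + (D + 1) / N) :=
    ENNReal.toReal_mono (S.both_ne_top _) (S.both_mono (by rw [add_div]; linarith))
  have hE0 : 0 ≤ S.EE (t + D / N + 1 / N ^ 2) := ENNReal.toReal_nonneg
  have hG0 : 0 ≤ (S.nu (farset T)).toReal := ENNReal.toReal_nonneg
  have hCf : Cf S.m (1 / N ^ 2) * N = 8 ^ S.m * (2 ^ (4 * S.m + 1)) ^ j := by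
    have e1 : (1 / N ^ 2) ^ 2 / 8 = (8 * N ^ (4 : ℝ))⁻¹ := by
      rw [show (4 : ℝ) = (4 : ℕ) by norm_num, rpow_natCast]; field_simp
    have e2 : ((2 : ℝ) ^ (4 * S.m + 1)) ^ j = N ^ (4 * S.m + 1) := by
      rw [hN, ← rpow_natCast, ← rpow_natCast, ← rpow_mul (by norm_num), ← rpow_mul (by norm_num),
        mul_comm]
    rw [Cf, e1, inv_rpow (by positivity), rpow_neg (by positivity), inv_inv,
      mul_rpow (by norm_num) (by positivity), ← rpow_mul hN0.le, e2, rpow_add_one hN0.ne']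
    ring
  have hCf0 := Cf_pos S.m (show 0 < 1 / N ^ 2 by positivity)
  have c1 : 2 * (2 * (3 * S.sb / N) + 1 / N) + S.sb * (1 / N ^ 2) ≤ (13 * S.sb + 2) / N := by
    have : S.sb * (1 / N ^ 2) ≤ S.sb * (1 / N) := by gcongr
    calc _ ≤ 2 * (2 * (3 * S.sb / N) + 1 / N) + S.sb * (1 / N) := by linarith
      _ = _ := by ring
  have c2 : 2 * (2 * (3 * S.sb / N) + 1 / N) + S.sb * (D / N) + 2 ≤ 12 * S.sb + 4 + S.sb * D := by
    have : (12 * S.sb + 2 + S.sb * D) * (1 / N) ≤ (12 * S.sb + 2 + S.sb * D) * 1 := by gcongr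
    calc _ = (12 * S.sb + 2 + S.sb * D) * (1 / N) + 2 := by ring
      _ ≤ _ := by linarith
  have h2 : S.del * S.EE t * (D / N) ≤ (13 * S.sb + 2) / N * S.EE (t + (D + 1) / N)
      + (12 * S.sb + 4 + S.sb * D) * (S.c0 * Cf S.m (1 / N ^ 2) * (S.nu (farset T)).toReal) := by
    refine h1.trans ?_
    gcongr
  have h3 := mul_le_mul_of_nonneg_right h2 (show 0 ≤ N / (S.del * D) by positivity)
  calc S.EE t = S.del * S.EE t * (D / N) * (N / (S.del * D)) := by field_simp
    _ ≤ _ := h3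
    _ = (13 * S.sb + 2) / (S.del * D) * S.EE (t + (D + 1) / N)
      + (12 * S.sb + 4 + S.sb * D) * S.c0 / (S.del * D) * (S.nu (farset T)).toReal
        * (Cf S.m (1 / N ^ 2) * N) := by field_simp
    _ = _ := by rw [hCf]; ring

include S in
theorem false : False := by
  obtain ⟨C, γ, hC, hγ, H⟩ := S.far_bound
  have hsb := S.sb_nonneg
  have hd := S.del_pos
  have hc0 := S.hc0
  set r : ℝ := 2 ^ (4 * S.m + 1) with hr
  have hr1 : 1 ≤ r := one_le_rpow (by norm_num) (by linarith [S.hm])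
  set D := (13 * S.sb + 2) * (2 * r) / S.del with hD
  have hD0 : 0 < D := by positivity
  set B := (12 * S.sb + 4 + S.sb * D) * S.c0 * 8 ^ S.m / (S.del * D) with hB
  have hB0 : 0 ≤ B := by positivity
  have key : ∀ T, S.EE T ≤ 2 * (B * (C.toReal * exp (-γ * T))) := by
    intro T
    have hG : S.nu (farset T) ≠ ∞ := ne_top_of_le_ne_top (by finiteness) (H T)
    have hG2 : (S.nu (farset T)).toReal ≤ C.toReal * exp (-γ * T) := by
      have := ENNReal.toReal_mono (by finiteness) (H T)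
      rwa [ENNReal.toReal_mul, ENNReal.toReal_ofReal (exp_pos _).le] at this
    have h1 := iter_lemma (a := fun j => S.EE (T + (D + 1) * (2 - 2 / 2 ^ j)))
      (A := S.EE (T + (D + 1) * 2)) (C := B * (S.nu (farset T)).toReal) hr1 (by positivity)
      (fun j => ENNReal.toReal_mono (S.both_ne_top _) (S.both_mono (by
        have : 0 ≤ (D + 1) * (2 / 2 ^ j) := by positivity
        linarith)))
      (fun j => by
        have h2 : (2 : ℝ) / 2 ^ j ≤ 2 := div_le_self (by norm_num) (one_le_pow₀ (by norm_num))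
        have h3 := S.step (t := T + (D + 1) * (2 - 2 / 2 ^ j)) (by nlinarith) hG hD0 j
        have e1 : (13 * S.sb + 2) / (S.del * D) = 1 / (2 * r) := by rw [hD]; field_simp
        have e2 : T + (D + 1) * (2 - 2 / 2 ^ j) + (D + 1) / 2 ^ j
            = T + (D + 1) * (2 - 2 / 2 ^ (j + 1)) := by field_simp; ring
        rw [e1, e2] at h3
        exact h3)
    simp only [pow_zero, div_one, sub_self, mul_zero, add_zero] at h1
    refine h1.trans ?_
    gcongr
  have hlim : Tendsto (fun T => 2 * (B * (C.toReal * exp (-γ * T)))) atTop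
      (𝓝 (2 * (B * (C.toReal * 0)))) :=
    (((tendsto_exp_atBot.comp (tendsto_id.const_mul_atTop_of_neg (by linarith))).const_mul
      _).const_mul _).const_mul _
  have h0 : 0 < S.EE 0 := ENNReal.toReal_pos (S.both_ne_zero 0) (S.both_ne_top 0)
  have : S.EE 0 ≤ 2 * (B * (C.toReal * 0)) := by
    refine ge_of_tendsto hlim ?_
    filter_upwards [eventually_ge_atTop 0] with T hT
    exact (ENNReal.toReal_mono (S.both_ne_top _) (S.both_mono hT)).trans (key T)
  linarith

end Sys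

end Vale.Agent.P100
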