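import Mathlib

namespace Vale.Agent.P100
open MeasureTheory Set Real Filter Topology Module
open scoped ENNReal NNReal RealInnerProductSpace
set_option linter.unusedSectionVars false

variable {E : Type*} [NormedAddCommGroup E] [InnerProductSpace ℝ E] [FiniteDimensional ℝ E]
  [MeasurableSpace E] [BorelSpace E]

/-- A function with first and second derivatives in the direction `v`. -/
structure C2 (v : E) (ψ ψ1 ψ2 : E → ℝ) : Prop where
  c0 : Continuous ψ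
  c1 : Continuous ψ1
  c2 : Continuous ψ2
  d1 : ∀ y, HasLineDerivAt ℝ ψ (ψ1 y) y v
  d2 : ∀ y, HasLineDerivAt ℝ ψ1 (ψ2 y) y v

lemma line_mul {v y : E} {a b : E → ℝ} {a' b' : ℝ} (ha : HasLineDerivAt ℝ a a' y v)
    (hb : HasLineDerivAt ℝ b b' y v) :
    HasLineDerivAt ℝ (fun y => a y * b y) (a' * b y + a y * b') y v := by
  have := HasDerivAt.mul ha hb
  simp only [zero_smul, add_zero] at this
  exact this

lemma C2.mul {v : E} {a a1 a2 b b1 b2 : E → ℝ} (ha : C2 v a a1 a2) (hb : C2 v b b1 b2) :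
    C2 v (fun y => a y * b y) (fun y => a1 y * b y + a y * b1 y)
      (fun y => a2 y * b y + 2 * (a1 y * b1 y) + a y * b2 y) where
  c0 := ha.c0.mul hb.c0
  c1 := (ha.c1.mul hb.c0).add (ha.c0.mul hb.c1)
  c2 := ((ha.c2.mul hb.c0).add (continuous_const.mul (ha.c1.mul hb.c1))).add (ha.c0.mul hb.c2)
  d1 := fun y => line_mul (ha.d1 y) (hb.d1 y)
  d2 := fun y => by
    have := HasDerivAt.add (line_mul (ha.d2 y) (hb.d1 y)) (line_mul (ha.d1 y) (hb.d2 y))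
    refine HasDerivAt.congr_deriv this ?_
    ring

lemma line_scale {v y : E} {a : E → ℝ} {a' : ℝ} (c : ℝ) (ha : HasLineDerivAt ℝ a a' (c • y) v) :
    HasLineDerivAt ℝ (fun y => a (c • y)) (c * a') y v := by
  have h1 : HasDerivAt (fun t : ℝ => c * t) c 0 := by simpa using (hasDerivAt_id (0 : ℝ)).const_mul c
  have h2 : HasDerivAt (fun t : ℝ => a (c • y + t • v)) a' (c * 0) := by rw [mul_zero]; exact ha
  have h3 := h2.comp (0 : ℝ) h1
  rw [mul_comm] at h3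
  refine h3.congr_of_eventuallyEq (Eventually.of_forall fun t => ?_)
  simp [smul_add, smul_smul]

lemma C2.scale {v : E} {a a1 a2 : E → ℝ} (ha : C2 v a a1 a2) (c : ℝ) :
    C2 v (fun y => a (c • y)) (fun y => c * a1 (c • y)) (fun y => c ^ 2 * a2 (c • y)) where
  c0 := ha.c0.comp (continuous_const_smul c)
  c1 := continuous_const.mul (ha.c1.comp (continuous_const_smul c))
  c2 := continuous_const.mul (ha.c2.comp (continuous_const_smul c))
  d1 := fun y => line_scale c (ha.d1 _)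
  d2 := fun y => by
    have := HasDerivAt.const_mul c (line_scale c (ha.d2 (c • y)))
    refine HasDerivAt.congr_deriv this ?_
    ring

lemma C2_radial (v x : E) {Θ Θ1 Θ2 : ℝ → ℝ} (h1 : ∀ s, HasDerivAt Θ (Θ1 s) s)
    (h2 : ∀ s, HasDerivAt Θ1 (Θ2 s) s) (h3 : Continuous Θ2) :
    C2 v (fun y => Θ (‖y - x‖ ^ 2)) (fun y => Θ1 (‖y - x‖ ^ 2) * (2 * ⟪y - x, v⟫))
      (fun y => 4 * Θ2 (‖y - x‖ ^ 2) * ⟪y - x, v⟫ ^ 2 + 2 * Θ1 (‖y - x‖ ^ 2) * ‖v‖ ^ 2) := by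
  have k0 : Continuous Θ := continuous_iff_continuousAt.2 fun s => (h1 s).continuousAt
  have k1 : Continuous Θ1 := continuous_iff_continuousAt.2 fun s => (h2 s).continuousAt
  have n1 : ∀ y, HasLineDerivAt ℝ (fun y => ‖y - x‖ ^ 2) (2 * ⟪y - x, v⟫) y v := by
    intro y
    have e : (fun t : ℝ => ‖y + t • v - x‖ ^ 2)
        = fun t => ‖y - x‖ ^ 2 + 2 * (t * ⟪y - x, v⟫) + t ^ 2 * ‖v‖ ^ 2 := by
      ext t
      rw [add_sub_right_comm, norm_add_sq_real, real_inner_smul_right, norm_smul, mul_pow,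
        Real.norm_eq_abs, sq_abs]
    unfold HasLineDerivAt
    rw [e]
    have := ((((hasDerivAt_id (0 : ℝ)).mul_const ⟪y - x, v⟫).const_mul 2).const_add
      (‖y - x‖ ^ 2)).add ((hasDerivAt_pow 2 (0 : ℝ)).mul_const (‖v‖ ^ 2))
    refine HasDerivAt.congr_deriv this ?_
    simp
  have n2 : ∀ y, HasLineDerivAt ℝ (fun y => 2 * ⟪y - x, v⟫) (2 * ‖v‖ ^ 2) y v := by
    intro y
    have e : (fun t : ℝ => 2 * ⟪y + t • v - x, v⟫)
        = fun t => 2 * (⟪y - x, v⟫ + t * ‖v‖ ^ 2) := by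
      ext t
      rw [add_sub_right_comm, inner_add_left, real_inner_smul_left, real_inner_self_eq_norm_sq]
    unfold HasLineDerivAt
    rw [e]
    have := (((hasDerivAt_id (0 : ℝ)).mul_const (‖v‖ ^ 2)).const_add ⟪y - x, v⟫).const_mul 2
    refine HasDerivAt.congr_deriv this ?_
    simp
  have cp : ∀ {F F' : ℝ → ℝ}, (∀ s, HasDerivAt F (F' s) s) → ∀ y, HasLineDerivAt ℝ
      (fun y => F (‖y - x‖ ^ 2)) (F' (‖y - x‖ ^ 2) * (2 * ⟪y - x, v⟫)) y v := by
    intro F F' hF y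
    have := (hF (‖y + (0 : ℝ) • v - x‖ ^ 2)).comp (0 : ℝ) (n1 y)
    simp only [zero_smul, add_zero] at this
    exact this
  refine ⟨by fun_prop, by fun_prop, by fun_prop, cp h1, fun y => ?_⟩
  refine HasDerivAt.congr_deriv (line_mul (cp h2 y) (n2 y)) ?_
  ring

variable (μ : Measure E) [μ.IsAddHaarMeasure]

lemma integ_mul {g h : E → ℝ} (hg : ContinuousOn g {0}ᶜ) (hh : Continuous h) {ε R : ℝ}
    (hε : 0 < ε) (h0 : ∀ y, ‖y‖ < ε ∨ R < ‖y‖ → h y = 0) :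
    Integrable (fun y => g y * h y) μ := by
  have hK : IsCompact (Metric.closedBall (0 : E) R \ Metric.ball 0 ε) :=
    (isCompact_closedBall 0 R).diff Metric.isOpen_ball
  have hsub : Metric.closedBall (0 : E) R \ Metric.ball 0 ε ⊆ {0}ᶜ := by
    rintro y ⟨-, hy⟩ rfl
    exact hy (Metric.mem_ball_self hε)
  refine (((hg.mono hsub).mul hh.continuousOn).integrableOn_compact hK
    ).integrable_of_forall_notMem_eq_zero fun y hy => ?_
  rw [Pi.mul_apply, h0 y, mul_zero]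
  by_contra hc
  rw [not_or, not_lt, not_lt] at hc
  exact hy ⟨mem_closedBall_zero_iff.2 hc.2, fun h => not_lt.2 hc.1 (mem_ball_zero_iff.1 h)⟩

lemma tsupp_ne {h : E → ℝ} {ε R : ℝ} (hε : 0 < ε) (h0 : ∀ y, ‖y‖ < ε ∨ R < ‖y‖ → h y = 0)
    {y : E} (hy : y ∈ tsupport h) : y ≠ 0 := by
  rintro rfl
  refine (notMem_tsupport_iff_eventuallyEq.2 ?_) hy
  filter_upwards [Metric.ball_mem_nhds 0 hε] with y hy
  exact h0 y (Or.inl (mem_ball_zero_iff.1 hy))

lemma green1 {u : E → ℝ} (hu : ContDiffOn ℝ 2 u {0}ᶜ) {v : E} {ψ ψ1 ψ2 : E → ℝ}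
    (hψ : C2 v ψ ψ1 ψ2) {ε R : ℝ} (hε : 0 < ε)
    (h0 : ∀ y, ‖y‖ < ε ∨ R < ‖y‖ → ψ y = 0 ∧ ψ1 y = 0 ∧ ψ2 y = 0) :
    Integrable (fun y => iteratedFDeriv ℝ 2 u y ![v, v] * ψ y) μ ∧
      ∫ y, u y * ψ2 y ∂μ = ∫ y, iteratedFDeriv ℝ 2 u y ![v, v] * ψ y ∂μ := by
  have ho : IsOpen ({0}ᶜ : Set E) := isOpen_compl_singleton
  have hu1 : ContDiffOn ℝ 1 (fderiv ℝ u) {0}ᶜ := hu.fderiv_of_isOpen ho (by norm_num)
  have k0 : ContinuousOn u {0}ᶜ := hu.continuousOn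
  have k1 : ContinuousOn (fun y => fderiv ℝ u y v) {0}ᶜ :=
    hu1.continuousOn.clm_apply continuousOn_const
  have k2 : ContinuousOn (fun y => fderiv ℝ (fderiv ℝ u) y v v) {0}ᶜ :=
    ((hu1.continuousOn_fderiv_of_isOpen ho le_rfl).clm_apply continuousOn_const).clm_apply
      continuousOn_const
  have e : ∀ y, iteratedFDeriv ℝ 2 u y ![v, v] = fderiv ℝ (fderiv ℝ u) y v v := fun y => by
    rw [iteratedFDeriv_two_apply]; rfl
  simp only [e]
  have i1 := integ_mul μ k0 hψ.c2 hε fun y hy => (h0 y hy).2.2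
  have i2 := integ_mul μ k0 hψ.c1 hε fun y hy => (h0 y hy).2.1
  have i3 := integ_mul μ k1 hψ.c1 hε fun y hy => (h0 y hy).2.1
  have i4 := integ_mul μ k1 hψ.c0 hε fun y hy => (h0 y hy).1
  have i5 := integ_mul μ k2 hψ.c0 hε fun y hy => (h0 y hy).1
  refine ⟨i5, ?_⟩
  have a1 := integral_bilinear_hasLineDerivAt_right_eq_neg_left_of_integrable (μ := μ)
    (B := ContinuousLinearMap.mul ℝ ℝ) (v := v) (f := u) (f' := fun y => fderiv ℝ u y v)
    (g := ψ1) (g' := ψ2) i3 i1 i2 (fun y hy => by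
      have hy' := tsupp_ne hε (fun y hy => (h0 y hy).2.1) hy
      exact ((hu.contDiffAt (ho.mem_nhds hy')).differentiableAt
        (by norm_num)).hasFDerivAt.hasLineDerivAt v) (fun y _ => hψ.d2 y)
  have a2 := integral_bilinear_hasLineDerivAt_right_eq_neg_left_of_integrable (μ := μ)
    (B := ContinuousLinearMap.mul ℝ ℝ) (v := v) (f := fun y => fderiv ℝ u y v)
    (f' := fun y => fderiv ℝ (fderiv ℝ u) y v v)
    (g := ψ) (g' := ψ1) i5 i3 i4 (fun y hy => by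
      have hy' := tsupp_ne hε (fun y hy => (h0 y hy).1) hy
      have h1 := ((hu1.contDiffAt (ho.mem_nhds hy')).differentiableAt (by norm_num)).hasFDerivAt
      exact ((ContinuousLinearMap.apply ℝ ℝ v).hasFDerivAt.comp y h1).hasLineDerivAt v)
    (fun y _ => hψ.d1 y)
  simp only [ContinuousLinearMap.mul_apply'] at a1 a2
  rw [a1, a2, neg_neg]

lemma scale_tendsto {g b : E → ℝ} (hg : Continuous g) (hb : Continuous b)
    (hc : HasCompactSupport b) (x : E) :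
    Tendsto (fun η : ℝ => ∫ z, g (x + η • z) * b z ∂μ) (𝓝 0) (𝓝 (g x * ∫ z, b z ∂μ)) := by
  have h1 := continuous_parametric_integral_of_continuous (μ := μ)
    (f := fun (η : ℝ) (z : E) => g (x + η • z) * b z) (by fun_prop) hc
  have h2 : ∀ η : ℝ, ∫ z in tsupport b, g (x + η • z) * b z ∂μ = ∫ z, g (x + η • z) * b z ∂μ :=
    fun η => setIntegral_eq_integral_of_forall_compl_eq_zero fun z hz => by
      rw [image_eq_zero_of_notMem_tsupport hz, mul_zero]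
  simp only [h2] at h1
  have h3 := h1.tendsto 0
  simp only [zero_smul, add_zero, integral_const_mul] at h3
  exact h3

lemma scale_eq (g b : E → ℝ) (x : E) {η : ℝ} (hη : 0 < η) :
    ∫ y, g y * b (η⁻¹ • (y - x)) ∂μ = η ^ finrank ℝ E * ∫ z, g (x + η • z) * b z ∂μ := by
  have h1 := Measure.integral_comp_smul μ (fun z => g (x + η • z) * b z) η⁻¹
  simp only [smul_smul, mul_inv_cancel₀ hη.ne', one_smul, inv_pow, inv_inv, smul_eq_mul] at h1
  rw [abs_of_pos (by positivity)] at h1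
  rw [← h1, ← integral_add_left_eq_self _ x]
  simp only [add_sub_cancel_left]

lemma small {g b : E → ℝ} (hg : Continuous g) (hb : Continuous b) (hc : HasCompactSupport b)
    {k : ℕ} (hk : k ≤ finrank ℝ E) (h : k < finrank ℝ E ∨ ∫ z, b z ∂μ = 0) :
    Tendsto (fun η : ℝ => ∫ y, g y * (η⁻¹ ^ k * b (η⁻¹ • y)) ∂μ) (𝓝[>] 0) (𝓝 0) := by
  have h1 : Tendsto (fun η : ℝ => η ^ (finrank ℝ E - k) * ∫ z, g (0 + η • z) * b z ∂μ) (𝓝 0)
      (𝓝 (0 ^ (finrank ℝ E - k) * (g 0 * ∫ z, b z ∂μ))) :=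
    ((continuous_pow _).tendsto 0).mul (scale_tendsto μ hg hb hc 0)
  have h2 : (0 : ℝ) ^ (finrank ℝ E - k) * (g 0 * ∫ z, b z ∂μ) = 0 := by
    rcases h with h | h
    · rw [zero_pow (by omega), zero_mul]
    · rw [h, mul_zero, mul_zero]
  rw [h2] at h1
  refine (h1.mono_left nhdsWithin_le_nhds).congr' ?_
  filter_upwards [self_mem_nhdsWithin] with η hη
  have hη' : (0 : ℝ) < η := hη
  have h3 := scale_eq μ g b 0 hη'
  simp only [sub_zero] at h3
  simp only [mul_left_comm (g _), integral_const_mul]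
  rw [h3, ← mul_assoc, pow_sub₀ _ hη'.ne' hk, inv_pow, mul_comm (η ^ k)⁻¹]

noncomputable def Z0 (s : ℝ) : ℝ := smoothTransition (s - 1)

lemma Z0_smooth : ContDiff ℝ 2 Z0 := smoothTransition.contDiff.comp (contDiff_id.sub contDiff_const)

lemma Z0_d1 (s : ℝ) : HasDerivAt Z0 (deriv Z0 s) s :=
  (Z0_smooth.differentiable (by norm_num) s).hasDerivAt

lemma Z0_smooth1 : ContDiff ℝ 1 (deriv Z0) := Z0_smooth.deriv' 

lemma Z0_d2 (s : ℝ) : HasDerivAt (deriv Z0) (deriv (deriv Z0) s) s :=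
  (Z0_smooth1.differentiable (by norm_num) s).hasDerivAt

lemma Z0_c2 : Continuous (deriv (deriv Z0)) := Z0_smooth1.continuous_deriv le_rfl

lemma Z0_loc {s c : ℝ} (h : Z0 =ᶠ[𝓝 s] fun _ => c) :
    Z0 s = c ∧ deriv Z0 s = 0 ∧ deriv (deriv Z0) s = 0 := by
  have h1 : deriv Z0 =ᶠ[𝓝 s] fun _ => 0 := by
    refine h.deriv.trans (Eventually.of_forall fun t => ?_)
    simp
  refine ⟨h.self_of_nhds, h1.self_of_nhds, ?_⟩
  rw [h1.deriv_eq]; simp

lemma Z0_lt {s : ℝ} (h : s < 1) : Z0 s = 0 ∧ deriv Z0 s = 0 ∧ deriv (deriv Z0) s = 0 := by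
  refine Z0_loc ?_
  filter_upwards [gt_mem_nhds h] with t ht
  exact smoothTransition.zero_of_nonpos (by linarith)

lemma Z0_gt {s : ℝ} (h : 2 < s) : Z0 s = 1 ∧ deriv Z0 s = 0 ∧ deriv (deriv Z0) s = 0 := by
  refine Z0_loc ?_
  filter_upwards [lt_mem_nhds h] with t ht
  exact smoothTransition.one_of_one_le (by linarith)

noncomputable def ze (y : E) : ℝ := Z0 (‖y - 0‖ ^ 2)

noncomputable def ze1 (v y : E) : ℝ := deriv Z0 (‖y - 0‖ ^ 2) * (2 * ⟪y - 0, v⟫)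

noncomputable def ze2 (v y : E) : ℝ :=
  4 * deriv (deriv Z0) (‖y - 0‖ ^ 2) * ⟪y - 0, v⟫ ^ 2 + 2 * deriv Z0 (‖y - 0‖ ^ 2) * ‖v‖ ^ 2

lemma ze_C2 (v : E) : C2 v ze (ze1 v) (ze2 v) := C2_radial v 0 Z0_d1 Z0_d2 Z0_c2

lemma ze_lt (v : E) {y : E} (h : ‖y‖ < 1) : ze y = 0 ∧ ze1 v y = 0 ∧ ze2 v y = 0 := by
  obtain ⟨h1, h2, h3⟩ := Z0_lt (s := ‖y - 0‖ ^ 2) (by
    rw [sub_zero]; nlinarith [norm_nonneg y])
  simp only [ze, ze1, ze2, h1, h2, h3]; simp

lemma ze_gt (v : E) {y : E} (h : 2 < ‖y‖) : ze y = 1 ∧ ze1 v y = 0 ∧ ze2 v y = 0 := by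
  obtain ⟨h1, h2, h3⟩ := Z0_gt (s := ‖y - 0‖ ^ 2) (by
    rw [sub_zero]; nlinarith [norm_nonneg y])
  simp only [ze, ze1, ze2, h1, h2, h3]; simp

lemma hcs {b : E → ℝ} {R : ℝ} (h : ∀ y, R < ‖y‖ → b y = 0) : HasCompactSupport b :=
  HasCompactSupport.intro (isCompact_closedBall 0 R) fun y hy =>
    h y (not_le.1 fun hc => hy (mem_closedBall_zero_iff.2 hc))

lemma int_ze2 (v : E) : ∫ y, ze2 v y ∂μ = 0 := by
  have i1 : Integrable (ze1 v) μ :=
    (ze_C2 v).c1.integrable_of_hasCompactSupport (hcs fun y hy => (ze_gt v hy).2.1)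
  have i2 : Integrable (ze2 v) μ :=
    (ze_C2 v).c2.integrable_of_hasCompactSupport (hcs fun y hy => (ze_gt v hy).2.2)
  have a1 := integral_bilinear_hasLineDerivAt_right_eq_neg_left_of_integrable (μ := μ)
    (B := ContinuousLinearMap.mul ℝ ℝ) (v := v) (f := fun _ => (1 : ℝ)) (f' := fun _ => 0)
    (g := ze1 v) (g' := ze2 v) (by simp) (by simpa using i2) (by simpa using i1)
    (fun y _ => hasDerivAt_const _ _) (fun y _ => (ze_C2 v).d2 y)
  simpa using a1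

lemma green2_dir (hn : 2 ≤ finrank ℝ E) {u : E → ℝ} (hc : Continuous u)
    (hu : ContDiffOn ℝ 2 u {0}ᶜ) {v : E} {φ φ1 φ2 : E → ℝ} (hφ : C2 v φ φ1 φ2) {R : ℝ}
    (h0 : ∀ y, R < ‖y‖ → φ y = 0 ∧ φ1 y = 0 ∧ φ2 y = 0) :
    (∀ η : ℝ, 0 < η →
      Integrable (fun y => iteratedFDeriv ℝ 2 u y ![v, v] * (φ y * ze (η⁻¹ • y))) μ) ∧
    Tendsto (fun η : ℝ => ∫ y, iteratedFDeriv ℝ 2 u y ![v, v] * (φ y * ze (η⁻¹ • y)) ∂μ)
      (𝓝[>] 0) (𝓝 (∫ y, u y * φ2 y ∂μ)) := by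
  have key : ∀ η : ℝ, 0 < η → _ := fun η hη =>
    green1 μ hu (hφ.mul ((ze_C2 v).scale η⁻¹)) (R := R) hη fun y hy => by
      rcases hy with hy | hy
      · obtain ⟨h1, h2, h3⟩ := ze_lt v (y := η⁻¹ • y) (by
          rw [norm_smul, norm_inv, Real.norm_eq_abs, abs_of_pos hη, inv_mul_lt_iff₀ hη]; linarith)
        simp [h1, h2, h3]
      · obtain ⟨h1, h2, h3⟩ := h0 y hy
        simp [h1, h2, h3]
  refine ⟨fun η hη => (key η hη).1, ?_⟩
  have t0 := small μ (g := fun y => u y * φ2 y) (b := fun y => 1 - ze y) (hc.mul hφ.c2)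
    (continuous_const.sub (ze_C2 v).c0) (hcs fun y hy => by rw [(ze_gt v hy).1, sub_self])
    (k := 0) (by omega) (Or.inl (by omega))
  have t1 := small μ (g := fun y => u y * φ1 y) (hc.mul hφ.c1) (ze_C2 v).c1
    (hcs fun y hy => (ze_gt v hy).2.1) (k := 1) (by omega) (Or.inl (by omega))
  have t2 := small μ (g := fun y => u y * φ y) (hc.mul hφ.c0) (ze_C2 v).c2
    (hcs fun y hy => (ze_gt v hy).2.2) (k := 2) hn (Or.inr (int_ze2 μ v))
  have t3 := ((t0.const_sub (∫ y, u y * φ2 y ∂μ)).add (t1.const_mul 2)).add t2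
  simp only [sub_zero, mul_zero, add_zero] at t3
  refine t3.congr' ?_
  filter_upwards [self_mem_nhdsWithin] with η hη
  have hs := (ze_C2 v).scale η⁻¹
  have ic : ∀ {a b : E → ℝ}, Continuous a → (∀ y, R < ‖y‖ → a y = 0) → Continuous b →
      Integrable (fun y => u y * a y * b y) μ := fun ha ha0 hb =>
    ((hc.mul ha).mul hb).integrable_of_hasCompactSupport
      (hcs (R := R) fun y hy => by simp [ha0 y hy])
  have j0 := ic hφ.c2 (fun y hy => (h0 y hy).2.2) (continuous_const (y := (1 : ℝ)))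
  have j1 := ic hφ.c2 (fun y hy => (h0 y hy).2.2) (b := fun y => 1 - ze (η⁻¹ • y))
    ((continuous_const (y := (1 : ℝ))).sub hs.c0)
  have j2 := ic hφ.c1 (fun y hy => (h0 y hy).2.1) hs.c1
  have j3 := ic hφ.c0 (fun y hy => (h0 y hy).1) hs.c2
  simp only [mul_one] at j0
  rw [← (key η hη).2]
  simp only [pow_zero, one_mul, pow_one]
  have j4 : Integrable (fun y => u y * φ2 y - u y * φ2 y * (1 - ze (η⁻¹ • y))) μ := j0.sub j1
  have j5 : Integrable (fun y => u y * φ2 y - u y * φ2 y * (1 - ze (η⁻¹ • y))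
      + 2 * (u y * φ1 y * (η⁻¹ * ze1 v (η⁻¹ • y)))) μ := j4.add (j2.const_mul 2)
  rw [← integral_sub j0 j1, ← integral_const_mul, ← integral_add j4 (j2.const_mul 2),
    ← integral_add j5 j3]
  refine integral_congr_ae (Eventually.of_forall fun y => ?_)
  simp only
  ring

lemma green2 (hn : 2 ≤ finrank ℝ E) {u G : E → ℝ} (hc : Continuous u)
    (hu : ContDiffOn ℝ 2 u {0}ᶜ) (hG : Measurable G) (hG0 : ∀ y, 0 ≤ G y) {ι : Type*} [Fintype ι]
    (b : ι → E) (hΔ : ∀ y ≠ 0, ∑ i, iteratedFDeriv ℝ 2 u y ![b i, b i] = -G y)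
    {φ : E → ℝ} {φ1 φ2 : ι → E → ℝ} (hφc : Continuous φ) (hφ : ∀ i, C2 (b i) φ (φ1 i) (φ2 i))
    (hφ0 : ∀ y, 0 ≤ φ y)
    {R : ℝ} (h0 : ∀ i y, R < ‖y‖ → φ y = 0 ∧ φ1 i y = 0 ∧ φ2 i y = 0) :
    ∫⁻ y, ENNReal.ofReal (G y * φ y) ∂μ = ENNReal.ofReal (∫ y, u y * -∑ i, φ2 i y ∂μ) ∧
      0 ≤ ∫ y, u y * -∑ i, φ2 i y ∂μ := by
  have : Nontrivial E := Module.nontrivial_of_finrank_pos (R := ℝ) (by omega)
  have hae : ∀ᵐ y ∂μ, y ≠ 0 := by simp [ae_iff]
  have key := fun i => green2_dir μ hn hc hu (hφ i) (h0 i)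
  have hz0 : ∀ y : E, 0 ≤ ze y := fun y => smoothTransition.nonneg _
  have hz1 : ∀ y : E, ze y ≤ 1 := fun y => smoothTransition.le_one _
  have e1 : ∀ η : ℝ, (fun y => -∑ i, iteratedFDeriv ℝ 2 u y ![b i, b i] * (φ y * ze (η⁻¹ • y)))
      =ᵐ[μ] fun y => G y * (φ y * ze (η⁻¹ • y)) := by
    intro η
    filter_upwards [hae] with y hy
    rw [← Finset.sum_mul, hΔ y hy]; ring
  have i1 : ∀ η : ℝ, 0 < η → Integrable (fun y => G y * (φ y * ze (η⁻¹ • y))) μ := fun η hη =>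
    (integrable_finsetSum _ fun i _ => (key i).1 η hη).neg.congr (e1 η)
  have t1 : Tendsto (fun η : ℝ => ∫ y, G y * (φ y * ze (η⁻¹ • y)) ∂μ) (𝓝[>] 0)
      (𝓝 (∫ y, u y * -∑ i, φ2 i y ∂μ)) := by
    have t2 := (tendsto_finsetSum Finset.univ fun i _ => (key i).2).neg
    have e2 : ∫ y, u y * -∑ i, φ2 i y ∂μ = -∑ i, ∫ y, u y * φ2 i y ∂μ := by
      rw [← integral_finsetSum (f := fun i y => u y * φ2 i y) _ fun i _ =>
        (hc.mul (hφ i).c2).integrable_of_hasCompactSupport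
        (hcs (R := R) fun y hy => by simp [(h0 i y hy).2.2]), ← integral_neg]
      simp only [mul_neg, Finset.mul_sum]
    rw [e2]
    refine t2.congr' ?_
    filter_upwards [self_mem_nhdsWithin] with η hη
    rw [← integral_congr_ae (e1 η), integral_neg,
      integral_finsetSum _ fun i _ => (key i).1 η hη]
  have t3 : Tendsto (fun η : ℝ => ∫⁻ y, ENNReal.ofReal (G y * (φ y * ze (η⁻¹ • y))) ∂μ) (𝓝[>] 0)
      (𝓝 (ENNReal.ofReal (∫ y, u y * -∑ i, φ2 i y ∂μ))) := by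
    refine (ENNReal.tendsto_ofReal t1).congr' ?_
    filter_upwards [self_mem_nhdsWithin] with η hη
    exact ofReal_integral_eq_lintegral_ofReal (i1 η hη) (Eventually.of_forall fun y =>
      mul_nonneg (hG0 y) (mul_nonneg (hφ0 y) (hz0 _)))
  refine ⟨le_antisymm ?_ ?_, ge_of_tendsto' t1 fun η => integral_nonneg fun y =>
    mul_nonneg (hG0 y) (mul_nonneg (hφ0 y) (hz0 _))⟩
  · have hs : Tendsto (fun k : ℕ => (1 : ℝ) / ((k : ℝ) + 1)) atTop (𝓝[>] 0) :=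
      tendsto_nhdsWithin_iff.2 ⟨tendsto_one_div_add_atTop_nhds_zero_nat,
        Eventually.of_forall fun k => by simp only [mem_Ioi]; positivity⟩
    rw [← (t3.comp hs).liminf_eq]
    refine le_trans (lintegral_mono_ae ?_) (lintegral_liminf_le fun k => ?_)
    · filter_upwards [hae] with y hy
      refine le_liminf_of_le (by isBoundedDefault) ?_
      have hy' : 0 < ‖y‖ := norm_pos_iff.2 hy
      filter_upwards [eventually_gt_atTop ⌈2 / ‖y‖⌉₊] with k hk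
      have h1 : 2 / ‖y‖ < (k : ℝ) + 1 := by
        have := Nat.le_ceil (2 / ‖y‖)
        have : (⌈2 / ‖y‖⌉₊ : ℝ) < k := by exact_mod_cast hk
        linarith
      rw [(ze_gt 0 (y := (1 / ((k : ℝ) + 1))⁻¹ • y) (by
        rw [norm_smul, one_div, inv_inv, Real.norm_eq_abs, abs_of_pos (by positivity)]
        rwa [div_lt_iff₀ hy'] at h1)).1, mul_one]
    · exact (hG.mul (hφc.mul ((ze_C2 (0 : E)).c0.comp
        (continuous_const_smul _))).measurable).ennreal_ofReal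
  · refine le_of_tendsto' t3 fun η => lintegral_mono fun y => ENNReal.ofReal_le_ofReal ?_
    exact mul_le_mul_of_nonneg_left (mul_le_of_le_one_right (hφ0 y) (hz1 _)) (hG0 y)

end Vale.Agent.P100
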