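import Vale.Agent.P100.Local

namespace Vale.Agent.P100
open MeasureTheory Set Real
open scoped ENNReal
set_option linter.unusedSectionVars false

noncomputable def kr (m c z : ℝ) : ℝ := (cosh z - c) ^ (-m)

noncomputable def dkr (m c z : ℝ) : ℝ := -m * sinh z * (cosh z - c) ^ (-m - 1)

lemma coshD_nonneg {c : ℝ} (hc : c ≤ 1) (z : ℝ) : 0 ≤ cosh z - c := by
  linarith [one_le_cosh z]

lemma coshD_pos {c : ℝ} (hc : c < 1) (z : ℝ) : 0 < cosh z - c := by
  linarith [one_le_cosh z]

lemma kr_nonneg (m : ℝ) {c : ℝ} (hc : c ≤ 1) (z : ℝ) : 0 ≤ kr m c z :=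
  rpow_nonneg (coshD_nonneg hc z) _

lemma kr_neg (m c z : ℝ) : kr m c (-z) = kr m c z := by simp [kr]

lemma dkr_neg (m c z : ℝ) : dkr m c (-z) = -dkr m c z := by simp [dkr]

lemma kr_abs (m c z : ℝ) : kr m c |z| = kr m c z := by simp [kr]

lemma hasDerivAt_kr (m : ℝ) {c : ℝ} (hc : c < 1) (z : ℝ) :
    HasDerivAt (kr m c) (dkr m c z) z := by
  have h1 : HasDerivAt (fun z => cosh z - c) (sinh z) z := (hasDerivAt_cosh z).sub_const c
  have h2 := h1.rpow_const (p := -m) (Or.inl (coshD_pos hc z).ne')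
  refine h2.congr_deriv ?_
  unfold dkr; ring

lemma continuous_dkr (m : ℝ) {c : ℝ} (hc : c < 1) : Continuous (dkr m c) := by
  unfold dkr
  refine (continuous_const.mul continuous_sinh).mul ?_
  exact (continuous_cosh.sub continuous_const).rpow_const fun z => Or.inl (coshD_pos hc z).ne'

lemma dkr_nonpos {m c z : ℝ} (hm : 0 < m) (hc : c ≤ 1) (hz : 0 ≤ z) : dkr m c z ≤ 0 := by
  unfold dkr
  have h1 : 0 ≤ sinh z := sinh_nonneg_iff.2 hz
  have h2 : 0 ≤ (cosh z - c) ^ (-m - 1) := rpow_nonneg (coshD_nonneg hc z) _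
  have : 0 ≤ m * sinh z * (cosh z - c) ^ (-m - 1) := by positivity
  linarith

lemma kr_anti {m c a b : ℝ} (hm : 0 < m) (hc : c < 1) (h : |a| ≤ |b|) : kr m c b ≤ kr m c a := by
  unfold kr
  exact rpow_le_rpow_of_nonpos (coshD_pos hc a) (by linarith [cosh_le_cosh.2 h]) (by linarith)

lemma measurable_kr (m : ℝ) : Measurable fun z : ℝ × ℝ => kr m z.1 z.2 := by
  unfold kr
  exact ((continuous_cosh.measurable.comp measurable_snd).sub measurable_fst).pow_const _

lemma measurable_dkr (m : ℝ) : Measurable fun z : ℝ × ℝ => dkr m z.1 z.2 := by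
  unfold dkr
  exact (measurable_const.mul (continuous_sinh.measurable.comp measurable_snd)).mul
    (((continuous_cosh.measurable.comp measurable_snd).sub measurable_fst).pow_const _)

lemma coshD_far {c ε z : ℝ} (hc : c ≤ 1) (hε : 0 < ε) (hε1 : ε ≤ 1) (hz : ε ≤ |z|) :
    ε ^ 2 / 8 * exp |z| ≤ cosh z - c := by
  rw [← cosh_abs, cosh_eq]
  set w := |z|
  have h1 : exp (-w) ≤ exp (-ε) := exp_le_exp.2 (by linarith)
  have h2 : exp (-ε) ≤ 1 - ε / 2 := by
    have h3 : 1 + ε ≤ exp ε := by linarith [add_one_le_exp ε]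
    rw [exp_neg, inv_le_comm₀ (exp_pos ε) (by linarith)]
    refine le_trans ?_ h3
    rw [inv_le_iff_one_le_mul₀ (by linarith)]
    nlinarith
  have h4 : exp w * exp (-w) = 1 := by rw [← exp_add]; simp
  have h5 : ε / 2 ≤ 1 - exp (-w) := by linarith
  have h6 : (ε / 2) ^ 2 ≤ (1 - exp (-w)) ^ 2 := by gcongr
  have h7 : exp w * (1 - exp (-w)) ^ 2 = exp w + exp (-w) - 2 := by
    have : exp w * (1 - exp (-w)) ^ 2
        = exp w - 2 * (exp w * exp (-w)) + (exp w * exp (-w)) * exp (-w) := by ring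
    rw [this, h4]; ring
  have h8 : exp w * (ε / 2) ^ 2 ≤ exp w * (1 - exp (-w)) ^ 2 := by gcongr
  nlinarith

noncomputable def Cf (m ε : ℝ) : ℝ := (ε ^ 2 / 8) ^ (-m)

lemma Cf_pos (m : ℝ) {ε : ℝ} (hε : 0 < ε) : 0 < Cf m ε := rpow_pos_of_pos (by positivity) _

lemma kr_far {m c ε z : ℝ} (hm : 0 < m) (hc : c ≤ 1) (hε : 0 < ε) (hε1 : ε ≤ 1) (hz : ε ≤ |z|) :
    kr m c z ≤ Cf m ε * exp (-m * |z|) := by
  unfold kr Cf
  refine (rpow_le_rpow_of_nonpos (by positivity) (coshD_far hc hε hε1 hz) (by linarith)).trans ?_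
  rw [mul_rpow (by positivity) (exp_pos _).le, ← exp_mul, mul_comm |z|]

lemma abs_dkr_le {m c z : ℝ} (hm : 0 < m) (hc : |c| ≤ 1) :
    |dkr m c z| ≤ m * kr m c z + 2 * m * (cosh z - c) ^ (-(m + 1 / 2)) := by
  have hc1 := (abs_le.1 hc).2
  have hc2 := (abs_le.1 hc).1
  rcases (coshD_nonneg hc1 z).eq_or_lt with h0 | h0
  · unfold dkr kr
    rw [← h0, zero_rpow (by linarith), zero_rpow (by linarith), zero_rpow (by linarith)]
    simp
  · unfold dkr kr
    set D := cosh z - c with hD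
    have hs : |sinh z| ≤ D + 2 * D ^ (1 / 2 : ℝ) := by
      have e1 : (D ^ (1 / 2 : ℝ)) ^ 2 = D := by
        rw [← rpow_natCast, ← rpow_mul h0.le]; norm_num
      have e2 : 0 ≤ D ^ (1 / 2 : ℝ) := rpow_nonneg h0.le _
      refine abs_le_of_sq_le_sq ?_ (by positivity)
      rw [Real.sinh_sq]
      have e6 : cosh z = D + c := by rw [hD]; ring
      have e7 : 0 ≤ D * D ^ (1 / 2 : ℝ) := by positivity
      rw [e6]
      nlinarith
    have e3 : D ^ (-m) = D * D ^ (-m - 1) := by
      rw [mul_comm, ← rpow_add_one h0.ne']; congr 1; ring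
    have e4 : D ^ (-(m + 1 / 2)) = D ^ (1 / 2 : ℝ) * D ^ (-m - 1) := by
      rw [← rpow_add h0]; congr 1; ring
    have e5 : 0 ≤ D ^ (-m - 1) := rpow_nonneg h0.le _
    rw [abs_mul, abs_mul, abs_neg, abs_of_pos hm, abs_of_nonneg e5, e3, e4]
    calc _ ≤ m * (D + 2 * D ^ (1 / 2 : ℝ)) * D ^ (-m - 1) := by gcongr
      _ = _ := by ring

lemma abs_dkr_far {m c z : ℝ} (hm : 0 < m) (hc : |c| ≤ 1) (hz : 1 ≤ |z|) :
    |dkr m c z| ≤ 5 * m * kr m c z := by
  refine (abs_dkr_le hm hc).trans ?_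
  have h1 := coshD_far (abs_le.1 hc).2 one_pos le_rfl hz
  have h2 : 2 ≤ exp |z| := by linarith [add_one_le_exp |z|]
  have h3 : 1 / 4 ≤ cosh z - c := by linarith
  have h4 : (cosh z - c) ^ (-(m + 1 / 2)) ≤ 2 * kr m c z := by
    unfold kr
    rw [neg_add, rpow_add (by linarith), mul_comm]
    gcongr
    calc (cosh z - c) ^ (-(1 / 2 : ℝ)) ≤ (1 / 4 : ℝ) ^ (-(1 / 2 : ℝ)) :=
          rpow_le_rpow_of_nonpos (by norm_num) h3 (by norm_num)
      _ = 2 := by
          rw [show (1 / 4 : ℝ) = 2 ^ (-2 : ℝ) by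
            rw [rpow_neg (by norm_num)]; norm_num, ← rpow_mul (by norm_num)]
          norm_num
  nlinarith

open Classical in
noncomputable def Kn (m c0 ε c z : ℝ) : ℝ≥0∞ :=
  if c < 1 then ENNReal.ofReal (c0 * (kr m c z - kr m c ε)) else 0

open Classical in
noncomputable def κn (m c0 ε c z : ℝ) : ℝ≥0∞ :=
  if c < 1 ∧ z < ε then ENNReal.ofReal (c0 * -dkr m c z) else 0

lemma measurable_Kn (m c0 ε : ℝ) : Measurable fun z : ℝ × ℝ => Kn m c0 ε z.1 z.2 := by
  unfold Kn
  refine Measurable.ite (measurableSet_lt measurable_fst measurable_const) ?_ measurable_const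
  refine (measurable_const.mul ((measurable_kr m).sub ?_)).ennreal_ofReal
  exact (measurable_kr m).comp (f := fun z : ℝ × ℝ => (z.1, ε)) (by fun_prop)

lemma measurable_κn (m c0 ε : ℝ) : Measurable fun z : ℝ × ℝ => κn m c0 ε z.1 z.2 := by
  unfold κn
  refine Measurable.ite ((measurableSet_lt measurable_fst measurable_const).inter
    (measurableSet_lt measurable_snd measurable_const)) ?_ measurable_const
  exact (measurable_const.mul (measurable_dkr m).neg).ennreal_ofReal

lemma ker1_Kn {m c0 ε : ℝ} (hm : 0 < m) (hc0 : 0 < c0) (hε : 0 < ε) (c : ℝ) :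
    Ker1 (Kn m c0 ε c) (κn m c0 ε c) ε where
  mK := (measurable_Kn m c0 ε).comp (f := fun z : ℝ => (c, z)) (by fun_prop)
  mκ := (measurable_κn m c0 ε).comp (f := fun z : ℝ => (c, z)) (by fun_prop)
  even := fun z => by simp only [Kn, kr_neg]
  anti := fun a b ha hab => by
    unfold Kn
    split_ifs with hc
    · have := kr_anti hm hc (a := a) (b := b) (by rwa [abs_of_nonneg ha, abs_of_nonneg (ha.trans hab)])
      gcongr
    · exact le_rfl
  zero := fun z hz => by
    unfold Kn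
    split_ifs with hc
    · have := kr_anti hm hc (a := ε) (b := z) (by
        rwa [abs_of_pos hε, abs_of_pos (hε.trans_le hz)])
      exact ENNReal.ofReal_eq_zero.2 (mul_nonpos_of_nonneg_of_nonpos hc0.le (by linarith))
    · rfl
  epos := hε
  ftc := fun a b ha hab => by
    by_cases hc : c < 1
    swap
    · simp [Kn, hc]
    by_cases haε : ε ≤ a
    · have := kr_anti hm hc (a := ε) (b := a) (by
        rwa [abs_of_pos hε, abs_of_pos (hε.trans_le haε)])
      have e : Kn m c0 ε c a = 0 := by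
        unfold Kn
        rw [if_pos hc]
        exact ENNReal.ofReal_eq_zero.2 (mul_nonpos_of_nonneg_of_nonpos hc0.le (by linarith))
      rw [e]; exact zero_le
    have hab' : a ≤ min b ε := le_min hab (not_le.1 haε).le
    have e1 : ENNReal.ofReal (c0 * (kr m c a - kr m c (min b ε)))
        ≤ ∫⁻ z in Ioo a b, κn m c0 ε c z := by
      refine le_trans ?_ (lintegral_mono_set (Ioo_subset_Ioo le_rfl (min_le_left b ε)))
      have hcont : Continuous fun z => c0 * -dkr m c z :=
        continuous_const.mul (continuous_dkr m hc).neg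
      rw [setLIntegral_congr_fun measurableSet_Ioo
        (g := fun z => ENNReal.ofReal (c0 * -dkr m c z)) (fun z hz => by
          simp only [κn, if_pos (And.intro hc (hz.2.trans_le (min_le_right b ε)))]),
        setLIntegral_congr Ioo_ae_eq_Ioc, ← ofReal_integral_eq_lintegral_ofReal,
        ← intervalIntegral.integral_of_le hab', intervalIntegral.integral_const_mul,
        intervalIntegral.integral_neg, intervalIntegral.integral_eq_sub_of_hasDerivAt
          (fun z _ => hasDerivAt_kr m hc z) ((continuous_dkr m hc).intervalIntegrable _ _)]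
      · apply le_of_eq; congr 1; ring
      · exact (intervalIntegrable_iff_integrableOn_Ioc_of_le hab').1 (hcont.intervalIntegrable _ _)
      · filter_upwards [ae_restrict_mem measurableSet_Ioc] with z hz
        have := dkr_nonpos hm hc.le (ha.trans hz.1.le)
        exact mul_nonneg hc0.le (by linarith)
    have e2 : ENNReal.ofReal (c0 * (kr m c (min b ε) - kr m c ε)) ≤ Kn m c0 ε c b := by
      unfold Kn
      rw [if_pos hc]
      rcases le_total b ε with h | h
      · rw [min_eq_left h]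
      · rw [min_eq_right h]; simp
    refine le_trans ?_ (add_le_add e2 e1)
    refine le_trans ?_ ENNReal.ofReal_add_le
    unfold Kn
    rw [if_pos hc]
    apply le_of_eq; congr 1; ring

lemma Kn_le {m c0 ε c : ℝ} (hc0 : 0 < c0) (hc : c ≤ 1) (z : ℝ) :
    Kn m c0 ε c z ≤ ENNReal.ofReal (c0 * kr m c z) := by
  unfold Kn
  split_ifs with h
  · have := kr_nonneg m hc ε
    gcongr; linarith
  · exact zero_le

lemma le_Kn_add {m c0 ε c : ℝ} (hm : 0 < m) (hc0 : 0 < c0) (hε : 0 < ε) (hε1 : ε ≤ 1)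
    (hc : c < 1) (z : ℝ) :
    ENNReal.ofReal (c0 * kr m c z)
      ≤ Kn m c0 ε c z + ENNReal.ofReal (c0 * Cf m ε * exp (-m * |z|)) := by
  by_cases hz : ε ≤ |z|
  · refine le_trans ?_ le_add_self
    rw [mul_assoc]
    gcongr
    exact kr_far hm hc.le hε hε1 hz
  · unfold Kn
    rw [if_pos hc]
    have h1 := kr_far hm hc.le hε hε1 (le_abs_self ε)
    have h2 : exp (-m * |ε|) ≤ exp (-m * |z|) := by
      rw [abs_of_pos hε]; gcongr exp ?_; nlinarith [not_le.1 hz]
    have h3 := Cf_pos m hε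
    have h4 : kr m c ε ≤ Cf m ε * exp (-m * |z|) := h1.trans (by gcongr)
    have h5 := kr_anti hm hc (a := z) (b := ε) (by rw [abs_of_pos hε]; exact (not_le.1 hz).le)
    rw [← ENNReal.ofReal_add (mul_nonneg hc0.le (by linarith)) (by positivity)]
    gcongr
    nlinarith

end Vale.Agent.P100
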