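import Vale.Agent.P100.OneD

namespace Vale.Agent.P100
open MeasureTheory Set
open scoped ENNReal
set_option linter.unusedSectionVars false

lemma meas_setint {α : Type*} [MeasurableSpace α] {S : α → Set ℝ}
    (hS : MeasurableSet {p : α × ℝ | p.2 ∈ S p.1}) {F : α → ℝ → ℝ≥0∞}
    (hF : Measurable fun p : α × ℝ => F p.1 p.2) :
    Measurable fun a => ∫⁻ r in S a, F a r := by
  have h1 : (fun a => ∫⁻ r in S a, F a r)
      = fun a => ∫⁻ r, ({p : α × ℝ | p.2 ∈ S p.1}.indicator (fun p => F p.1 p.2)) (a, r) := by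
    ext a
    have hm : MeasurableSet (S a) := measurable_prodMk_left hS
    rw [← lintegral_indicator hm]
    rfl
  rw [h1]
  exact (hF.indicator hS).lintegral_prod_right'

variable {Ω : Type*} [TopologicalSpace Ω] [MeasurableSpace Ω] [BorelSpace Ω]
  [SecondCountableTopology Ω]

def lev (f : Ω × ℝ → ℝ) (x : Ω × ℝ) : Set ℝ := {s | x.2 < f (x.1, s)}

noncomputable def rad (f : Ω × ℝ → ℝ) (x : Ω × ℝ) : ℝ :=
  Metric.infDist 0 {s | f (x.1, s) ≤ x.2}

structure Side (f : Ω × ℝ → ℝ) : Prop where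
  cont : Continuous f
  pos : ∀ x, 0 < f x
  small : ∀ θ l, 0 < l → ∃ s, f (θ, s) ≤ l

omit [TopologicalSpace Ω] [MeasurableSpace Ω] [BorelSpace Ω] [SecondCountableTopology Ω] in
lemma rad_nonneg (f : Ω × ℝ → ℝ) (x : Ω × ℝ) : 0 ≤ rad f x := Metric.infDist_nonneg

omit [TopologicalSpace Ω] [MeasurableSpace Ω] [BorelSpace Ω] [SecondCountableTopology Ω] in
lemma rad_sub (f : Ω × ℝ → ℝ) (x : Ω × ℝ) : Ioo (-rad f x) (rad f x) ⊆ lev f x := by
  intro s hs
  by_contra hc
  have h1 : s ∈ {s | f (x.1, s) ≤ x.2} := show f (x.1, s) ≤ x.2 from le_of_not_gt hc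
  have h2 := Metric.infDist_le_dist_of_mem (x := (0 : ℝ)) h1
  rw [Real.dist_eq, zero_sub, abs_neg] at h2
  exact absurd (abs_lt.2 hs) (not_lt.2 h2)

namespace Side
variable {f : Ω × ℝ → ℝ} (h : Side f)
include h

omit [MeasurableSpace Ω] [BorelSpace Ω] [SecondCountableTopology Ω] in
lemma exists_end {x : Ω × ℝ} (hx : 0 < x.2) : ∃ s, |s| = rad f x ∧ f (x.1, s) ≤ x.2 := by
  have hc : IsClosed {s | f (x.1, s) ≤ x.2} :=
    isClosed_le (h.cont.comp (by fun_prop)) continuous_const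
  obtain ⟨s, hs, e⟩ := hc.exists_infDist_eq_dist (h.small x.1 x.2 hx) 0
  refine ⟨s, ?_, hs⟩
  rw [rad, e, Real.dist_eq, zero_sub, abs_neg]

omit [MeasurableSpace Ω] [BorelSpace Ω] [SecondCountableTopology Ω] in
lemma lt_rad_iff {x : Ω × ℝ} (hx : 0 < x.2) (y : ℝ) :
    y < rad f x ↔ ∀ s ∈ Icc (-y) y, x.2 < f (x.1, s) := by
  constructor
  · intro hy s hs
    exact rad_sub f x ⟨by linarith [hs.1], by linarith [hs.2]⟩
  · intro hy
    obtain ⟨s, e, hs⟩ := h.exists_end hx
    by_contra hc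
    have : |s| ≤ y := e ▸ not_lt.1 hc
    exact absurd (hy s (abs_le.1 this)) (not_lt.2 hs)

lemma meas : Measurable f := h.cont.measurable

lemma meas_rad : Measurable (rad f) := by
  refine measurable_of_Ioi fun y => ?_
  by_cases hy : y < 0
  · have : rad f ⁻¹' Ioi y = univ := eq_univ_of_forall fun x => hy.trans_le (rad_nonneg f x)
    rw [this]; exact MeasurableSet.univ
  · have : rad f ⁻¹' Ioi y
        = {x : Ω × ℝ | 0 < x.2} ∩ {x | ∀ s ∈ Icc (-y) y, x.2 < f (x.1, s)} := by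
      ext x
      simp only [mem_preimage, mem_Ioi, mem_inter_iff, mem_ofPred_eq]
      by_cases hx : 0 < x.2
      · rw [h.lt_rad_iff hx]; simp [hx]
      · have : {s | f (x.1, s) ≤ x.2} = ∅ :=
          eq_empty_of_forall_notMem fun s hs => hx ((h.pos _).trans_le hs)
        simp only [rad, this, Metric.infDist_empty, hx, false_and, iff_false]
        exact hy
    rw [this]
    refine (measurableSet_lt measurable_const measurable_snd).inter (IsOpen.measurableSet ?_)
    rw [isOpen_iff_eventually]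
    intro x hx
    refine isCompact_Icc.eventually_forall_of_forall_eventually
      (P := fun (x : Ω × ℝ) (s : ℝ) => x.2 < f (x.1, s)) fun s hs => ?_
    have ho : IsOpen {z : (Ω × ℝ) × ℝ | z.1.2 < f (z.1.1, z.2)} :=
      isOpen_lt (by fun_prop) (h.cont.comp (by fun_prop))
    exact ho.mem_nhds (hx s hs)

lemma meas_lev {α : Type*} [MeasurableSpace α] {g : α → Ω × ℝ} (hg : Measurable g) :
    MeasurableSet {p : α × ℝ | p.2 ∈ lev f (g p.1)} :=
  measurableSet_lt (by fun_prop) (h.meas.comp (by fun_prop))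

end Side

noncomputable def muX (σ : Measure Ω) : Measure (Ω × ℝ) := σ.prod (volume.restrict (Ioi 0))

noncomputable def muP (σ : Measure Ω) : Measure (Ω × ℝ) := σ.prod volume

instance (σ : Measure Ω) [SFinite σ] : SFinite (muX σ) := by unfold muX; infer_instance

instance (σ : Measure Ω) [SFinite σ] : SFinite (muP σ) := by unfold muP; infer_instance

variable (σ : Measure Ω) [SFinite σ]

lemma layer {g : Ω × ℝ → ℝ} (hg : Side g) {H : Ω × ℝ → ℝ≥0∞} (hH : Measurable H) :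
    ∫⁻ y, ∫⁻ r in lev g y, H (y.1, r) ∂volume ∂muX σ
      = ∫⁻ z, H z * ENNReal.ofReal (g z) ∂muP σ := by
  have m1 : Measurable fun y : Ω × ℝ => ∫⁻ r in lev g y, H (y.1, r) :=
    meas_setint (hg.meas_lev measurable_id) (hH.comp (by fun_prop))
  have m2 : Measurable fun z => H z * ENNReal.ofReal (g z) := hH.mul hg.meas.ennreal_ofReal
  unfold muX muP
  rw [lintegral_prod _ m1.aemeasurable, lintegral_prod _ m2.aemeasurable]
  refine lintegral_congr fun ω => ?_
  have e1 : ∀ l : ℝ, ∫⁻ r in lev g (ω, l), H (ω, r)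
      = ∫⁻ r, ({p : ℝ × ℝ | p.1 < g (ω, p.2)}.indicator (fun p => H (ω, p.2))) (l, r) := by
    intro l
    have hm : MeasurableSet (lev g (ω, l)) :=
      measurableSet_lt measurable_const (hg.meas.comp (by fun_prop))
    rw [← lintegral_indicator hm]
    rfl
  simp only [e1]
  have m3 : Measurable ({p : ℝ × ℝ | p.1 < g (ω, p.2)}.indicator (fun p => H (ω, p.2))) :=
    (hH.comp (by fun_prop)).indicator
      (measurableSet_lt measurable_fst (hg.meas.comp (by fun_prop)))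
  rw [lintegral_lintegral_swap (f := fun l r =>
    ({p : ℝ × ℝ | p.1 < g (ω, p.2)}.indicator (fun p => H (ω, p.2))) (l, r)) m3.aemeasurable]
  refine lintegral_congr fun r => ?_
  have e2 : (fun l : ℝ => ({p : ℝ × ℝ | p.1 < g (ω, p.2)}.indicator (fun p => H (ω, p.2))) (l, r))
      = (Iio (g (ω, r))).indicator fun _ => H (ω, r) := rfl
  rw [e2, lintegral_indicator measurableSet_Iio, setLIntegral_const,
    Measure.restrict_apply measurableSet_Iio, Iio_inter_Ioi, Real.volume_Ioo, sub_zero]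

structure KFam (K κ : Ω → Ω → ℝ → ℝ≥0∞) (ε : ℝ) : Prop where
  mK : Measurable fun z : (Ω × Ω) × ℝ => K z.1.1 z.1.2 z.2
  mκ : Measurable fun z : (Ω × Ω) × ℝ => κ z.1.1 z.1.2 z.2
  ker : ∀ θ ω, Ker1 (K θ ω) (κ θ ω) ε

noncomputable def pot (K : Ω → Ω → ℝ → ℝ≥0∞) (g : Ω × ℝ → ℝ) (θ : Ω) (s : ℝ) : ℝ≥0∞ :=
  ∫⁻ y, K θ y.1 (s - y.2) * ENNReal.ofReal (g y) ∂muP σ

noncomputable def locm (K : Ω → Ω → ℝ → ℝ≥0∞) (f g : Ω × ℝ → ℝ) : ℝ≥0∞ :=
  ∫⁻ θ, pot σ K g θ 0 * ENNReal.ofReal (f (θ, 0)) ∂σ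

noncomputable def attr0 (κ : Ω → Ω → ℝ → ℝ≥0∞) (f g : Ω × ℝ → ℝ) : ℝ≥0∞ :=
  ∫⁻ x, (∫⁻ y, att (κ x.1 y.1) x.2 y.2 * ENNReal.ofReal (g y) ∂muP σ)
    * ENNReal.ofReal (f x) ∂muP σ

namespace KFam
variable {K κ : Ω → Ω → ℝ → ℝ≥0∞} {ε : ℝ} (h : KFam K κ ε)
include h

omit [TopologicalSpace Ω] [BorelSpace Ω] [SecondCountableTopology Ω] in
lemma swap : KFam (fun ω θ => K θ ω) (fun ω θ => κ θ ω) ε where
  mK := h.mK.comp (f := fun z : (Ω × Ω) × ℝ => ((z.1.2, z.1.1), z.2)) (by fun_prop)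
  mκ := h.mκ.comp (f := fun z : (Ω × Ω) × ℝ => ((z.1.2, z.1.1), z.2)) (by fun_prop)
  ker := fun θ ω => h.ker ω θ

omit [TopologicalSpace Ω] [BorelSpace Ω] [SecondCountableTopology Ω] in
lemma mKc {α : Type*} [MeasurableSpace α] {a b : α → Ω} {c : α → ℝ} (ha : Measurable a)
    (hb : Measurable b) (hc : Measurable c) : Measurable fun x => K (a x) (b x) (c x) :=
  h.mK.comp (f := fun x => ((a x, b x), c x)) (by fun_prop)

omit [TopologicalSpace Ω] [BorelSpace Ω] [SecondCountableTopology Ω] in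
lemma mattc {α : Type*} [MeasurableSpace α] {a b : α → Ω} {c d : α → ℝ} (ha : Measurable a)
    (hb : Measurable b) (hc : Measurable c) (hd : Measurable d) :
    Measurable fun x => att (κ (a x) (b x)) (c x) (d x) := by
  unfold att
  refine Measurable.ite (measurableSet_lt (by fun_prop) measurable_const) ?_ measurable_const
  exact h.mκ.comp (f := fun x => ((a x, b x), |c x - d x|)) (by fun_prop)

omit [TopologicalSpace Ω] [BorelSpace Ω] [SecondCountableTopology Ω] in
lemma mII {α : Type*} [MeasurableSpace α] {a b : α → Ω} {c d : α → ℝ} (ha : Measurable a)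
    (hb : Measurable b) (hc : Measurable c) (hd : Measurable d) :
    Measurable fun x => II (K (a x) (b x)) (c x) (d x) := by
  unfold II
  refine meas_setint ?_ (h.mKc (by fun_prop) (by fun_prop) measurable_snd)
  exact (measurableSet_lt (by fun_prop) measurable_snd).inter
    (measurableSet_lt measurable_snd (by fun_prop))

variable {f g : Ω × ℝ → ℝ} (hf : Side f) (hg : Side g)
include hg

lemma int_NN (θ : Ω) (s : ℝ) :
    ∫⁻ y, NN (K θ y.1) (lev g y) s ∂muX σ = pot σ K g θ s := by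
  unfold NN pot
  exact layer σ hg (H := fun z => K θ z.1 (s - z.2))
    (h.mKc measurable_const measurable_fst (by fun_prop))

lemma mNN {α : Type*} [MeasurableSpace α] {a : α → Ω} {y : α → Ω × ℝ} {c : α → ℝ}
    (ha : Measurable a) (hy : Measurable y) (hc : Measurable c) :
    Measurable fun x => NN (K (a x) (y x).1) (lev g (y x)) (c x) := by
  unfold NN
  exact meas_setint (hg.meas_lev hy) (h.mKc (by fun_prop) (by fun_prop) (by fun_prop))

lemma mpot : Measurable fun x : Ω × ℝ => pot σ K g x.1 x.2 := by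
  unfold pot
  refine Measurable.lintegral_prod_right'
    (f := fun z : (Ω × ℝ) × (Ω × ℝ) => K z.1.1 z.2.1 (z.1.2 - z.2.2) * ENNReal.ofReal (g z.2)) ?_
  exact (h.mKc (by fun_prop) (by fun_prop) (by fun_prop)).mul
    (hg.meas.comp measurable_snd).ennreal_ofReal

include hf

lemma mPr : Measurable fun z : (Ω × ℝ) × (Ω × ℝ) =>
    Pr (K z.1.1 z.2.1) (lev f z.1) (lev g z.2) := by
  unfold Pr
  refine Measurable.ite ?_ (h.mNN hg (by fun_prop) measurable_snd measurable_const)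
    measurable_const
  exact measurableSet_lt (by fun_prop) (hf.meas.comp (by fun_prop))

lemma mAttr : Measurable fun z : (Ω × ℝ) × (Ω × ℝ) =>
    Attr (κ z.1.1 z.2.1) (lev f z.1) (lev g z.2) := by
  unfold Attr
  refine meas_setint (hf.meas_lev measurable_fst) ?_
  exact meas_setint (S := fun p : ((Ω × ℝ) × (Ω × ℝ)) × ℝ => lev g p.1.2)
    (F := fun p r => att (κ p.1.1.1 p.1.2.1) p.2 r)
    (hg.meas_lev (g := fun p : ((Ω × ℝ) × (Ω × ℝ)) × ℝ => p.1.2) (by fun_prop)) (h.mattc (by fun_prop) (by fun_prop) (by fun_prop) (by fun_prop))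

lemma mTT (M : ℝ) (a : ℝ≥0∞) : Measurable fun z : (Ω × ℝ) × (Ω × ℝ) =>
    TT (K z.1.1 z.2.1) ε M a (lev f z.1) (rad f z.1) (lev g z.2) (rad g z.2) := by
  have r1 : Measurable fun z : (Ω × ℝ) × (Ω × ℝ) => rad f z.1 := hf.meas_rad.comp measurable_fst
  have r2 : Measurable fun z : (Ω × ℝ) × (Ω × ℝ) => rad g z.2 := hg.meas_rad.comp measurable_snd
  unfold TT
  refine Measurable.ite (measurableSet_lt measurable_const r1) ?_ ?_
  · refine Measurable.ite (measurableSet_lt measurable_const r2) ?_ measurable_const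
    exact (h.mII (by fun_prop) (by fun_prop) measurable_const measurable_const).const_mul a
  · refine Measurable.ite ?_ ?_ measurable_const
    · exact measurableSet_lt (by fun_prop) (hf.meas.comp (by fun_prop))
    · unfold nn
      refine (h.mII (by fun_prop) (by fun_prop) (r1.sub r2) (r1.add r2)).add ?_
      refine meas_setint ?_ (h.mKc (by fun_prop) (by fun_prop)
        (measurable_snd.abs.add (r1.comp measurable_fst)))
      refine (hg.meas_lev measurable_snd).diff ?_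
      exact (measurableSet_lt (r2.comp measurable_fst).neg measurable_snd).inter
        (measurableSet_lt measurable_snd (r2.comp measurable_fst))

lemma int_Pr : ∫⁻ z, Pr (K z.1.1 z.2.1) (lev f z.1) (lev g z.2) ∂(muX σ).prod (muX σ)
    = locm σ K f g := by
  rw [lintegral_prod _ (h.mPr hf hg).aemeasurable]
  have e1 : ∀ x : Ω × ℝ, ∫⁻ y, Pr (K x.1 y.1) (lev f x) (lev g y) ∂muX σ
      = {x : Ω × ℝ | x.2 < f (x.1, 0)}.indicator (fun x => pot σ K g x.1 0) x := by
    intro x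
    unfold Pr
    by_cases h0 : (0 : ℝ) ∈ lev f x
    · simp only [if_pos h0]
      rw [h.int_NN σ hg, indicator_of_mem (s := {x : Ω × ℝ | x.2 < f (x.1, 0)}) h0]
    · simp only [if_neg h0]
      rw [indicator_of_notMem (s := {x : Ω × ℝ | x.2 < f (x.1, 0)}) h0]; simp
  simp only [e1]
  have m1 : Measurable fun x : Ω × ℝ => pot σ K g x.1 0 :=
    (h.mpot σ hg).comp (f := fun x : Ω × ℝ => (x.1, (0 : ℝ))) (by fun_prop)
  have m2 : MeasurableSet {x : Ω × ℝ | x.2 < f (x.1, 0)} :=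
    measurableSet_lt measurable_snd (hf.meas.comp (by fun_prop))
  unfold muX locm
  rw [lintegral_prod _ (m1.indicator m2).aemeasurable]
  refine lintegral_congr fun θ => ?_
  have e2 : (fun l : ℝ => {x : Ω × ℝ | x.2 < f (x.1, 0)}.indicator
      (fun x => pot σ K g x.1 0) (θ, l)) = (Iio (f (θ, 0))).indicator fun _ => pot σ K g θ 0 := rfl
  rw [e2, lintegral_indicator measurableSet_Iio, setLIntegral_const,
    Measure.restrict_apply measurableSet_Iio, Iio_inter_Ioi, Real.volume_Ioo, sub_zero]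

lemma int_Attr : ∫⁻ z, Attr (κ z.1.1 z.2.1) (lev f z.1) (lev g z.2) ∂(muX σ).prod (muX σ)
    = attr0 σ κ f g := by
  rw [lintegral_prod _ (h.mAttr hf hg).aemeasurable]
  have e1 : ∀ x : Ω × ℝ, ∫⁻ y, Attr (κ x.1 y.1) (lev f x) (lev g y) ∂muX σ
      = ∫⁻ s in lev f x, ∫⁻ y, att (κ x.1 y.1) s y.2 * ENNReal.ofReal (g y) ∂muP σ := by
    intro x
    unfold Attr
    rw [lintegral_lintegral_swap]
    · refine lintegral_congr fun s => ?_
      exact layer σ hg (H := fun y => att (κ x.1 y.1) s y.2)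
        (h.mattc measurable_const measurable_fst measurable_const measurable_snd)
    · refine Measurable.aemeasurable ?_
      exact meas_setint (S := fun p : (Ω × ℝ) × ℝ => lev g p.1)
        (F := fun p r => att (κ x.1 p.1.1) p.2 r) (hg.meas_lev (by fun_prop))
        (h.mattc (by fun_prop) (by fun_prop) (by fun_prop) (by fun_prop))
  simp only [e1]
  unfold attr0
  refine layer σ hf
    (H := fun x => ∫⁻ y, att (κ x.1 y.1) x.2 y.2 * ENNReal.ofReal (g y) ∂muP σ) ?_
  refine Measurable.lintegral_prod_right' (f := fun z : (Ω × ℝ) × (Ω × ℝ) =>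
    att (κ z.1.1 z.2.1) z.1.2 z.2.2 * ENNReal.ofReal (g z.2)) ?_
  exact (h.mattc (by fun_prop) (by fun_prop) (by fun_prop) (by fun_prop)).mul
    (hg.meas.comp measurable_snd).ennreal_ofReal

omit h hf hg in
lemma level_int {φ f0 e : ℝ} (he : 0 < e) (hφ : 0 < φ) (hle : φ ≤ f0) :
    ∫⁻ l in Ioi (0 : ℝ), ENNReal.ofReal
      (if l < φ then φ ^ e / (1 + e) else if l < f0 then l ^ e else 0)
      ≤ ENNReal.ofReal (f0 ^ (1 + e) / (1 + e)) := by
  have hcov : Ioi (0 : ℝ) ⊆ Ioo 0 φ ∪ (Ico φ f0 ∪ Ici f0) := by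
    intro l hl
    by_cases h1 : l < φ
    · exact Or.inl ⟨hl, h1⟩
    · by_cases h2 : l < f0
      · exact Or.inr (Or.inl ⟨not_lt.1 h1, h2⟩)
      · exact Or.inr (Or.inr (not_lt.1 h2))
  refine (lintegral_mono_set hcov).trans ((lintegral_union_le _ _ _).trans ?_)
  refine (add_le_add le_rfl (lintegral_union_le _ _ _)).trans ?_
  have e1 : ∫⁻ l in Ioo (0 : ℝ) φ, ENNReal.ofReal
      (if l < φ then φ ^ e / (1 + e) else if l < f0 then l ^ e else 0)
      = ENNReal.ofReal (φ ^ (1 + e) / (1 + e)) := by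
    rw [setLIntegral_congr_fun measurableSet_Ioo
      (g := fun _ => ENNReal.ofReal (φ ^ e / (1 + e))) (fun l hl => by simp only [if_pos hl.2]),
      setLIntegral_const, Real.volume_Ioo, sub_zero, ← ENNReal.ofReal_mul (by positivity),
      Real.rpow_add hφ, Real.rpow_one]
    congr 1; ring
  have e2 : ∫⁻ l in Ico φ f0, ENNReal.ofReal
      (if l < φ then φ ^ e / (1 + e) else if l < f0 then l ^ e else 0)
      = ENNReal.ofReal ((f0 ^ (1 + e) - φ ^ (1 + e)) / (1 + e)) := by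
    rw [setLIntegral_congr_fun measurableSet_Ico
      (g := fun l => ENNReal.ofReal (l ^ e))
      (fun l hl => by simp only [if_neg (not_lt.2 hl.1), if_pos hl.2]),
      setLIntegral_congr Ico_ae_eq_Ioc, ← ofReal_integral_eq_lintegral_ofReal,
      ← intervalIntegral.integral_of_le hle, integral_rpow (Or.inl (by linarith)), add_comm e 1]
    · exact (intervalIntegrable_iff_integrableOn_Ioc_of_le hle).1
        (intervalIntegral.intervalIntegrable_rpow' (by linarith))
    · filter_upwards [ae_restrict_mem measurableSet_Ioc] with l hl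
      exact Real.rpow_nonneg (hφ.le.trans hl.1.le) e
  have e3 : ∫⁻ l in Ici f0, ENNReal.ofReal
      (if l < φ then φ ^ e / (1 + e) else if l < f0 then l ^ e else 0) = 0 := by
    rw [setLIntegral_congr_fun measurableSet_Ici (g := fun _ => 0) (fun l hl => by
      simp only [if_neg (not_lt.2 (hle.trans hl)), if_neg (not_lt.2 (mem_Ici.1 hl)), ENNReal.ofReal_zero])]
    simp
  have : φ ^ (1 + e) ≤ f0 ^ (1 + e) := Real.rpow_le_rpow hφ.le hle (by linarith)
  rw [e1, e2, e3, add_zero, ← ENNReal.ofReal_add (by positivity)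
    (div_nonneg (by linarith) (by linarith))]
  apply le_of_eq; congr 1; ring

lemma int_TT {e M : ℝ} (he : 0 < e) (hM : 0 ≤ M) {Λ : ℝ≥0∞} (hΛ : Λ ≠ ∞)
    (H : ∀ θ s, |s| ≤ M → pot σ K g θ s ≤ Λ * ENNReal.ofReal (f (θ, s) ^ e)) :
    ∫⁻ z, TT (K z.1.1 z.2.1) ε M (ENNReal.ofReal (1 / (1 + e))) (lev f z.1) (rad f z.1)
      (lev g z.2) (rad g z.2) ∂(muX σ).prod (muX σ)
      ≤ Λ * ∫⁻ θ, ENNReal.ofReal (f (θ, 0) ^ (1 + e) / (1 + e)) ∂σ := by
  have hm := h.mTT hf hg M (ENNReal.ofReal (1 / (1 + e)))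
  rw [lintegral_prod _ hm.aemeasurable]
  have hm2 := hm.lintegral_prod_right' (ν := muX σ)
  rw [← lintegral_const_mul' _ _ hΛ]
  refine (lintegral_prod (μ := σ) (ν := volume.restrict (Ioi 0)) _ hm2.aemeasurable).le.trans ?_
  refine lintegral_mono fun θ => ?_
  have hc : ContinuousOn (fun s => f (θ, s)) (Icc (-M) M) :=
    (hf.cont.comp (by fun_prop)).continuousOn
  obtain ⟨s0, hs0, hmin⟩ := isCompact_Icc.exists_isMinOn (nonempty_Icc.2 (by linarith)) hc
  have hle : f (θ, s0) ≤ f (θ, 0) := hmin (⟨by linarith, hM⟩ : (0 : ℝ) ∈ Icc (-M) M)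
  refine le_trans ?_ (mul_le_mul_right (level_int he (hf.pos (θ, s0)) hle) Λ)
  rw [← lintegral_const_mul' _ _ hΛ]
  refine setLIntegral_mono' measurableSet_Ioi fun l hl => ?_
  have hiff : M < rad f (θ, l) ↔ l < f (θ, s0) := by
    rw [hf.lt_rad_iff (x := (θ, l)) hl]
    exact ⟨fun H1 => H1 s0 hs0, fun H1 s hs => H1.trans_le (hmin hs)⟩
  unfold TT
  by_cases h1 : M < rad f (θ, l)
  · simp only [if_pos h1, if_pos (hiff.1 h1)]
    calc _ ≤ ∫⁻ y, ENNReal.ofReal (1 / (1 + e)) * NN (K θ y.1) (lev g y) s0 ∂muX σ := by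
          refine lintegral_mono fun y => ?_
          split_ifs with h2
          · gcongr
            exact Ker1.P7 (by linarith [abs_le.2 hs0]) (rad_sub g y)
          · exact zero_le
      _ = ENNReal.ofReal (1 / (1 + e)) * pot σ K g θ s0 := by
          rw [lintegral_const_mul' _ _ ENNReal.ofReal_ne_top, h.int_NN σ hg]
      _ ≤ ENNReal.ofReal (1 / (1 + e)) * (Λ * ENNReal.ofReal (f (θ, s0) ^ e)) := by
          gcongr; exact H θ s0 (abs_le.2 hs0)
      _ = _ := by
          rw [mul_left_comm, ← ENNReal.ofReal_mul (by positivity)]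
          congr 2; ring
  · simp only [if_neg h1, if_neg (fun hc => h1 (hiff.2 hc))]
    by_cases h0 : (0 : ℝ) ∈ lev f (θ, l)
    · have h0' : l < f (θ, 0) := h0
      simp only [if_pos h0, if_pos h0']
      obtain ⟨s, hs, hs'⟩ := hf.exists_end (x := (θ, l)) hl
      calc _ ≤ ∫⁻ y, NN (K θ y.1) (lev g y) s ∂muX σ :=
            lintegral_mono fun y => (h.ker θ y.1).P6 hs (rad_sub g y)
        _ = pot σ K g θ s := h.int_NN σ hg θ s
        _ ≤ Λ * ENNReal.ofReal (f (θ, s) ^ e) := H θ s (hs ▸ not_lt.1 h1)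
        _ ≤ _ := by
            gcongr
            · exact (hf.pos _).le
    · simp only [if_neg h0, lintegral_const, zero_mul]
      exact zero_le

omit h hf hg in
lemma err_sum (K : ℝ → ℝ≥0∞) {ε : ℝ} (hε : 0 < ε) (ρ ρ' : ℝ) (N : ℕ) :
    ∑ j ∈ Finset.range N, Err K ε (2 * (j + 1) * ε) ρ ρ'
      + (if (2 * N + 1) * ε < ρ ∧ (2 * N + 1) * ε < ρ' then II K (-ε) ε else 0)
      ≤ if ε < ρ ∧ ε < ρ' then II K (-ε) ε else 0 := by
  induction N with
  | zero => simp
  | succ N ih =>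
    refine le_trans ?_ ih
    rw [Finset.sum_range_succ, add_assoc]
    refine add_le_add le_rfl ?_
    unfold Err
    have e1 : 2 * ((N : ℝ) + 1) * ε - ε = (2 * N + 1) * ε := by ring
    have e2 : 2 * ((N : ℝ) + 1) * ε + ε = (2 * ((N + 1 : ℕ) : ℝ) + 1) * ε := by push_cast; ring
    rw [e1, e2]
    have e3 : (2 * (N : ℝ) + 1) * ε ≤ (2 * ((N + 1 : ℕ) : ℝ) + 1) * ε := by
      push_cast; nlinarith
    by_cases h1 : (2 * ((N + 1 : ℕ) : ℝ) + 1) * ε < ρ ∧ (2 * ((N + 1 : ℕ) : ℝ) + 1) * ε < ρ'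
    · rw [if_pos h1, if_neg (fun hc => hc.2 h1), if_pos ⟨e3.trans_lt h1.1, e3.trans_lt h1.2⟩,
        zero_add]
    · rw [if_neg h1, add_zero]
      split_ifs with h2 h3
      · exact le_rfl
      · exact absurd h2.1 h3
      · exact zero_le
      · exact le_rfl

lemma err_le (N : ℕ) (z : (Ω × ℝ) × (Ω × ℝ)) :
    ∑ j ∈ Finset.range N, Err (K z.1.1 z.2.1) ε (2 * (j + 1) * ε) (rad f z.1) (rad g z.2)
      ≤ Pr (K z.1.1 z.2.1) (lev f z.1) (lev g z.2) := by
  have hε := (h.ker z.1.1 z.2.1).epos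
  refine (le_self_add.trans (err_sum _ hε _ _ N)).trans ?_
  split_ifs with h1
  · unfold Pr
    rw [if_pos (rad_sub f z.1 ⟨by linarith [h1.1], by linarith [h1.1]⟩)]
    exact Ker1.P7 (by simpa using h1.2.le) (rad_sub g z.2)
  · exact zero_le

theorem local_ineq (hε : 0 < ε) {e e' : ℝ} (he : 0 < e) (he' : 0 < e')
    (hee : 1 ≤ 1 / (1 + e) + 1 / (1 + e')) (N : ℕ) {Λ : ℝ≥0∞} (hΛ : Λ ≠ ∞)
    (H : ∀ θ s, |s| ≤ 2 * N * ε → pot σ K g θ s ≤ Λ * ENNReal.ofReal (f (θ, s) ^ e))
    (H' : ∀ ω r, |r| ≤ 2 * N * ε →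
      pot σ (fun ω θ => K θ ω) f ω r ≤ Λ * ENNReal.ofReal (g (ω, r) ^ e')) :
    N * (locm σ K f g + locm σ (fun ω θ => K θ ω) g f)
      ≤ N * (attr0 σ κ f g + Λ * ∫⁻ θ, ENNReal.ofReal (f (θ, 0) ^ (1 + e) / (1 + e)) ∂σ
        + Λ * ∫⁻ ω, ENNReal.ofReal (g (ω, 0) ^ (1 + e') / (1 + e')) ∂σ) + locm σ K f g := by
  have hab : 1 ≤ ENNReal.ofReal (1 / (1 + e)) + ENNReal.ofReal (1 / (1 + e')) := by
    rw [← ENNReal.ofReal_add (by positivity) (by positivity), ← ENNReal.ofReal_one]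
    exact ENNReal.ofReal_le_ofReal hee
  have mErr : ∀ M : ℝ, Measurable fun z : (Ω × ℝ) × (Ω × ℝ) =>
      Err (K z.1.1 z.2.1) ε M (rad f z.1) (rad g z.2) := by
    intro M
    have r1 : Measurable fun z : (Ω × ℝ) × (Ω × ℝ) => rad f z.1 := hf.meas_rad.comp measurable_fst
    have r2 : Measurable fun z : (Ω × ℝ) × (Ω × ℝ) => rad g z.2 := hg.meas_rad.comp measurable_snd
    unfold Err
    refine Measurable.ite ?_
      (h.mII (by fun_prop) (by fun_prop) measurable_const measurable_const) measurable_const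
    exact ((measurableSet_lt measurable_const r1).inter
      (measurableSet_lt measurable_const r2)).inter ((measurableSet_lt measurable_const r1).inter
      (measurableSet_lt measurable_const r2)).compl
  have key : ∀ j ∈ Finset.range N, locm σ K f g + locm σ (fun ω θ => K θ ω) g f
      ≤ (attr0 σ κ f g + Λ * ∫⁻ θ, ENNReal.ofReal (f (θ, 0) ^ (1 + e) / (1 + e)) ∂σ
        + Λ * ∫⁻ ω, ENNReal.ofReal (g (ω, 0) ^ (1 + e') / (1 + e')) ∂σ)
        + ∫⁻ z, Err (K z.1.1 z.2.1) ε (2 * (j + 1) * ε) (rad f z.1) (rad g z.2)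
          ∂(muX σ).prod (muX σ) := by
    intro j hj
    have hj' : (j : ℝ) + 1 ≤ N := by exact_mod_cast Finset.mem_range.1 hj
    have hj0 : (0 : ℝ) ≤ j := Nat.cast_nonneg j
    have hM : ε ≤ 2 * (j + 1) * ε := by nlinarith
    have hM2 : 2 * ((j : ℝ) + 1) * ε ≤ 2 * N * ε := by nlinarith
    have t1 := h.int_TT σ hf hg he (hε.le.trans hM) hΛ fun θ s hs => H θ s (hs.trans hM2)
    have t2 := h.swap.int_TT σ hg hf he' (hε.le.trans hM) hΛ fun θ s hs => H' θ s (hs.trans hM2)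
    rw [← lintegral_prod_swap] at t2
    rw [← h.int_Pr σ hf hg, ← h.swap.int_Pr σ hg hf, ← h.int_Attr σ hf hg]
    conv_lhs => rw [← lintegral_prod_swap (μ := muX σ) (ν := muX σ) (fun z =>
      Pr (K z.2.1 z.1.1) (lev g z.1) (lev f z.2))]
    refine (le_lintegral_add _ _).trans ?_
    refine le_trans ?_ (add_le_add (add_le_add (add_le_add le_rfl t1) t2) le_rfl)
    rw [← lintegral_add_left (h.mAttr hf hg),
      ← lintegral_add_left ((h.mAttr hf hg).fun_add (h.mTT hf hg _ _)),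
      ← lintegral_add_right _ (mErr _)]
    refine lintegral_mono fun z => ?_
    exact (h.ker z.1.1 z.2.1).pair hM hab (rad_nonneg f z.1) (rad_nonneg g z.2) (rad_sub f z.1)
      (rad_sub g z.2)
  have := Finset.sum_le_sum key
  rw [Finset.sum_const, Finset.card_range, nsmul_eq_mul, Finset.sum_add_distrib, Finset.sum_const,
    Finset.card_range, nsmul_eq_mul] at this
  refine this.trans (add_le_add le_rfl ?_)
  rw [← lintegral_finsetSum _ fun j _ => mErr _, ← h.int_Pr σ hf hg]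
  exact lintegral_mono fun z => h.err_le hf hg N z

end KFam

end Vale.Agent.P100
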