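import Mathlib

namespace Vale.Agent.P100
open MeasureTheory Set
open scoped ENNReal

/-- One-dimensional kernel data: `K` even, decreasing on the half line, vanishing beyond `ε`,
with decrement bounded by the integral of `κ`. -/
structure Ker1 (K κ : ℝ → ℝ≥0∞) (ε : ℝ) : Prop where
  mK : Measurable K
  mκ : Measurable κ
  even : ∀ z, K (-z) = K z
  ftc : ∀ a b, 0 ≤ a → a ≤ b → K a ≤ K b + ∫⁻ z in Ioo a b, κ z
  anti : ∀ a b, 0 ≤ a → a ≤ b → K b ≤ K a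
  zero : ∀ z, ε ≤ z → K z = 0
  epos : 0 < ε

noncomputable def II (K : ℝ → ℝ≥0∞) (a b : ℝ) : ℝ≥0∞ := ∫⁻ z in Ioo a b, K z

noncomputable def NN (K : ℝ → ℝ≥0∞) (E : Set ℝ) (s : ℝ) : ℝ≥0∞ := ∫⁻ r in E, K (s - r)

noncomputable def att (κ : ℝ → ℝ≥0∞) (s r : ℝ) : ℝ≥0∞ := if s * r < 0 then κ |s - r| else 0

noncomputable def Attr (κ : ℝ → ℝ≥0∞) (E E' : Set ℝ) : ℝ≥0∞ :=
  ∫⁻ s in E, ∫⁻ r in E', att κ s r

noncomputable def nn (K : ℝ → ℝ≥0∞) (ρ : ℝ) (E' : Set ℝ) (ρ' : ℝ) : ℝ≥0∞ :=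
  II K (ρ - ρ') (ρ + ρ') + ∫⁻ r in E' \ Ioo (-ρ') ρ', K (|r| + ρ)

lemma II_add (K : ℝ → ℝ≥0∞) {a b c : ℝ} (hab : a ≤ b) (hbc : b ≤ c) :
    II K a c = II K a b + II K b c := by
  unfold II
  rw [setLIntegral_congr Ioo_ae_eq_Ioc, setLIntegral_congr (Ioo_ae_eq_Ioc (a := a) (b := b)),
    setLIntegral_congr (Ioo_ae_eq_Ioc (a := b) (b := c)), ← Ioc_union_Ioc_eq_Ioc hab hbc,
    lintegral_union measurableSet_Ioc (Ioc_disjoint_Ioc_of_le le_rfl)]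

lemma int_add (K : ℝ → ℝ≥0∞) (a b c : ℝ) :
    ∫⁻ r in Ioo a b, K (c + r) = II K (c + a) (c + b) := by
  have h := (measurePreserving_add_left (volume : Measure ℝ) c).setLIntegral_comp_preimage_emb
    (measurableEmbedding_addLeft c) K (Ioo (c + a) (c + b))
  unfold II
  rw [← h]
  congr 2
  ext r; simp

lemma int_sub (K : ℝ → ℝ≥0∞) (a b c : ℝ) :
    ∫⁻ r in Ioo a b, K (c - r) = II K (c - b) (c - a) := by
  have h := (Measure.measurePreserving_sub_left (volume : Measure ℝ) c).setLIntegral_comp_preimage_emb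
    (MeasurableEquiv.subLeft c).measurableEmbedding K (Ioo (c - b) (c - a))
  unfold II
  rw [← h]
  congr 2
  ext r; simp

lemma II_mono (K : ℝ → ℝ≥0∞) {a b c d : ℝ} (h1 : c ≤ a) (h2 : b ≤ d) : II K a b ≤ II K c d :=
  lintegral_mono_set (Ioo_subset_Ioo h1 h2)

lemma att_comm (κ : ℝ → ℝ≥0∞) (s r : ℝ) : att κ s r = att κ r s := by
  unfold att; rw [mul_comm, abs_sub_comm]

lemma measurable_att {κ : ℝ → ℝ≥0∞} (h : Measurable κ) :
    Measurable (fun z : ℝ × ℝ => att κ z.1 z.2) := by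
  unfold att
  refine Measurable.ite ?_ (h.comp (by fun_prop)) measurable_const
  exact measurableSet_lt (by fun_prop) measurable_const

lemma Attr_comm {κ : ℝ → ℝ≥0∞} (h : Measurable κ) (E E' : Set ℝ) :
    Attr κ E E' = Attr κ E' E := by
  unfold Attr
  rw [lintegral_lintegral_swap (measurable_att h).aemeasurable]
  simp only [att_comm κ]

lemma Attr_mono (κ : ℝ → ℝ≥0∞) {E E' F F' : Set ℝ} (h : E ⊆ F) (h' : E' ⊆ F') :
    Attr κ E E' ≤ Attr κ F F' :=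
  (lintegral_mono fun _ => lintegral_mono_set h').trans (lintegral_mono_set h)

namespace Ker1
variable {K κ : ℝ → ℝ≥0∞} {ε : ℝ} (h : Ker1 K κ ε)
include h

lemma abs_eq (z : ℝ) : K |z| = K z := by
  rcases abs_choice z with h1 | h1 <;> rw [h1]
  exact h.even z

lemma II_neg (a b : ℝ) : II K (-b) (-a) = II K a b := by
  have := int_sub K a b 0
  simp only [zero_sub, h.even] at this
  exact this.symm

lemma NN_zero (E : Set ℝ) : NN K E 0 = ∫⁻ r in E, K r := by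
  simp only [NN, zero_sub, h.even]

lemma point {r ρ : ℝ} (hr : r ≠ 0) (hρ : 0 ≤ ρ) :
    K r ≤ K (|r| + ρ) + ∫⁻ s in Ioo (-ρ) ρ, att κ r s := by
  rw [← h.abs_eq r]
  refine (h.ftc |r| (|r| + ρ) (abs_nonneg r) (by linarith)).trans (add_le_add le_rfl ?_)
  rcases lt_or_gt_of_ne hr with h1 | h1
  · have e := int_add κ 0 ρ (-r)
    rw [abs_of_neg h1]
    unfold II at e
    rw [add_zero] at e
    rw [← e]
    refine le_trans ?_ (lintegral_mono_set (Ioo_subset_Ioo (by linarith : -ρ ≤ 0) le_rfl))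
    refine setLIntegral_mono' measurableSet_Ioo fun s hs => ?_
    unfold att
    rw [if_pos (mul_neg_of_neg_of_pos h1 hs.1), abs_of_neg (by linarith [hs.1])]
    apply le_of_eq; congr 1; ring
  · have e := int_sub κ (-ρ) 0 r
    rw [abs_of_pos h1]
    unfold II at e
    rw [sub_zero, sub_neg_eq_add] at e
    rw [← e]
    refine le_trans ?_ (lintegral_mono_set (Ioo_subset_Ioo le_rfl hρ))
    refine setLIntegral_mono' measurableSet_Ioo fun s hs => ?_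
    unfold att
    rw [if_pos (mul_neg_of_pos_of_neg h1 hs.2), abs_of_pos (by linarith [hs.2])]

lemma setB (E : Set ℝ) {ρ : ℝ} (hρ : 0 ≤ ρ) :
    ∫⁻ r in E, K r ≤ (∫⁻ r in E, K (|r| + ρ)) + Attr κ E (Ioo (-ρ) ρ) := by
  unfold Attr
  have hm : Measurable fun r : ℝ => K (|r| + ρ) := h.mK.comp (by fun_prop)
  rw [← lintegral_add_left hm]
  refine lintegral_mono_ae ?_
  have : ∀ᵐ r ∂(volume.restrict E), r ≠ (0 : ℝ) :=
    ae_restrict_of_ae (by simp [ae_iff])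
  filter_upwards [this] with r hr using h.point hr hρ

lemma symm_part {ρ ρ' : ℝ} (hρ : 0 ≤ ρ) (hρ' : 0 ≤ ρ') :
    (∫⁻ r in Ioo (-ρ') ρ', K (|r| + ρ)) + II K (-ρ) ρ
      = II K (ρ - ρ') (ρ + ρ') + II K (ρ' - ρ) (ρ' + ρ) := by
  have e1 : (∫⁻ r in Ioo (-ρ') ρ', K (|r| + ρ))
      = II K (-(ρ + ρ')) (-ρ) + II K ρ (ρ + ρ') := by
    have := II_add (fun r => K (|r| + ρ)) (by linarith : -ρ' ≤ 0) hρ'
    unfold II at this
    rw [this]
    congr 1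
    · rw [h.II_neg]
      have e := int_sub K (-ρ') 0 ρ
      rw [sub_zero, sub_neg_eq_add] at e
      rw [← e]
      refine setLIntegral_congr_fun measurableSet_Ioo fun r hr => ?_
      rw [abs_of_neg hr.2]; congr 1; ring
    · have e := int_add K 0 ρ' ρ
      rw [add_zero] at e
      rw [← e]
      refine setLIntegral_congr_fun measurableSet_Ioo fun r hr => ?_
      rw [abs_of_pos hr.1, add_comm]
  have e2 : II K (ρ' - ρ) (ρ' + ρ) = II K (-(ρ + ρ')) (ρ - ρ') := by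
    rw [← h.II_neg]; congr 1 <;> ring
  rw [e1, e2, add_comm (II K (ρ - ρ') _), ← II_add K (by linarith) (by linarith),
    II_add K (by linarith : -(ρ + ρ') ≤ -ρ) (by linarith : -ρ ≤ ρ + ρ'),
    II_add K (by linarith : -ρ ≤ ρ) (by linarith : ρ ≤ ρ + ρ')]
  ring

omit h in
lemma split (F : ℝ → ℝ≥0∞) {E S : Set ℝ} (hS : MeasurableSet S) (hSE : S ⊆ E) :
    ∫⁻ r in E, F r = (∫⁻ r in S, F r) + ∫⁻ r in E \ S, F r := by
  rw [← lintegral_inter_add_sdiff F E hS, inter_eq_self_of_subset_right hSE]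

lemma P1 {E E' : Set ℝ} {ρ ρ' : ℝ} (hρ : 0 ≤ ρ) (hρ' : 0 ≤ ρ') (hS : Ioo (-ρ) ρ ⊆ E)
    (hS' : Ioo (-ρ') ρ' ⊆ E') :
    NN K E' 0 + NN K E 0 ≤ Attr κ E E' + nn K ρ E' ρ' + nn K ρ' E ρ := by
  rw [h.NN_zero, h.NN_zero, split K measurableSet_Ioo hS]
  have h1 := h.setB E' hρ
  have h2 := h.setB (E \ Ioo (-ρ) ρ) hρ'
  rw [split (fun r => K (|r| + ρ)) measurableSet_Ioo hS', Attr_comm h.mκ] at h1
  have h3 : Attr κ (Ioo (-ρ) ρ) E' + Attr κ (E \ Ioo (-ρ) ρ) (Ioo (-ρ') ρ') ≤ Attr κ E E' := by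
    have := split (fun s => ∫⁻ r in E', att κ s r) measurableSet_Ioo hS
    unfold Attr
    rw [this]
    exact add_le_add le_rfl (Attr_mono κ le_rfl hS')
  have h4 := h.symm_part hρ hρ'
  unfold nn
  calc _ ≤ ((∫⁻ r in Ioo (-ρ') ρ', K (|r| + ρ)) + (∫⁻ r in E' \ Ioo (-ρ') ρ', K (|r| + ρ))
          + Attr κ (Ioo (-ρ) ρ) E') + (II K (-ρ) ρ + ((∫⁻ r in E \ Ioo (-ρ) ρ, K (|r| + ρ'))
          + Attr κ (E \ Ioo (-ρ) ρ) (Ioo (-ρ') ρ'))) := add_le_add h1 (add_le_add le_rfl h2)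
    _ = (Attr κ (Ioo (-ρ) ρ) E' + Attr κ (E \ Ioo (-ρ) ρ) (Ioo (-ρ') ρ'))
          + ((∫⁻ r in Ioo (-ρ') ρ', K (|r| + ρ)) + II K (-ρ) ρ)
          + (∫⁻ r in E' \ Ioo (-ρ') ρ', K (|r| + ρ)) + (∫⁻ r in E \ Ioo (-ρ) ρ, K (|r| + ρ')) := by
        ring
    _ ≤ Attr κ E E' + (II K (ρ - ρ') (ρ + ρ') + II K (ρ' - ρ) (ρ' + ρ))
          + (∫⁻ r in E' \ Ioo (-ρ') ρ', K (|r| + ρ)) + (∫⁻ r in E \ Ioo (-ρ) ρ, K (|r| + ρ')) := by
        rw [h4]; gcongr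
    _ = _ := by ring

lemma P2 (E : Set ℝ) {E' : Set ℝ} {ρ' : ℝ} (hρ' : 0 ≤ ρ') (hS' : Ioo (-ρ') ρ' ⊆ E') :
    NN K E 0 ≤ Attr κ E E' + nn K ρ' E 0 := by
  rw [h.NN_zero]
  refine (h.setB E hρ').trans ?_
  rw [add_comm]
  refine add_le_add (Attr_mono κ le_rfl hS') ?_
  unfold nn
  simp

lemma P3 (E : Set ℝ) {E' : Set ℝ} {ρ' : ℝ} (hρ' : ε ≤ ρ') (hS' : Ioo (-ρ') ρ' ⊆ E') :
    NN K E 0 ≤ Attr κ E E' := by
  rw [h.NN_zero]
  refine (h.setB E (h.epos.le.trans hρ')).trans ?_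
  have : ∀ r : ℝ, K (|r| + ρ') = 0 := fun r => h.zero _ (by linarith [abs_nonneg r])
  simp only [this, lintegral_const, zero_mul, zero_add]
  exact Attr_mono κ le_rfl hS'

lemma P4 (E : Set ℝ) : NN K E 0 ≤ II K (-ε) ε := by
  rw [h.NN_zero]
  refine (setLIntegral_le_lintegral E K).trans ?_
  rw [← setLIntegral_univ, split K measurableSet_Ioo (subset_univ (Ioo (-ε) ε))]
  have : ∫⁻ r in univ \ Ioo (-ε) ε, K r = 0 := by
    rw [setLIntegral_congr_fun (MeasurableSet.univ.diff measurableSet_Ioo) (g := fun _ => 0)]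
    · simp
    · intro r hr
      simp only
      rw [← h.abs_eq]
      refine h.zero _ ?_
      by_contra hc
      exact hr.2 (abs_lt.1 (not_le.1 hc))
  rw [this, add_zero]
  rfl

omit h in
lemma P5 (E' : Set ℝ) {ρ ρ' : ℝ} (hρ : 0 ≤ ρ) (hρ' : ρ + ε ≤ ρ') :
    II K (-ε) ε ≤ nn K ρ E' ρ' :=
  (II_mono K (by linarith) (by linarith)).trans le_self_add

lemma P6 {E' : Set ℝ} {ρ ρ' s : ℝ} (hs : |s| = ρ) (hS' : Ioo (-ρ') ρ' ⊆ E') :
    nn K ρ E' ρ' ≤ NN K E' s := by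
  unfold nn NN
  rw [split (fun r => K (s - r)) measurableSet_Ioo hS']
  refine add_le_add ?_ (lintegral_mono fun r => ?_)
  · rw [int_sub]
    rcases abs_choice s with h1 | h1
    · rw [← hs, h1, sub_neg_eq_add]
    · rw [← h.II_neg, ← hs, h1]
      apply le_of_eq; congr 1 <;> ring
  · rw [← h.abs_eq (s - r)]
    refine h.anti _ _ (abs_nonneg _) ?_
    rw [← hs, add_comm]
    exact abs_sub s r

omit h in
lemma P7 {E' : Set ℝ} {ρ' s : ℝ} (hs : |s| + ε ≤ ρ') (hS' : Ioo (-ρ') ρ' ⊆ E') :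
    II K (-ε) ε ≤ NN K E' s := by
  unfold NN
  refine le_trans ?_ (lintegral_mono_set hS')
  rw [int_sub]
  exact II_mono K (by linarith [le_abs_self s]) (by linarith [neg_abs_le s])

end Ker1

open Classical in
noncomputable def TT (K : ℝ → ℝ≥0∞) (ε M : ℝ) (a : ℝ≥0∞) (E : Set ℝ) (ρ : ℝ) (E' : Set ℝ)
    (ρ' : ℝ) : ℝ≥0∞ :=
  if M < ρ then (if M + ε < ρ' then a * II K (-ε) ε else 0)
  else if (0 : ℝ) ∈ E then nn K ρ E' ρ' else 0

open Classical in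
noncomputable def Err (K : ℝ → ℝ≥0∞) (ε M ρ ρ' : ℝ) : ℝ≥0∞ :=
  if (M - ε < ρ ∧ M - ε < ρ') ∧ ¬ (M + ε < ρ ∧ M + ε < ρ') then II K (-ε) ε else 0

open Classical in
noncomputable def Pr (K : ℝ → ℝ≥0∞) (E E' : Set ℝ) : ℝ≥0∞ :=
  if (0 : ℝ) ∈ E then NN K E' 0 else 0

lemma Err_comm (K : ℝ → ℝ≥0∞) (ε M ρ ρ' : ℝ) : Err K ε M ρ ρ' = Err K ε M ρ' ρ := by
  unfold Err; simp only [and_comm]

lemma Pr_le (K : ℝ → ℝ≥0∞) (E E' : Set ℝ) : Pr K E E' ≤ NN K E' 0 := by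
  unfold Pr; split_ifs <;> simp

namespace Ker1
variable {K κ : ℝ → ℝ≥0∞} {ε : ℝ} (h : Ker1 K κ ε)
include h

lemma pair_short_long {M : ℝ} (hM : ε ≤ M) {a b : ℝ≥0∞} {E E' : Set ℝ} {ρ ρ' : ℝ}
    (hρ : 0 ≤ ρ) (hS' : Ioo (-ρ') ρ' ⊆ E') (h1 : ¬ M < ρ) (h2 : M < ρ') :
    Pr K E E' + Pr K E' E
      ≤ Attr κ E E' + TT K ε M a E ρ E' ρ' + TT K ε M b E' ρ' E ρ + Err K ε M ρ ρ' := by
  have e1 : Pr K E' E ≤ Attr κ E E' := (Pr_le K E' E).trans (h.P3 E (by linarith) hS')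
  have e2 : Pr K E E' ≤ TT K ε M a E ρ E' ρ' + Err K ε M ρ ρ' := by
    unfold Pr TT
    rw [if_neg h1]
    split_ifs with h0
    · refine (h.P4 E').trans ?_
      by_cases h3 : M - ε < ρ
      · refine le_trans ?_ le_add_self
        unfold Err
        rw [if_pos ⟨⟨h3, by linarith [h.epos]⟩, fun hc => h1 (by linarith [h.epos, hc.1])⟩]
      · exact (P5 E' hρ (by linarith [not_lt.1 h3])).trans le_self_add
    · simp
  calc _ ≤ (TT K ε M a E ρ E' ρ' + Err K ε M ρ ρ') + Attr κ E E' := add_le_add e2 e1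
    _ ≤ (TT K ε M a E ρ E' ρ' + Err K ε M ρ ρ') + Attr κ E E' + TT K ε M b E' ρ' E ρ :=
        le_self_add
    _ = _ := by ring

theorem pair {M : ℝ} (hM : ε ≤ M) {a b : ℝ≥0∞} (hab : 1 ≤ a + b) {E E' : Set ℝ} {ρ ρ' : ℝ}
    (hρ : 0 ≤ ρ) (hρ' : 0 ≤ ρ') (hS : Ioo (-ρ) ρ ⊆ E) (hS' : Ioo (-ρ') ρ' ⊆ E') :
    Pr K E E' + Pr K E' E
      ≤ Attr κ E E' + TT K ε M a E ρ E' ρ' + TT K ε M b E' ρ' E ρ + Err K ε M ρ ρ' := by
  have z1 : (0 : ℝ) ∉ E → ρ = 0 := fun h0 => by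
    by_contra hc
    have : 0 < ρ := lt_of_le_of_ne hρ (Ne.symm hc)
    exact h0 (hS ⟨by linarith, this⟩)
  have z2 : (0 : ℝ) ∉ E' → ρ' = 0 := fun h0 => by
    by_contra hc
    have : 0 < ρ' := lt_of_le_of_ne hρ' (Ne.symm hc)
    exact h0 (hS' ⟨by linarith, this⟩)
  by_cases h1 : M < ρ <;> by_cases h2 : M < ρ'
  · have e1 : Pr K E' E ≤ Attr κ E E' := (Pr_le K E' E).trans (h.P3 E (by linarith) hS')
    have e2 : Pr K E E' ≤ TT K ε M a E ρ E' ρ' + TT K ε M b E' ρ' E ρ + Err K ε M ρ ρ' := by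
      refine ((Pr_le K E E').trans (h.P4 E')).trans ?_
      by_cases h3 : M + ε < ρ ∧ M + ε < ρ'
      · refine le_trans ?_ le_self_add
        unfold TT
        rw [if_pos h1, if_pos h2, if_pos h3.1, if_pos h3.2, ← add_mul]
        calc _ = 1 * II K (-ε) ε := (one_mul _).symm
          _ ≤ _ := by gcongr
      · refine le_trans ?_ le_add_self
        unfold Err
        rw [if_pos ⟨⟨by linarith [h.epos], by linarith [h.epos]⟩, h3⟩]
    calc _ ≤ (TT K ε M a E ρ E' ρ' + TT K ε M b E' ρ' E ρ + Err K ε M ρ ρ') + Attr κ E E' :=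
          add_le_add e2 e1
      _ = _ := by ring
  · have := h.pair_short_long hM (a := b) (b := a) (E := E') hρ' hS h2 h1
    rw [add_comm, Attr_comm h.mκ, Err_comm]
    refine this.trans (le_of_eq ?_)
    ring
  · exact h.pair_short_long hM hρ hS' h1 h2
  · refine le_trans ?_ le_self_add
    unfold Pr TT
    rw [if_neg h1, if_neg h2]
    by_cases h0 : (0 : ℝ) ∈ E <;> by_cases h0' : (0 : ℝ) ∈ E'
    · simp only [if_pos h0, if_pos h0']
      exact h.P1 hρ hρ' hS hS'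
    · simp only [if_pos h0, if_neg h0', add_zero]
      rw [z2 h0', Attr_comm h.mκ]
      exact h.P2 E' hρ hS
    · simp only [if_neg h0, if_pos h0', add_zero, zero_add]
      rw [z1 h0]
      exact h.P2 E hρ' hS'
    · simp [if_neg h0, if_neg h0']

end Ker1

end Vale.Agent.P100
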