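import Vale.Agent.P100.Virial

namespace Vale.Agent.P100
open MeasureTheory Set Real Filter Topology
open scoped ENNReal NNReal
set_option linter.unusedSectionVars false

variable {Ω : Type*} [TopologicalSpace Ω] [MeasurableSpace Ω] [BorelSpace Ω]
  [SecondCountableTopology Ω]

lemma lintegral_shift (σ : Measure Ω) [SFinite σ] (t : ℝ) (F : Ω × ℝ → ℝ≥0∞) :
    ∫⁻ y, F (y.1, t + y.2) ∂muP σ = ∫⁻ y, F y ∂muP σ := by
  have h1 : MeasurePreserving ((MeasurableEquiv.refl Ω).prodCongr (MeasurableEquiv.addLeft t))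
      (muP σ) (muP σ) :=
    (MeasurePreserving.id σ).prod (measurePreserving_add_left (volume : Measure ℝ) t)
  exact h1.lintegral_comp_emb (MeasurableEquiv.measurableEmbedding _) F

lemma alg {m1 m2 l1 l2 A E X F1 F2 : ℝ≥0∞} {a b δ ζ τ sb cf : ℝ} {N : ℕ} (hN : 0 < N)
    (ha : 0 ≤ a) (ha1 : a ≤ 1) (hb : 0 ≤ b) (hb1 : b ≤ 1) (hδ : 0 ≤ δ) (hζ : 0 ≤ ζ) (hsb : 0 ≤ sb)
    (hcf : 0 < cf) (hm1 : m1 ≠ ∞) (hm2 : m2 ≠ ∞) (hX : X ≠ ∞) (hE : E ≠ ∞)
    (h1 : N * (l1 + l2) ≤ N * (A + ENNReal.ofReal (exp (ζ - τ)) * (ENNReal.ofReal (1 - a) * m1)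
      + ENNReal.ofReal (exp (ζ - τ)) * (ENNReal.ofReal (1 - b) * m2)) + l1)
    (h2 : l1 ≤ ENNReal.ofReal (exp (ζ - τ)) * m1) (h3 : l2 ≤ ENNReal.ofReal (exp (ζ - τ)) * m2)
    (h4 : m1 ≤ ENNReal.ofReal (exp (τ + ζ)) * l1 + ENNReal.ofReal cf * F1)
    (h5 : m2 ≤ ENNReal.ofReal (exp (τ + ζ)) * l2 + ENNReal.ofReal cf * F2)
    (h6 : ENNReal.ofReal δ * E + ENNReal.ofReal (exp (τ - ζ)) * A
      ≤ ENNReal.ofReal a * m1 + ENNReal.ofReal b * m2 + ENNReal.ofReal sb * X) :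
    ENNReal.ofReal δ * E ≤ ENNReal.ofReal (2 * ζ + 1 / N) * (m1 + m2) + ENNReal.ofReal sb * X
      + ENNReal.ofReal cf * (F1 + F2) := by
  by_cases hF : F1 + F2 = ∞
  · rw [hF, ENNReal.mul_top (by simpa using hcf)]; simp
  have hF1 : F1 ≠ ∞ := fun h => hF (by simp [h])
  have hF2 : F2 ≠ ∞ := fun h => hF (by simp [h])
  have hl1 : l1 ≠ ∞ := ne_top_of_le_ne_top (by finiteness) h2
  have hl2 : l2 ≠ ∞ := ne_top_of_le_ne_top (by finiteness) h3
  have hA : A ≠ ∞ := by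
    intro h
    rw [h, ENNReal.mul_top (by simpa using exp_pos _)] at h6
    exact absurd (top_le_iff.1 (le_add_self.trans h6)) (by finiteness)
  have g1 := ENNReal.toReal_mono (by finiteness) h1
  have g2 := ENNReal.toReal_mono (by finiteness) h2
  have g4 := ENNReal.toReal_mono (by finiteness) h4
  have g5 := ENNReal.toReal_mono (by finiteness) h5
  have g6 := ENNReal.toReal_mono (by finiteness) h6
  rw [← ENNReal.toReal_le_toReal (by finiteness) (by finiteness)]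
  have hN' : (0 : ℝ) < N := by exact_mod_cast hN
  have e1 : 0 ≤ 1 - a := by linarith
  have e2 : 0 ≤ 1 - b := by linarith
  have e3 : 0 ≤ 2 * ζ + 1 / (N : ℝ) := by positivity
  simp (disch := first | finiteness | positivity) only [ENNReal.toReal_add, ENNReal.toReal_mul,
    ENNReal.toReal_ofReal, ENNReal.toReal_natCast] at g1 g2 g4 g5 g6 ⊢
  have p1 := ENNReal.toReal_nonneg (a := m1)
  have p2 := ENNReal.toReal_nonneg (a := m2)
  have p3 := ENNReal.toReal_nonneg (a := F1)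
  have p4 := ENNReal.toReal_nonneg (a := F2)
  generalize m1.toReal = m1 at *
  generalize m2.toReal = m2 at *
  generalize l1.toReal = l1 at *
  generalize l2.toReal = l2 at *
  generalize A.toReal = A at *
  generalize E.toReal = E at *
  generalize X.toReal = X at *
  generalize F1.toReal = F1 at *
  generalize F2.toReal = F2 at *
  set L := exp (τ - ζ) with hL
  have hL0 : 0 < L := exp_pos _
  have q1 : L * exp (ζ - τ) = 1 := by rw [hL, ← exp_add]; simp
  have q2 : L = exp (-(2 * ζ)) * exp (τ + ζ) := by rw [hL, ← exp_add]; congr 1; ring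
  have q3 : 1 - 2 * ζ ≤ exp (-(2 * ζ)) := by linarith [add_one_le_exp (-(2 * ζ))]
  have q4 : exp (-(2 * ζ)) ≤ 1 := exp_le_one_iff.2 (by linarith)
  have q5 : 0 < exp (-(2 * ζ)) := exp_pos _
  have r1 : l1 + l2 ≤ A + exp (ζ - τ) * ((1 - a) * m1) + exp (ζ - τ) * ((1 - b) * m2)
      + exp (ζ - τ) * m1 / N := by
    rw [← mul_le_mul_iff_right₀ hN', mul_add (N : ℝ) _ (_ / _), mul_div_cancel₀ _ hN'.ne']
    linarith
  have r2 : L * (l1 + l2) ≤ L * A + (1 - a) * m1 + (1 - b) * m2 + m1 / N := by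
    have := mul_le_mul_of_nonneg_left r1 hL0.le
    refine this.trans (le_of_eq ?_)
    calc _ = L * A + (L * exp (ζ - τ)) * ((1 - a) * m1 + (1 - b) * m2 + m1 / N) := by ring
      _ = _ := by rw [q1]; ring
  have r3 : exp (-(2 * ζ)) * (m1 + m2) ≤ L * (l1 + l2) + cf * (F1 + F2) := by
    have s1 := mul_le_mul_of_nonneg_left (add_le_add g4 g5) q5.le
    have s2 : exp (-(2 * ζ)) * (cf * (F1 + F2)) ≤ cf * (F1 + F2) :=
      mul_le_of_le_one_left (by positivity) q4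
    rw [q2]; linarith
  have r4 : (1 - 2 * ζ) * (m1 + m2) ≤ exp (-(2 * ζ)) * (m1 + m2) := by gcongr
  have r5 : m1 / N ≤ 1 / N * (m1 + m2) := by
    rw [div_eq_mul_inv, one_div, mul_comm]; gcongr; linarith
  linarith

namespace Sys
variable {σ : Measure Ω} [IsFiniteMeasure σ] (S : Sys σ)

noncomputable def dens (z : (Ω × ℝ) × (Ω × ℝ)) : ℝ≥0∞ :=
  ENNReal.ofReal (S.kk z.1 z.2) * ENNReal.ofReal (S.g z.2) * ENNReal.ofReal (S.f z.1)

noncomputable def hfar (z : (Ω × ℝ) × (Ω × ℝ)) : ℝ≥0∞ :=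
  ENNReal.ofReal (S.wt z.1 z.2 * exp (-S.m * |z.1.2 - z.2.2|)) * ENNReal.ofReal (S.g z.2)
    * ENNReal.ofReal (S.f z.1)

noncomputable def mu : Measure ((Ω × ℝ) × (Ω × ℝ)) := ((muP σ).prod (muP σ)).withDensity S.dens

noncomputable def nu : Measure ((Ω × ℝ) × (Ω × ℝ)) := ((muP σ).prod (muP σ)).withDensity S.hfar

noncomputable def m1 (t : ℝ) : ℝ≥0∞ := ∫⁻ θ, ENNReal.ofReal (S.U (θ, t) ^ (S.q + 1)) ∂σ

noncomputable def far1 (t : ℝ) : ℝ≥0∞ := ∫⁻ θ, ∫⁻ y, S.hfar ((θ, t), y) ∂muP σ ∂σ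

noncomputable def del : ℝ := S.g1 + S.g2 - 2 * S.m

noncomputable def sb : ℝ := |S.g1 - S.m| + |S.g2 - S.m|

noncomputable def ft (t : ℝ) (x : Ω × ℝ) : ℝ := S.f (x.1, t + x.2)

noncomputable def Kf (ε : ℝ) (θ ω : Ω) (z : ℝ) : ℝ≥0∞ := Kn S.m S.c0 ε (S.cs θ ω) z

noncomputable def κf (ε : ℝ) (θ ω : Ω) (z : ℝ) : ℝ≥0∞ := κn S.m S.c0 ε (S.cs θ ω) z

lemma del_pos : 0 < S.del := by have := S.hsub; unfold del; linarith

lemma del_swap : S.swap.del = S.del := by unfold del; rw [add_comm]; rfl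

lemma sb_swap : S.swap.sb = S.sb := by unfold sb; rw [add_comm]; rfl

lemma sb_nonneg : 0 ≤ S.sb := by unfold sb; positivity

lemma mdens : Measurable S.dens :=
  (S.mkk.ennreal_ofReal.mul (S.mg.comp measurable_snd).ennreal_ofReal).mul
    (S.mf.comp measurable_fst).ennreal_ofReal

lemma mhfar : Measurable S.hfar := by
  refine (Measurable.mul ?_ (S.mg.comp measurable_snd).ennreal_ofReal).mul
    (S.mf.comp measurable_fst).ennreal_ofReal
  exact (S.mwt.mul (by fun_prop)).ennreal_ofReal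

lemma dens_swap (z : (Ω × ℝ) × (Ω × ℝ)) : S.swap.dens z.swap = S.dens z := by
  unfold dens
  rw [Prod.fst_swap, Prod.snd_swap, kk_swap, mul_right_comm]; rfl

lemma hfar_swap (z : (Ω × ℝ) × (Ω × ℝ)) : S.swap.hfar z.swap = S.hfar z := by
  unfold hfar
  rw [Prod.fst_swap, Prod.snd_swap, wt_swap, abs_sub_comm, mul_right_comm]; rfl

lemma mu_swap {A : Set ((Ω × ℝ) × (Ω × ℝ))} (hA : MeasurableSet A) :
    S.swap.mu A = S.mu (Prod.swap ⁻¹' A) := by
  unfold mu
  rw [withDensity_apply _ hA, withDensity_apply _ (measurable_swap hA),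
    ← lintegral_indicator hA, ← lintegral_indicator (measurable_swap hA), ← lintegral_prod_swap]
  refine lintegral_congr fun z => ?_
  by_cases h : z.swap ∈ A
  · rw [indicator_of_mem h, indicator_of_mem (show z ∈ Prod.swap ⁻¹' A from h), dens_swap]
  · rw [indicator_of_notMem h, indicator_of_notMem (show z ∉ Prod.swap ⁻¹' A from h)]

lemma nu_swap {A : Set ((Ω × ℝ) × (Ω × ℝ))} (hA : MeasurableSet A) :
    S.swap.nu A = S.nu (Prod.swap ⁻¹' A) := by
  unfold nu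
  rw [withDensity_apply _ hA, withDensity_apply _ (measurable_swap hA),
    ← lintegral_indicator hA, ← lintegral_indicator (measurable_swap hA), ← lintegral_prod_swap]
  refine lintegral_congr fun z => ?_
  by_cases h : z.swap ∈ A
  · rw [indicator_of_mem h, indicator_of_mem (show z ∈ Prod.swap ⁻¹' A from h), hfar_swap]
  · rw [indicator_of_notMem h, indicator_of_notMem (show z ∉ Prod.swap ⁻¹' A from h)]

omit S in
lemma slice {D : (Ω × ℝ) × (Ω × ℝ) → ℝ≥0∞} (hD : Measurable D) {W : Set ℝ}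
    (hW : MeasurableSet W) :
    (((muP σ).prod (muP σ)).withDensity D) {z | z.1.2 ∈ W}
      = ∫⁻ t in W, ∫⁻ θ, ∫⁻ y, D ((θ, t), y) ∂muP σ ∂σ := by
  have hA : MeasurableSet {z : (Ω × ℝ) × (Ω × ℝ) | z.1.2 ∈ W} :=
    (measurable_snd.comp measurable_fst) hW
  rw [withDensity_apply _ hA, ← lintegral_indicator hA,
    lintegral_prod _ (hD.indicator hA).aemeasurable]
  have m1 := (hD.indicator hA).lintegral_prod_right' (ν := muP σ)
  refine (lintegral_prod_symm _ m1.aemeasurable).trans ?_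
  rw [← lintegral_indicator hW]
  refine lintegral_congr fun t => ?_
  by_cases ht : t ∈ W
  · rw [indicator_of_mem ht]
    refine lintegral_congr fun θ => lintegral_congr fun y => ?_
    exact indicator_of_mem (show ((θ, t), y) ∈ {z : (Ω × ℝ) × (Ω × ℝ) | z.1.2 ∈ W} from ht) _
  · rw [indicator_of_notMem ht]
    have : ∀ θ y, {z : (Ω × ℝ) × (Ω × ℝ) | z.1.2 ∈ W}.indicator D ((θ, t), y) = 0 :=
      fun θ y => indicator_of_notMem
        (show ((θ, t), y) ∉ {z : (Ω × ℝ) × (Ω × ℝ) | z.1.2 ∈ W} from ht) _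
    simp [this]

lemma U_mul_f (x : Ω × ℝ) :
    ENNReal.ofReal (S.U x) * ENNReal.ofReal (S.f x) = ENNReal.ofReal (S.U x ^ (S.q + 1)) := by
  rw [← ENNReal.ofReal_mul (S.U_pos x).le, rpow_add_one (S.U_pos x).ne', mul_comm]; rfl

lemma mu_slice {W : Set ℝ} (hW : MeasurableSet W) :
    S.mu {z | z.1.2 ∈ W} = ∫⁻ t in W, S.m1 t := by
  refine (slice S.mdens hW).trans (lintegral_congr fun t => lintegral_congr fun θ => ?_)
  unfold dens
  simp only
  rw [lintegral_mul_const' _ _ ENNReal.ofReal_ne_top, ← S.U_rep', U_mul_f]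

lemma nu_slice {W : Set ℝ} (hW : MeasurableSet W) :
    S.nu {z | z.1.2 ∈ W} = ∫⁻ t in W, S.far1 t := slice S.mhfar hW

lemma m1_bdd (t : ℝ) : ∃ C, 0 ≤ C ∧ ∀ s ≤ t,
    S.m1 s ≤ ENNReal.ofReal (C * exp (S.q * S.g1 * s)) * σ univ := by
  obtain ⟨C1, hC1, H1⟩ := S.U_bdd' t
  obtain ⟨C2, hC2, H2⟩ := S.f_bdd t
  refine ⟨C1 * C2, by positivity, fun s hs => ?_⟩
  rw [← lintegral_const]
  refine lintegral_mono fun θ => ?_
  rw [← U_mul_f, mul_assoc, ENNReal.ofReal_mul hC1]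
  exact mul_le_mul' (ENNReal.ofReal_le_ofReal (H1 θ s hs)) (ENNReal.ofReal_le_ofReal (H2 θ s hs))

lemma m1_ne_top (t : ℝ) : S.m1 t ≠ ∞ := by
  obtain ⟨C, -, H⟩ := S.m1_bdd t
  exact ne_top_of_le_ne_top (by finiteness) (H t le_rfl)

lemma mu_fst_ne_top (t : ℝ) : S.mu {z | z.1.2 ∈ Iic t} ≠ ∞ := by
  obtain ⟨C, hC, H⟩ := S.m1_bdd t
  rw [S.mu_slice measurableSet_Iic]
  have hi := (integrableOn_exp_mul_Iic (mul_pos S.hq S.g1_pos) t).const_mul C
  refine ne_top_of_le_ne_top ?_ (setLIntegral_mono' measurableSet_Iic fun s hs => H s hs)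
  rw [lintegral_mul_const' _ _ (measure_ne_top _ _)]
  exact ENNReal.mul_ne_top hi.lintegral_lt_top.ne (measure_ne_top _ _)

lemma mu_snd_ne_top (t : ℝ) : S.mu {z | z.2.2 ∈ Iic t} ≠ ∞ := by
  have := S.swap.mu_fst_ne_top t
  rwa [S.mu_swap (A := {z | z.1.2 ∈ Iic t})
    ((measurable_snd.comp measurable_fst) measurableSet_Iic)] at this

lemma side_ft (t : ℝ) : Side (S.ft t) where
  cont := S.f_cont.comp (by fun_prop)
  pos := fun _ => S.f_pos _
  small := fun θ l hl => by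
    have h1 := (S.tendsto_U θ).rpow_const (p := S.q) (Or.inr S.hq.le)
    rw [zero_rpow S.hq.ne'] at h1
    obtain ⟨s, hs⟩ := (h1.eventually (ge_mem_nhds hl)).exists
    exact ⟨s - t, by simpa [ft, f] using hs⟩

lemma kfam {ε : ℝ} (hε : 0 < ε) : KFam (S.Kf ε) (S.κf ε) ε where
  mK := (measurable_Kn S.m S.c0 ε).comp (f := fun z : (Ω × Ω) × ℝ => (S.cs z.1.1 z.1.2, z.2))
    ((S.cs_meas.comp measurable_fst).prodMk measurable_snd)
  mκ := (measurable_κn S.m S.c0 ε).comp (f := fun z : (Ω × Ω) × ℝ => (S.cs z.1.1 z.1.2, z.2))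
    ((S.cs_meas.comp measurable_fst).prodMk measurable_snd)
  ker := fun _ _ => ker1_Kn S.hm S.hc0 hε _

lemma Kf_swap (ε : ℝ) : (fun ω θ => S.Kf ε θ ω) = S.swap.Kf ε := by
  ext ω θ z; unfold Kf; rw [S.cs_symm]; rfl

lemma wt_bounds {x y : Ω × ℝ} {t M ε ζ : ℝ} (hx : |x.2 - t| ≤ M) (hxy : |x.2 - y.2| ≤ ε)
    (hζ : S.sb * (M + ε) ≤ ζ) :
    exp (S.del * t - ζ) ≤ S.wt x y ∧ S.wt x y ≤ exp (S.del * t + ζ) := by
  have hy : |y.2 - t| ≤ M + ε := by
    have : y.2 - t = (x.2 - t) - (x.2 - y.2) := by ring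
    rw [this]; exact (abs_sub _ _).trans (add_le_add hx hxy)
  have hε : 0 ≤ ε := (abs_nonneg _).trans hxy
  have h1 : |(S.g1 - S.m) * (x.2 - t) + (S.g2 - S.m) * (y.2 - t)| ≤ ζ := by
    refine (abs_add_le _ _).trans (le_trans ?_ hζ)
    rw [abs_mul, abs_mul, sb, add_mul]
    gcongr; linarith
  have h2 := abs_le.1 h1
  unfold wt del
  constructor <;> refine exp_le_exp.2 ?_ <;> linarith [h2.1, h2.2]

lemma Kn_eq_zero {ε : ℝ} (hε : 0 < ε) (θ ω : Ω) {z : ℝ} (hz : ¬ |z| ≤ ε) : S.Kf ε θ ω z = 0 := by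
  rw [← ((S.kfam hε).ker θ ω).abs_eq]
  exact ((S.kfam hε).ker θ ω).zero _ (not_le.1 hz).le

lemma pot_eq (ε t : ℝ) (θ : Ω) (s : ℝ) : pot σ (S.Kf ε) (S.swap.ft t) θ s
    = ∫⁻ y, S.Kf ε θ y.1 (t + s - y.2) * ENNReal.ofReal (S.g y) ∂muP σ := by
  rw [← lintegral_shift σ t]
  unfold pot
  refine lintegral_congr fun y => ?_
  simp only
  congr 2; ring

lemma pot_le {ε t M ζ : ℝ} (hε : 0 < ε) (hζ : S.sb * (M + ε) ≤ ζ) (θ : Ω) {s : ℝ} (hs : |s| ≤ M) :
    pot σ (S.Kf ε) (S.swap.ft t) θ s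
      ≤ ENNReal.ofReal (exp (ζ - S.del * t)) * ENNReal.ofReal (S.U (θ, t + s)) := by
  rw [pot_eq, S.U_rep', ← lintegral_const_mul' _ _ ENNReal.ofReal_ne_top]
  refine lintegral_mono fun y => ?_
  rw [← mul_assoc]
  refine mul_le_mul_left ?_ _
  by_cases hz : |t + s - y.2| ≤ ε
  · refine (Kn_le S.hc0 (S.cs_le _ _) _).trans ?_
    rw [← ENNReal.ofReal_mul (exp_pos _).le]
    refine ENNReal.ofReal_le_ofReal ?_
    have h1 := (S.wt_bounds (x := (θ, t + s)) (y := y) (t := t) (by simpa using hs) hz hζ).1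
    have h2 : 1 ≤ exp (ζ - S.del * t) * S.wt (θ, t + s) y := by
      calc (1 : ℝ) = exp (ζ - S.del * t) * exp (S.del * t - ζ) := by rw [← exp_add]; simp
        _ ≤ _ := by gcongr
    have h3 := mul_nonneg S.hc0.le (kr_nonneg S.m (S.cs_le θ y.1) (t + s - y.2))
    rw [kk_eq]
    nlinarith
  · rw [S.Kn_eq_zero hε _ _ hz]; exact zero_le

lemma locm_le {ε t M ζ : ℝ} (hε : 0 < ε) (hM : 0 ≤ M) (hζ : S.sb * (M + ε) ≤ ζ) :
    locm σ (S.Kf ε) (S.ft t) (S.swap.ft t) ≤ ENNReal.ofReal (exp (ζ - S.del * t)) * S.m1 t := by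
  unfold locm m1
  rw [← lintegral_const_mul' _ _ ENNReal.ofReal_ne_top]
  refine lintegral_mono fun θ => ?_
  have := S.pot_le (t := t) hε hζ θ (s := 0) (by simpa using hM)
  rw [← U_mul_f, ← mul_assoc]
  simp only [ft, add_zero] at this ⊢
  gcongr

lemma m1_le {ε t M ζ : ℝ} (hε : 0 < ε) (hε1 : ε ≤ 1) (hM : 0 ≤ M) (hζ : S.sb * (M + ε) ≤ ζ) :
    S.m1 t ≤ ENNReal.ofReal (exp (S.del * t + ζ)) * locm σ (S.Kf ε) (S.ft t) (S.swap.ft t)
      + ENNReal.ofReal (S.c0 * Cf S.m ε) * S.far1 t := by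
  unfold locm m1 far1
  have mm : Measurable fun θ => ∫⁻ y, S.hfar ((θ, t), y) ∂muP σ :=
    (S.mhfar.lintegral_prod_right' (ν := muP σ)).comp (f := fun θ : Ω => (θ, t)) (by fun_prop)
  rw [← lintegral_const_mul' _ _ ENNReal.ofReal_ne_top,
    ← lintegral_const_mul' _ _ ENNReal.ofReal_ne_top, ← lintegral_add_right _ (mm.const_mul _)]
  refine lintegral_mono fun θ => ?_
  have mm2 : Measurable fun y => S.hfar ((θ, t), y) := S.mhfar.comp measurable_prodMk_left
  rw [← U_mul_f, S.U_rep', pot_eq, ← lintegral_mul_const' _ _ ENNReal.ofReal_ne_top,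
    ← lintegral_mul_const' _ _ ENNReal.ofReal_ne_top,
    ← lintegral_const_mul' _ _ ENNReal.ofReal_ne_top,
    ← lintegral_const_mul' _ _ ENNReal.ofReal_ne_top, ← lintegral_add_right _ (mm2.const_mul _)]
  refine lintegral_mono_ae ?_
  filter_upwards [S.ae_lt θ] with y hy
  have hw := S.wt_pos (θ, t) y
  have h1 : ENNReal.ofReal (S.kk (θ, t) y)
      ≤ ENNReal.ofReal (exp (S.del * t + ζ)) * S.Kf ε θ y.1 (t - y.2)
        + ENNReal.ofReal (S.c0 * Cf S.m ε)
          * ENNReal.ofReal (S.wt (θ, t) y * exp (-S.m * |t - y.2|)) := by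
    have h2 := le_Kn_add S.hm S.hc0 hε hε1 hy (t - y.2)
    have h3 : S.kk (θ, t) y = S.wt (θ, t) y * (S.c0 * kr S.m (S.cs θ y.1) (t - y.2)) := by
      rw [kk_eq]; ring
    rw [h3, ENNReal.ofReal_mul hw.le]
    refine (mul_le_mul_right h2 _).trans ?_
    rw [mul_add]
    refine add_le_add ?_ (le_of_eq ?_)
    · by_cases hz : |t - y.2| ≤ ε
      · refine mul_le_mul_left (ENNReal.ofReal_le_ofReal ?_) _
        exact (S.wt_bounds (x := (θ, t)) (y := y) (t := t) (by simpa using hM) hz hζ).2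
      · have := S.Kn_eq_zero hε θ y.1 hz
        unfold Kf at this ⊢
        rw [this]; simp
    · have := Cf_pos S.m hε
      have := S.hc0
      rw [← ENNReal.ofReal_mul hw.le, ← ENNReal.ofReal_mul (by positivity)]
      congr 1; ring
  unfold hfar
  simp only [ft, add_zero]
  calc _ ≤ (ENNReal.ofReal (exp (S.del * t + ζ)) * S.Kf ε θ y.1 (t - y.2)
        + ENNReal.ofReal (S.c0 * Cf S.m ε)
          * ENNReal.ofReal (S.wt (θ, t) y * exp (-S.m * |t - y.2|))) * ENNReal.ofReal (S.g y)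
          * ENNReal.ofReal (S.f (θ, t)) := by gcongr
    _ = _ := by ring

def both (t : ℝ) : Set ((Ω × ℝ) × (Ω × ℝ)) := {z | z.1.2 < t ∧ z.2.2 < t}

def cross (t : ℝ) : Set ((Ω × ℝ) × (Ω × ℝ)) :=
  {z | (z.1.2 < t ∧ t ≤ z.2.2) ∨ (z.2.2 < t ∧ t ≤ z.1.2)}

omit S in
lemma mboth (t : ℝ) : MeasurableSet (both (Ω := Ω) t) :=
  (measurableSet_lt measurable_fst.snd measurable_const).inter
    (measurableSet_lt measurable_snd.snd measurable_const)

omit S in
lemma mcross (t : ℝ) : MeasurableSet (cross (Ω := Ω) t) :=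
  ((measurableSet_lt measurable_fst.snd measurable_const).inter
    (measurableSet_le measurable_const measurable_snd.snd)).union
  ((measurableSet_lt measurable_snd.snd measurable_const).inter
    (measurableSet_le measurable_const measurable_fst.snd))

lemma both_ne_top (t : ℝ) : S.mu (both t) ≠ ∞ :=
  ne_top_of_le_ne_top (S.mu_fst_ne_top t) (measure_mono fun _ hz => hz.1.le)

lemma cross_ne_top (t : ℝ) : S.mu (cross t) ≠ ∞ := by
  refine ne_top_of_le_ne_top (ENNReal.add_ne_top.2 ⟨S.mu_fst_ne_top t, S.mu_snd_ne_top t⟩)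
    (le_trans (measure_mono ?_) (measure_union_le _ _))
  rintro z (hz | hz)
  · exact Or.inl hz.1.le
  · exact Or.inr hz.1.le

lemma cross_pt {ε t ζ : ℝ} (hζ : S.sb * (ε + ε) ≤ ζ) {x y : Ω × ℝ} (hx : x.2 < t)
    (hy : t ≤ y.2) : 0 ≤ S.A1 x y + S.sb * S.kk x y ∧
      ENNReal.ofReal (exp (S.del * t - ζ)) * S.κf ε x.1 y.1 |x.2 - y.2|
        ≤ ENNReal.ofReal (S.A1 x y + S.sb * S.kk x y) := by
  have hw := mul_pos S.hc0 (S.wt_pos x y)
  have hk := kr_nonneg S.m (S.cs_le x.1 y.1) (x.2 - y.2)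
  have e1 : dkr S.m (S.cs x.1 y.1) (x.2 - y.2) = -dkr S.m (S.cs x.1 y.1) |x.2 - y.2| := by
    rw [abs_of_neg (by linarith), dkr_neg, neg_neg]
  have h1 := dkr_nonpos S.hm (S.cs_le x.1 y.1) (abs_nonneg (x.2 - y.2))
  have h2 : S.c0 * S.wt x y * -dkr S.m (S.cs x.1 y.1) |x.2 - y.2|
      ≤ S.A1 x y + S.sb * S.kk x y := by
    rw [kk_eq, A1, e1]
    have h3 : 0 ≤ S.g1 - S.m + S.sb := by
      unfold sb; linarith [neg_abs_le (S.g1 - S.m), abs_nonneg (S.g2 - S.m)]
    have h4 : 0 ≤ S.c0 * S.wt x y * ((S.g1 - S.m + S.sb) * kr S.m (S.cs x.1 y.1) (x.2 - y.2)) := by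
      positivity
    linarith
  refine ⟨le_trans (mul_nonneg hw.le (by linarith)) h2, ?_⟩
  unfold κf κn
  split_ifs with hc
  · rw [← ENNReal.ofReal_mul (exp_pos _).le]
    refine ENNReal.ofReal_le_ofReal (le_trans ?_ h2)
    have h5 : |x.2 - t| ≤ ε := by
      refine le_trans ?_ hc.2.le
      rw [abs_of_neg (by linarith), abs_of_neg (by linarith)]; linarith
    have h6 := (S.wt_bounds h5 hc.2.le hζ).1
    have h7 : 0 ≤ S.c0 * -dkr S.m (S.cs x.1 y.1) |x.2 - y.2| := mul_nonneg S.hc0.le (by linarith)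
    nlinarith
  · simp

lemma attr0_eq {ε : ℝ} (hε : 0 < ε) (t : ℝ) : attr0 σ (S.κf ε) (S.ft t) (S.swap.ft t)
    = ∫⁻ z, att (S.κf ε z.1.1 z.2.1) (z.1.2 - t) (z.2.2 - t) * ENNReal.ofReal (S.g z.2)
      * ENNReal.ofReal (S.f z.1) ∂(muP σ).prod (muP σ) := by
  have mm : Measurable fun z : (Ω × ℝ) × (Ω × ℝ) =>
      att (S.κf ε z.1.1 z.2.1) (z.1.2 - t) (z.2.2 - t) * ENNReal.ofReal (S.g z.2)
      * ENNReal.ofReal (S.f z.1) :=
    (((S.kfam hε).mattc (by fun_prop) (by fun_prop) (by fun_prop) (by fun_prop)).mul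
      (S.mg.comp measurable_snd).ennreal_ofReal).mul (S.mf.comp measurable_fst).ennreal_ofReal
  rw [lintegral_prod _ mm.aemeasurable, ← lintegral_shift σ t]
  unfold attr0
  refine lintegral_congr fun x => ?_
  simp only
  rw [lintegral_mul_const' _ _ ENNReal.ofReal_ne_top, ← lintegral_shift σ t
    (fun y => att (S.κf ε x.1 y.1) (t + x.2 - t) (y.2 - t) * ENNReal.ofReal (S.g y))]
  simp only [add_sub_cancel_left]
  rfl

lemma int_pow (t c : ℝ) (hc : 0 ≤ c) :
    ENNReal.ofReal (∫ θ, S.U (θ, t) ^ (S.q + 1) * c ∂σ) = ENNReal.ofReal c * S.m1 t := by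
  have h0 : ∀ θ, 0 ≤ S.U (θ, t) ^ (S.q + 1) := fun θ => rpow_nonneg (S.U_pos _).le _
  have hm : Measurable fun θ => S.U (θ, t) ^ (S.q + 1) :=
    (S.U_cont.measurable.comp (f := fun θ : Ω => (θ, t)) (by fun_prop)).pow_const _
  have hi : Integrable (fun θ => S.U (θ, t) ^ (S.q + 1)) σ :=
    ⟨hm.aestronglyMeasurable, (hasFiniteIntegral_iff_ofReal (Eventually.of_forall h0)).2
      (S.m1_ne_top t).lt_top⟩
  rw [integral_mul_const, mul_comm, ENNReal.ofReal_mul hc,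
    ofReal_integral_eq_lintegral_ofReal hi (Eventually.of_forall h0)]
  rfl

lemma virial_ineq {ε ζ : ℝ} (hε : 0 < ε) (hζ : S.sb * (ε + ε) ≤ ζ) (t : ℝ) :
    ENNReal.ofReal S.del * S.mu (both t)
      + ENNReal.ofReal (exp (S.del * t - ζ)) * attr0 σ (S.κf ε) (S.ft t) (S.swap.ft t)
      ≤ ENNReal.ofReal (1 / (S.q + 1)) * S.m1 t + ENNReal.ofReal (1 / (S.p + 1)) * S.swap.m1 t
        + ENNReal.ofReal S.sb * S.mu (cross t) := by
  set Y : (Ω × ℝ) × (Ω × ℝ) → ℝ :=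
    (cross t).indicator fun z => S.sb * (S.kk z.1 z.2 * S.g z.2 * S.f z.1) with hY
  have hd : ∀ z, ENNReal.ofReal (S.kk z.1 z.2 * S.g z.2 * S.f z.1) = S.dens z := fun z => by
    rw [ENNReal.ofReal_mul (mul_nonneg (S.kk_nonneg _ _) (S.g_pos _).le),
      ENNReal.ofReal_mul (S.kk_nonneg _ _)]; rfl
  have hd0 : ∀ z : (Ω × ℝ) × (Ω × ℝ), 0 ≤ S.kk z.1 z.2 * S.g z.2 * S.f z.1 := fun z =>
    mul_nonneg (mul_nonneg (S.kk_nonneg _ _) (S.g_pos _).le) (S.f_pos _).le
  have hY0 : ∀ z, 0 ≤ Y z := fun z =>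
    indicator_nonneg (fun z _ => mul_nonneg S.sb_nonneg (hd0 z)) z
  have hYl : ∫⁻ z, ENNReal.ofReal (Y z) ∂(muP σ).prod (muP σ)
      = ENNReal.ofReal S.sb * S.mu (cross t) := by
    unfold mu
    rw [withDensity_apply _ (mcross t), ← lintegral_const_mul' _ _ ENNReal.ofReal_ne_top,
      ← lintegral_indicator (mcross t)]
    refine lintegral_congr fun z => ?_
    by_cases hz : z ∈ cross t
    · rw [hY, indicator_of_mem hz, indicator_of_mem hz, ENNReal.ofReal_mul S.sb_nonneg, hd]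
    · rw [hY, indicator_of_notMem hz, indicator_of_notMem hz, ENNReal.ofReal_zero]
  have hYi : Integrable Y ((muP σ).prod (muP σ)) := by
    refine ⟨(Measurable.indicator (((S.mkk.mul (S.mg.comp measurable_snd)).mul
      (S.mf.comp measurable_fst)).const_mul _) (mcross t)).aestronglyMeasurable, ?_⟩
    rw [hasFiniteIntegral_iff_ofReal (Eventually.of_forall hY0), hYl]
    exact ENNReal.mul_lt_top ENNReal.ofReal_lt_top (S.cross_ne_top t).lt_top
  have hX1 := S.integrable_Xi t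
  have hX2 := (S.swap.integrable_Xi t).swap
  have key : ∀ z : (Ω × ℝ) × (Ω × ℝ), 0 ≤ S.Xi t z + S.swap.Xi t z.swap + Y z ∧
      ENNReal.ofReal S.del * (both t).indicator S.dens z + ENNReal.ofReal (exp (S.del * t - ζ))
        * (att (S.κf ε z.1.1 z.2.1) (z.1.2 - t) (z.2.2 - t) * ENNReal.ofReal (S.g z.2)
          * ENNReal.ofReal (S.f z.1)) ≤ ENNReal.ofReal (S.Xi t z + S.swap.Xi t z.swap + Y z) := by
    rintro ⟨x, y⟩
    have hg := S.g_pos y
    have hf := S.f_pos x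
    unfold Xi att
    simp only [Prod.swap_prod_mk]
    by_cases hx : x.2 < t <;> by_cases hy : y.2 < t
    · have hc : (x, y) ∉ cross t := by
        rintro (h | h)
        · exact absurd hy (not_lt.2 h.2)
        · exact absurd hx (not_lt.2 h.2)
      have e : S.A1 x y * S.g y * S.f x + S.swap.A1 y x * S.swap.g x * S.swap.f y + Y (x, y)
          = S.del * (S.kk x y * S.g y * S.f x) := by
        have e2 : S.swap.A1 y x = S.c0 * S.wt x y * ((S.g2 - S.m) * kr S.m (S.cs x.1 y.1)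
            (x.2 - y.2) - dkr S.m (S.cs x.1 y.1) (x.2 - y.2)) := by
          unfold A1
          rw [wt_swap, ← neg_sub x.2 y.2, kr_neg, dkr_neg, S.cs_symm x.1 y.1]
          rfl
        rw [hY, indicator_of_notMem hc, e2, kk_eq, A1, del]
        change _ + _ * S.f x * S.g y + _ = _
        ring
      rw [if_pos hx, if_pos hy, e, if_neg (not_lt.2 (mul_nonneg_of_nonpos_of_nonpos
        (by linarith) (by linarith))), indicator_of_mem (show (x, y) ∈ both t from ⟨hx, hy⟩),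
        ENNReal.ofReal_mul S.del_pos.le, hd (x, y)]
      exact ⟨mul_nonneg S.del_pos.le (hd0 (x, y)), by simp⟩
    · have hc : (x, y) ∈ cross t := Or.inl ⟨hx, not_lt.1 hy⟩
      obtain ⟨h1, h2⟩ := S.cross_pt hζ hx (not_lt.1 hy)
      have e : S.A1 x y * S.g y * S.f x + 0 + Y (x, y)
          = (S.A1 x y + S.sb * S.kk x y) * S.g y * S.f x := by
        rw [hY, indicator_of_mem hc]; ring
      rw [if_pos hx, if_neg hy, e, indicator_of_notMem (show (x, y) ∉ both t from fun h => hy h.2),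
        mul_zero, zero_add, ENNReal.ofReal_mul (by positivity), ENNReal.ofReal_mul h1,
        ← mul_assoc, ← mul_assoc]
      refine ⟨by positivity, ?_⟩
      gcongr
      refine le_trans ?_ h2
      gcongr
      split_ifs
      · rw [sub_sub_sub_cancel_right]
      · exact zero_le
    · have hc : (x, y) ∈ cross t := Or.inr ⟨hy, not_lt.1 hx⟩
      obtain ⟨h1, h2⟩ := S.swap.cross_pt (ε := ε) (ζ := ζ) (by rw [sb_swap]; exact hζ) hy (not_lt.1 hx)
      rw [sb_swap, kk_swap] at h1 h2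
      rw [del_swap] at h2
      have e : 0 + S.swap.A1 y x * S.swap.g x * S.swap.f y + Y (x, y)
          = (S.swap.A1 y x + S.sb * S.kk x y) * S.g y * S.f x := by
        rw [hY, indicator_of_mem hc]
        change _ + _ * S.f x * S.g y + _ = _
        ring
      rw [if_neg hx, if_pos hy, e, indicator_of_notMem (show (x, y) ∉ both t from fun h => hx h.1),
        mul_zero, zero_add, ENNReal.ofReal_mul (by positivity), ENNReal.ofReal_mul h1,
        ← mul_assoc, ← mul_assoc]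
      refine ⟨by positivity, ?_⟩
      gcongr
      refine le_trans ?_ h2
      gcongr
      split_ifs
      · rw [sub_sub_sub_cancel_right, abs_sub_comm]
        unfold κf
        rw [S.cs_symm]
        rfl
      · exact zero_le
    · have hc : (x, y) ∉ cross t := by
        rintro (h | h)
        · exact hx h.1
        · exact hy h.1
      rw [if_neg hx, if_neg hy, hY, indicator_of_notMem hc, if_neg (not_lt.2 (mul_nonneg
        (by linarith [not_lt.1 hx]) (by linarith [not_lt.1 hy]))),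
        indicator_of_notMem (show (x, y) ∉ both t from fun h => hx h.1)]
      simp
  have h1 := ofReal_integral_eq_lintegral_ofReal ((hX1.add hX2).add hYi)
    (Eventually.of_forall fun z => (key z).1)
  have hq := S.hq
  have hp := S.hp
  calc _ = ∫⁻ z, ENNReal.ofReal S.del * (both t).indicator S.dens z
          + ENNReal.ofReal (exp (S.del * t - ζ))
        * (att (S.κf ε z.1.1 z.2.1) (z.1.2 - t) (z.2.2 - t) * ENNReal.ofReal (S.g z.2)
          * ENNReal.ofReal (S.f z.1)) ∂(muP σ).prod (muP σ) := by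
        rw [lintegral_add_left ((S.mdens.indicator (mboth t)).const_mul _),
          lintegral_const_mul' _ _ ENNReal.ofReal_ne_top,
          lintegral_const_mul' _ _ ENNReal.ofReal_ne_top, lintegral_indicator (mboth t),
          S.attr0_eq hε, mu, withDensity_apply _ (mboth t)]
    _ ≤ _ := lintegral_mono fun z => (key z).2
    _ = _ := h1.symm
    _ ≤ _ := by
        rw [integral_add' (hX1.add hX2) hYi, integral_add' hX1 hX2]
        refine ENNReal.ofReal_add_le.trans (add_le_add (ENNReal.ofReal_add_le.trans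
          (add_le_add (le_of_eq ?_) (le_of_eq ?_))) (le_of_eq ?_))
        · rw [S.integral_Xi, ← S.int_pow t _ (by positivity)]
          simp only [mul_one_div]
        · have := integral_prod_swap (μ := muP σ) (ν := muP σ) (S.swap.Xi t)
          rw [Function.comp_def, this, S.swap.integral_Xi, ← S.swap.int_pow t _ (by positivity)]
          simp only [mul_one_div]
          rfl
        · rw [ofReal_integral_eq_lintegral_ofReal hYi (Eventually.of_forall hY0), hYl]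

lemma P_eq (t : ℝ) : ∫⁻ θ, ENNReal.ofReal (S.ft t (θ, 0) ^ (1 + S.q⁻¹) / (1 + S.q⁻¹)) ∂σ
    = ENNReal.ofReal (1 - 1 / (S.q + 1)) * S.m1 t := by
  have hq := S.hq
  have e : 1 - 1 / (S.q + 1) = 1 / (1 + S.q⁻¹) := by field_simp; ring
  unfold m1
  rw [← lintegral_const_mul' _ _ ENNReal.ofReal_ne_top]
  refine lintegral_congr fun θ => ?_
  rw [e, ← ENNReal.ofReal_mul (by positivity), ft, f, add_zero, ← rpow_mul (S.U_pos _).le]
  congr 1
  rw [mul_add, mul_one, mul_inv_cancel₀ hq.ne']; ring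

lemma ft_rpow (t : ℝ) (θ : Ω) (s : ℝ) : S.ft t (θ, s) ^ S.q⁻¹ = S.U (θ, t + s) :=
  rpow_rpow_inv (S.U_pos _).le S.hq.ne'

theorem point (hpq : 1 ≤ S.p * S.q) {ε ζ : ℝ} (hε : 0 < ε) (hε1 : ε ≤ 1) {N : ℕ} (hN : 0 < N)
    (hζ : S.sb * (2 * N * ε + ε) ≤ ζ) (t : ℝ) :
    ENNReal.ofReal S.del * S.mu (both t) ≤ ENNReal.ofReal (2 * ζ + 1 / N) * (S.m1 t + S.swap.m1 t)
      + ENNReal.ofReal S.sb * S.mu (cross t)
      + ENNReal.ofReal (S.c0 * Cf S.m ε) * (S.far1 t + S.swap.far1 t) := by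
  have hq := S.hq
  have hp := S.hp
  have hN' : (1 : ℝ) ≤ N := by exact_mod_cast hN
  have hM : 0 ≤ 2 * N * ε := by positivity
  have hζ' : S.swap.sb * (2 * N * ε + ε) ≤ ζ := by rw [sb_swap]; exact hζ
  have hζ2 : S.sb * (ε + ε) ≤ ζ := by
    refine le_trans ?_ hζ
    have := S.sb_nonneg
    gcongr; nlinarith
  have hζ0 : 0 ≤ ζ := le_trans (mul_nonneg S.sb_nonneg (by positivity)) hζ
  have hee : 1 ≤ 1 / (1 + S.q⁻¹) + 1 / (1 + S.p⁻¹) := by
    rw [div_add_div _ _ (by positivity) (by positivity), le_div_iff₀ (by positivity)]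
    have : S.q⁻¹ * S.p⁻¹ ≤ 1 := by
      rw [← mul_inv, mul_comm]; exact inv_le_one_of_one_le₀ hpq
    nlinarith
  have h1 := (S.kfam hε).local_ineq σ (S.side_ft t) (S.swap.side_ft t) hε (inv_pos.2 hq)
    (inv_pos.2 hp) hee N (Λ := ENNReal.ofReal (exp (ζ - S.del * t))) ENNReal.ofReal_ne_top
    (fun θ s hs => by rw [ft_rpow]; exact S.pot_le hε hζ θ hs)
    (fun θ s hs => by
      rw [Kf_swap, ← del_swap]
      exact (S.swap.pot_le hε hζ' θ hs).trans (le_of_eq (by rw [← S.swap.ft_rpow]; rfl)))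
  have e2 := S.swap.P_eq t
  rw [S.P_eq, Kf_swap] at h1
  erw [e2] at h1
  have h3 := S.swap.locm_le (t := t) hε hM hζ'
  have h5 := S.swap.m1_le (t := t) hε hε1 hM hζ'
  rw [del_swap] at h3 h5
  exact alg (a := 1 / (S.q + 1)) (b := 1 / (S.p + 1)) hN (by positivity) (by rw [div_le_one (by linarith)]; linarith) (by positivity)
    (by rw [div_le_one (by linarith)]; linarith) S.del_pos.le hζ0 S.sb_nonneg
    (mul_pos S.hc0 (Cf_pos _ hε)) (S.m1_ne_top t) (S.swap.m1_ne_top t) (S.cross_ne_top t)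
    (S.both_ne_top t) h1 (S.locm_le hε hM hζ) h3 (S.m1_le hε hε1 hM hζ) h5
    (S.virial_ineq hε hζ2 t)

end Sys

end Vale.Agent.P100
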