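import Vale.Agent.P100.Rep
import Vale.Agent.P100.Cyl

namespace Vale.Agent.P100
open MeasureTheory Set Real Filter Topology Module Metric
open scoped ENNReal NNReal RealInnerProductSpace
set_option linter.unusedSectionVars false

variable {E : Type*} [NormedAddCommGroup E] [InnerProductSpace ℝ E] [FiniteDimensional ℝ E]
  [MeasurableSpace E] [BorelSpace E]

noncomputable def pt (x : sphere (0 : E) 1 × ℝ) : E := exp x.2 • (x.1 : E)

noncomputable def csi (θ ω : sphere (0 : E) 1) : ℝ := ⟪(θ : E), (ω : E)⟫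

lemma pt_cont : Continuous (pt (E := E)) := by unfold pt; fun_prop

lemma norm_pt (x : sphere (0 : E) 1 × ℝ) : ‖pt x‖ = exp x.2 := by
  rw [pt, norm_smul, norm_eq_of_mem_sphere, mul_one, Real.norm_eq_abs, abs_of_pos (exp_pos _)]

lemma pt_ne (x : sphere (0 : E) 1 × ℝ) : pt x ≠ 0 := by
  rw [← norm_pos_iff, norm_pt]; exact exp_pos _

lemma dist_pt (x y : sphere (0 : E) 1 × ℝ) :
    ‖pt y - pt x‖ ^ 2 = 2 * exp (x.2 + y.2) * (cosh (x.2 - y.2) - csi x.1 y.1) := by
  rw [norm_sub_rev, norm_sub_sq_real, norm_pt, norm_pt, pt, pt, real_inner_smul_left,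
    real_inner_smul_right, cosh_eq, neg_sub, exp_sub, exp_sub, exp_add, csi]
  field_simp
  ring

lemma csi_abs (θ ω : sphere (0 : E) 1) : |csi θ ω| ≤ 1 := by
  have := abs_real_inner_le_norm (θ : E) (ω : E)
  rwa [norm_eq_of_mem_sphere, norm_eq_of_mem_sphere, mul_one] at this

lemma csi_symm (θ ω : sphere (0 : E) 1) : csi θ ω = csi ω θ := real_inner_comm _ _

lemma csi_cont : Continuous fun z : sphere (0 : E) 1 × sphere (0 : E) 1 => csi z.1 z.2 := by
  unfold csi; fun_prop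

variable (μ : Measure E) [μ.IsAddHaarMeasure]

lemma polar (hn : 2 ≤ finrank ℝ E) {Φ : E → ℝ≥0∞} (hΦ : Measurable Φ) :
    ∫⁻ y, Φ y ∂μ
      = ∫⁻ x, Φ (pt x) * ENNReal.ofReal (exp (finrank ℝ E * x.2)) ∂muP μ.toSphere := by
  have : Nontrivial E := Module.nontrivial_of_finrank_pos (R := ℝ) (by omega)
  have h1 := (μ.measurePreserving_homeomorphUnitSphereProd.symm
    (homeomorphUnitSphereProd E).toMeasurableEquiv).lintegral_comp_emb
    (MeasurableEquiv.measurableEmbedding _) (fun y => Φ y)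
  rw [lintegral_subtype_comap (measurableSet_singleton (0 : E)).compl,
    restrict_compl_singleton] at h1
  have m1 : Measurable fun z : sphere (0 : E) 1 × Ioi (0 : ℝ) => Φ (z.2.1 • (z.1 : E)) :=
    hΦ.comp (by fun_prop)
  have m2 : Measurable fun x : sphere (0 : E) 1 × ℝ =>
      Φ (pt x) * ENNReal.ofReal (exp (finrank ℝ E * x.2)) :=
    (hΦ.comp pt_cont.measurable).mul (by fun_prop)
  rw [← h1, muP, lintegral_prod _ m2.aemeasurable]
  refine (lintegral_prod _ m1.aemeasurable).trans (lintegral_congr fun ω => ?_)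
  have m3 : Measurable fun r : Ioi (0 : ℝ) => Φ (r.1 • (ω : E)) := hΦ.comp (by fun_prop)
  simp only
  rw [Measure.volumeIoiPow, lintegral_withDensity_eq_lintegral_mul _ (by fun_prop) m3]
  have h2 := lintegral_subtype_comap (μ := volume) (s := Ioi (0 : ℝ)) measurableSet_Ioi
    (fun r => ENNReal.ofReal (r ^ (finrank ℝ E - 1)) * Φ (r • (ω : E)))
  refine Eq.trans h2 ?_
  rw [← range_exp, ← image_univ, lintegral_image_eq_lintegral_abs_deriv_mul MeasurableSet.univ
    (fun r _ => (hasDerivAt_exp r).hasDerivWithinAt) exp_injective.injOn, Measure.restrict_univ]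
  refine lintegral_congr fun r => ?_
  rw [abs_of_pos (exp_pos r), ← mul_assoc, ← ENNReal.ofReal_mul (exp_pos r).le, ← pow_succ',
    Nat.sub_add_cancel (by omega), ← exp_nat_mul, mul_comm]
  rfl

lemma csi_lt (hn : 2 ≤ finrank ℝ E) (θ : sphere (0 : E) 1) : ∀ᵐ ω ∂μ.toSphere, csi θ ω < 1 := by
  have h0 : μ.toSphere {θ} = 0 := by
    rw [Measure.toSphere_apply' _ (measurableSet_singleton θ)]
    have h1 : μ (Submodule.span ℝ {(θ : E)}) = 0 := by
      refine Measure.addHaar_submodule μ _ fun h => ?_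
      have h2 := finrank_span_singleton (K := ℝ) (ne_zero_of_mem_unit_sphere θ)
      rw [h, finrank_top] at h2
      omega
    rw [measure_mono_null ?_ h1, mul_zero]
    rintro _ ⟨r, -, _, ⟨_, rfl, rfl⟩, rfl⟩
    exact Submodule.smul_mem _ _ (Submodule.mem_span_singleton_self _)
  filter_upwards [compl_mem_ae_iff.2 h0] with ω hω
  have h3 : (θ : E) - ω ≠ 0 := fun h => hω (Subtype.ext (sub_eq_zero.1 h).symm)
  have h4 := norm_sub_sq_real (θ : E) ω
  rw [norm_eq_of_mem_sphere, norm_eq_of_mem_sphere] at h4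
  have h5 : 0 < ‖(θ : E) - ω‖ ^ 2 := by positivity
  unfold csi
  linarith

lemma J_bound (hn : 2 ≤ finrank ℝ E) : ∃ J : ℝ≥0∞, J ≠ ∞ ∧ ∀ θ : sphere (0 : E) 1,
    ∫⁻ y, (if |y.2| ≤ 1 then ENNReal.ofReal
      ((cosh y.2 - csi θ y.1) ^ (-(((finrank ℝ E : ℝ) - 2) / 2 + 1 / 2))) else 0)
      ∂muP μ.toSphere ≤ J := by
  set n : ℝ := (finrank ℝ E : ℝ) with hn'
  have hn2 : 2 ≤ n := by rw [hn']; exact_mod_cast hn
  set Ψ : E → ℝ≥0∞ := (ball (0 : E) 4).indicator fun z => ENNReal.ofReal (‖z‖ ^ (-(n - 1)))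
    with hΨ
  have mΨ : Measurable Ψ := (measurable_norm.pow_const _).ennreal_ofReal.indicator measurableSet_ball
  have hi : IntegrableOn (fun z : E => ‖z‖ ^ (-(n - 1))) (ball 0 4) μ :=
    integrableOn_ball_of_norm_le_rpow (C := 1) (α := n - 1) (by omega) (by linarith)
      (Eventually.of_forall fun z => by
        rw [one_mul, Real.norm_eq_abs, abs_of_nonneg (by positivity)])
      (measurable_norm.pow_const _).aestronglyMeasurable
  refine ⟨ENNReal.ofReal ((2 * exp 1) ^ ((n - 1) / 2) * exp n) * ∫⁻ z, Ψ z ∂μ, ?_, fun θ => ?_⟩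
  · rw [hΨ, lintegral_indicator measurableSet_ball]
    exact ENNReal.mul_ne_top ENNReal.ofReal_ne_top hi.lintegral_lt_top.ne
  rw [← lintegral_sub_right_eq_self Ψ (θ : E),
    polar μ hn (Φ := fun z => Ψ (z - θ)) (mΨ.comp (by fun_prop)),
    ← lintegral_const_mul' _ _ ENNReal.ofReal_ne_top]
  refine lintegral_mono fun y => ?_
  simp only
  split_ifs with hy
  swap
  · exact zero_le
  have hy' := abs_le.1 hy
  have e0 : pt (θ, 0) = (θ : E) := by simp [pt]
  have h1 := dist_pt (θ, 0) y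
  rw [e0] at h1
  simp only [zero_add, zero_sub, cosh_neg] at h1
  have h2 : exp y.2 ≤ exp 1 := exp_le_exp.2 hy'.2
  have h3 : pt y - θ ∈ ball (0 : E) 4 := by
    rw [mem_ball_zero_iff]
    refine (norm_sub_le _ _).trans_lt ?_
    rw [norm_pt, norm_eq_of_mem_sphere]
    linarith [exp_one_lt_d9]
  rw [hΨ, indicator_of_mem h3, ← ENNReal.ofReal_mul (by positivity),
    ← ENNReal.ofReal_mul (by positivity)]
  refine ENNReal.ofReal_le_ofReal ?_
  have h4 : cosh y.2 - csi θ y.1 = ‖pt y - θ‖ ^ 2 / (2 * exp y.2) := by rw [h1]; field_simp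
  have h5 : 1 ≤ exp n * exp (n * y.2) := by
    rw [← exp_add]; exact one_le_exp (by nlinarith [hy'.1])
  have e1 : -((n - 2) / 2 + 1 / 2) = -((n - 1) / 2) := by ring
  have e2 : (‖pt y - θ‖ ^ 2) ^ (-((n - 1) / 2)) = ‖pt y - θ‖ ^ (-(n - 1)) := by
    rw [← rpow_natCast, ← rpow_mul (norm_nonneg _)]; congr 1; push_cast; ring
  rw [h4, e1, div_rpow (by positivity) (by positivity), e2, rpow_neg (x := 2 * exp y.2)
    (by positivity), div_inv_eq_mul]
  have h6 : (2 * exp y.2) ^ ((n - 1) / 2) ≤ (2 * exp 1) ^ ((n - 1) / 2) := by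
    gcongr; linarith
  calc _ ≤ ‖pt y - θ‖ ^ (-(n - 1)) * (2 * exp 1) ^ ((n - 1) / 2) * (exp n * exp (n * y.2)) := by
        refine le_trans ?_ (le_mul_of_one_le_right (by positivity) h5)
        gcongr
    _ = _ := by ring

lemma Nk_eq {n : ℕ} (hn : 3 ≤ n) {t : ℝ} (ht : 0 < t) :
    Nk n t = ENNReal.ofReal (t ^ (-(((n : ℝ) - 2) / 2)) / (((n : ℝ) - 2) / 2)) := by
  have h3 : (3 : ℝ) ≤ n := by exact_mod_cast hn
  have ha : -((n : ℝ) / 2) < -1 := by linarith
  rw [Nk, ← ofReal_integral_eq_lintegral_ofReal (integrableOn_Ioi_rpow_of_lt ha ht),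
    integral_Ioi_rpow_of_lt ha ht]
  · congr 1
    rw [show -((n : ℝ) / 2) + 1 = -(((n : ℝ) - 2) / 2) by ring, neg_div_neg_eq]
  · filter_upwards [ae_restrict_mem measurableSet_Ioi] with s hs
    exact rpow_nonneg (ht.trans hs).le _

lemma Nk_two {t : ℝ} (ht : 0 < t) : Nk 2 t = ∞ := by
  by_contra hc
  have h1 : IntegrableOn (fun s : ℝ => s ^ (-(((2 : ℕ) : ℝ) / 2))) (Ioi t) := by
    refine ⟨(measurable_id.pow_const _).aestronglyMeasurable, ?_⟩
    rw [hasFiniteIntegral_iff_ofReal]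
    · exact lt_top_iff_ne_top.2 hc
    · filter_upwards [ae_restrict_mem measurableSet_Ioi] with s hs
      exact rpow_nonneg (ht.trans hs).le _
  rw [integrableOn_Ioi_rpow_iff ht] at h1
  norm_num at h1

lemma measurable_Nk (n : ℕ) : Measurable (Nk n) :=
  Antitone.measurable fun _ _ hab => lintegral_mono_set (Ioi_subset_Ioi hab)

lemma three_le {u G : E → ℝ} (hu : Super u G) (hG : ∀ y ≠ 0, 0 < G y) : 3 ≤ finrank ℝ E := by
  by_contra hc
  have hn : finrank ℝ E = 2 := by have := hu.hn; omega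
  have : Nontrivial E := Module.nontrivial_of_finrank_pos (R := ℝ) (by omega)
  let μ : Measure E := Measure.addHaar
  have h1 := rep_le μ hu 0
  have hae : ∀ᵐ y ∂μ, y ≠ 0 := by simp [ae_iff]
  have h2 : ∫⁻ y, ENNReal.ofReal (G y) * Nk (finrank ℝ E) (‖y - 0‖ ^ 2) ∂μ = ∫⁻ _, ∞ ∂μ := by
    refine lintegral_congr_ae ?_
    filter_upwards [hae] with y hy
    rw [hn, sub_zero, Nk_two (by positivity), ENNReal.mul_top (by simpa using hG y hy)]
  rw [h2, lintegral_const, ENNReal.top_mul (by simp [μ])] at h1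
  exact ENNReal.ofReal_ne_top (top_le_iff.1 h1)

lemma diverge (hn : 3 ≤ finrank ℝ E) {u v : E → ℝ} {A p : ℝ} (hp : 0 < p)
    (hu : Super u fun y => ‖y‖ ^ A * v y ^ p) {W : Set ℝ} (hW : MeasurableSet W)
    (hW' : volume W = ∞) {ε : ℝ} (hε : 0 < ε)
    (h : ∀ x : sphere (0 : E) 1 × ℝ, x.2 ∈ W → ε ≤ v (pt x) ∧ 0 ≤ (A + 2) * x.2) : False := by
  have : Nontrivial E := Module.nontrivial_of_finrank_pos (R := ℝ) (by omega)
  let μ : Measure E := Measure.addHaar
  have h1 := rep_le μ hu 0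
  have h3 : (3 : ℝ) ≤ finrank ℝ E := by exact_mod_cast hn
  set m : ℝ := ((finrank ℝ E : ℝ) - 2) / 2 with hm
  have hm0 : 0 < m := by linarith
  rw [polar μ hu.hn (Φ := fun y => ENNReal.ofReal (‖y‖ ^ A * v y ^ p)
    * Nk (finrank ℝ E) (‖y - 0‖ ^ 2))
    (hu.mG.ennreal_ofReal.mul ((measurable_Nk _).comp (by fun_prop)))] at h1
  have h2 : ∫⁻ x, (univ ×ˢ W).indicator (fun _ => ENNReal.ofReal (ε ^ p / m)) x ∂muP μ.toSphere
      ≤ ENNReal.ofReal (cn μ * u 0) := by
    refine le_trans (lintegral_mono fun x => ?_) h1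
    by_cases hx : x ∈ univ ×ˢ W
    swap
    · rw [indicator_of_notMem hx]; exact zero_le
    obtain ⟨a1, a2⟩ := h x hx.2
    have hv : 0 < v (pt x) := hε.trans_le a1
    rw [indicator_of_mem hx, sub_zero, norm_pt, Nk_eq hn (by positivity),
      ← ENNReal.ofReal_mul (by positivity), ← ENNReal.ofReal_mul (by positivity)]
    refine ENNReal.ofReal_le_ofReal ?_
    have a3 : ε ^ p ≤ v (pt x) ^ p := rpow_le_rpow hε.le a1 hp.le
    have a4 : 1 ≤ exp x.2 ^ A * (exp x.2 ^ 2) ^ (-m) * exp (finrank ℝ E * x.2) := by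
      rw [← exp_nat_mul, ← exp_mul, ← exp_mul, ← exp_add, ← exp_add]
      refine one_le_exp (a2.trans (le_of_eq ?_))
      rw [hm]; push_cast; ring
    calc ε ^ p / m ≤ v (pt x) ^ p / m
          * (exp x.2 ^ A * (exp x.2 ^ 2) ^ (-m) * exp (finrank ℝ E * x.2)) := by
          refine le_trans ?_ (le_mul_of_one_le_right (by positivity) a4)
          gcongr
      _ = _ := by ring
  rw [lintegral_indicator_const (MeasurableSet.univ.prod hW), muP, Measure.prod_prod, hW',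
    ENNReal.mul_top (Measure.measure_univ_ne_zero.2 (Measure.toSphere_ne_zero μ)),
    ENNReal.mul_top (by simpa using div_pos (rpow_pos_of_pos hε p) hm0)] at h2
  exact ENNReal.ofReal_ne_top (top_le_iff.1 h2)

lemma exp_gt (hn : 3 ≤ finrank ℝ E) {u v : E → ℝ} {A p : ℝ} (hp : 0 < p)
    (hu : Super u fun y => ‖y‖ ^ A * v y ^ p) (hv : Continuous v) (hv0 : ∀ x, 0 < v x) :
    -2 < A := by
  by_contra hc
  obtain ⟨z, -, hz⟩ := (isCompact_closedBall (0 : E) 1).exists_isMinOn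
    ⟨0, mem_closedBall_self zero_le_one⟩ hv.continuousOn
  refine diverge hn hp hu measurableSet_Iic (Real.volume_Iic (a := 0)) (hv0 z) fun x hx => ?_
  refine ⟨hz (mem_closedBall_zero_iff.2 ?_), mul_nonneg_of_nonpos_of_nonpos ?_ hx⟩
  · rw [norm_pt]; exact exp_le_one_iff.2 hx
  · linarith [not_lt.1 hc]

lemma rep_eq (hn : 3 ≤ finrank ℝ E) {u v G : E → ℝ} {B q : ℝ} (hq : 0 < q) (hu : Super u G)
    (hv : Super v fun y => ‖y‖ ^ B * u y ^ q) (hB : -2 < B) (x : E) :
    ENNReal.ofReal (cn μ * u x)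
      = ∫⁻ y, ENNReal.ofReal (G y) * Nk (finrank ℝ E) (‖y - x‖ ^ 2) ∂μ := by
  rcases rep_or μ hu with h | ⟨ε, hε, h⟩
  · exact h x
  · exact (diverge hn hq hv measurableSet_Ici (Real.volume_Ici (a := 0)) hε fun x hx =>
      ⟨h _, mul_nonneg (by linarith) hx⟩).elim

lemma rep_cyl (hn : 3 ≤ finrank ℝ E) {u v : E → ℝ} {A p g1 g2 : ℝ}
    (hu : Super u fun y => ‖y‖ ^ A * v y ^ p) (hv0 : ∀ x, 0 < v x)
    (hg : (p + 1) * g2 = finrank ℝ E + A)
    (hrep : ∀ x, ENNReal.ofReal (cn μ * u x) = ∫⁻ y, ENNReal.ofReal (‖y‖ ^ A * v y ^ p)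
      * Nk (finrank ℝ E) (‖y - x‖ ^ 2) ∂μ) (x : sphere (0 : E) 1 × ℝ) :
    ENNReal.ofReal (exp (g1 * x.2) * u (pt x))
      = ∫⁻ y, ENNReal.ofReal (kk0 (((finrank ℝ E : ℝ) - 2) / 2)
        (2 ^ (-(((finrank ℝ E : ℝ) - 2) / 2)) / ((((finrank ℝ E : ℝ) - 2) / 2) * cn μ))
        g1 g2 csi x y) * ENNReal.ofReal ((exp (g2 * y.2) * v (pt y)) ^ p) ∂muP μ.toSphere := by
  have h3 : (3 : ℝ) ≤ finrank ℝ E := by exact_mod_cast hn
  set m : ℝ := ((finrank ℝ E : ℝ) - 2) / 2 with hm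
  have hm0 : 0 < m := by linarith
  have hc := cn_pos μ hu.hn
  have e1 : exp (g1 * x.2) * u (pt x) = exp (g1 * x.2) / cn μ * (cn μ * u (pt x)) := by
    field_simp
  rw [e1, ENNReal.ofReal_mul (by positivity), hrep,
    polar μ hu.hn (Φ := fun y => ENNReal.ofReal (‖y‖ ^ A * v y ^ p)
      * Nk (finrank ℝ E) (‖y - pt x‖ ^ 2))
      (hu.mG.ennreal_ofReal.mul ((measurable_Nk _).comp (by fun_prop))),
    ← lintegral_const_mul' _ _ ENNReal.ofReal_ne_top]
  refine lintegral_congr_ae ?_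
  filter_upwards [(Measure.quasiMeasurePreserving_fst (μ := μ.toSphere) (ν := volume)).ae
    (csi_lt μ hu.hn x.1)] with y hy
  have hD := coshD_pos hy (x.2 - y.2)
  have hv := hv0 (pt y)
  have hk : 0 ≤ kk0 m (2 ^ (-m) / (m * cn μ)) g1 g2 csi x y := by
    unfold kk0 kr; positivity
  rw [dist_pt, norm_pt, Nk_eq hn (by positivity), ← ENNReal.ofReal_mul (by positivity),
    ← ENNReal.ofReal_mul (by positivity), ← ENNReal.ofReal_mul (by positivity),
    ← ENNReal.ofReal_mul hk]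
  congr 1
  rw [← hm, kk0, kr, mul_rpow (by positivity) hD.le, mul_rpow (by norm_num) (exp_pos _).le,
    mul_rpow (exp_pos _).le hv.le, ← exp_mul, ← exp_mul, ← exp_mul]
  have e2 : exp (g1 * x.2) * exp (y.2 * A) * exp ((x.2 + y.2) * -m) * exp (finrank ℝ E * y.2)
      = exp ((g1 - m) * x.2 + (g2 - m) * y.2) * exp (g2 * y.2 * p) := by
    rw [← exp_add, ← exp_add, ← exp_add, ← exp_add]
    congr 1
    have : (finrank ℝ E : ℝ) = (p + 1) * g2 - A := by linarith
    rw [this]; ring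
  calc _ = 2 ^ (-m) / (m * cn μ) * (cosh (x.2 - y.2) - csi x.1 y.1) ^ (-m) * v (pt y) ^ p
      * (exp (g1 * x.2) * exp (y.2 * A) * exp ((x.2 + y.2) * -m) * exp (finrank ℝ E * y.2)) := by
        field_simp
    _ = _ := by rw [e2]; ring

lemma ray_diff {u : E → ℝ} (hu : ContDiffOn ℝ 2 u {0}ᶜ) (g : ℝ) (θ : sphere (0 : E) 1) :
    Differentiable ℝ fun s => exp (g * (θ, s).2) * u (pt (θ, s)) := by
  intro s
  have h1 : DifferentiableAt ℝ u (pt (θ, s)) :=
    (hu.contDiffAt (isOpen_compl_singleton.mem_nhds (pt_ne (θ, s)))).differentiableAt (by norm_num)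
  have h2 : DifferentiableAt ℝ (fun s => pt (θ, s)) s := by
    change DifferentiableAt ℝ (fun s => exp s • (θ : E)) s
    fun_prop
  exact DifferentiableAt.mul (by fun_prop) (h1.comp s h2)

lemma ray_bdd {u : E → ℝ} (hu : Continuous u) (g t : ℝ) : ∃ C, ∀ (θ : sphere (0 : E) 1) s,
    s ≤ t → exp (g * (θ, s).2) * u (pt (θ, s)) ≤ C * exp (g * s) := by
  obtain ⟨z, -, hz⟩ := (isCompact_closedBall (0 : E) (exp t)).exists_isMaxOn
    ⟨0, mem_closedBall_self (exp_pos t).le⟩ hu.continuousOn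
  refine ⟨u z, fun θ s hs => ?_⟩
  rw [mul_comm]
  refine mul_le_mul_of_nonneg_right (hz (mem_closedBall_zero_iff.2 ?_)) (exp_pos _).le
  rw [norm_pt]; exact exp_le_exp.2 hs

theorem main (hn : 2 ≤ finrank ℝ E) {p q A B : ℝ} (hp : 0 < p) (hq : 0 < q)
    (hsub : (finrank ℝ E : ℝ) - 2 < (finrank ℝ E + A) / (p + 1) + (finrank ℝ E + B) / (q + 1))
    {u v : E → ℝ} (hu0 : Continuous u) (hv0 : Continuous v)
    (hu2 : ContDiffOn ℝ 2 u {0}ᶜ) (hv2 : ContDiffOn ℝ 2 v {0}ᶜ)
    (hup : ∀ x, 0 < u x) (hvp : ∀ x, 0 < v x)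
    (h1 : ∀ x ≠ 0, -Laplacian.laplacian u x = ‖x‖ ^ A * v x ^ p)
    (h2 : ∀ x ≠ 0, -Laplacian.laplacian v x = ‖x‖ ^ B * u x ^ q) : False := by
  have hu : Super u fun y => ‖y‖ ^ A * v y ^ p :=
    ⟨hn, hu0, hup, hu2, (measurable_norm.pow_const _).mul (hv0.measurable.pow_const _),
      fun y => by have := hvp y; positivity, h1⟩
  have hv : Super v fun y => ‖y‖ ^ B * u y ^ q :=
    ⟨hn, hv0, hvp, hv2, (measurable_norm.pow_const _).mul (hu0.measurable.pow_const _),
      fun y => by have := hup y; positivity, h2⟩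
  have hn3 := three_le hu fun y hy => by have := hvp y; positivity
  have : Nontrivial E := Module.nontrivial_of_finrank_pos (R := ℝ) (by omega)
  have hA := exp_gt hn3 hp hu hv0 hvp
  have hB := exp_gt hn3 hq hv hu0 hup
  let μ : Measure E := Measure.addHaar
  have h3 : (3 : ℝ) ≤ finrank ℝ E := by exact_mod_cast hn3
  have hc := cn_pos μ hn
  have e1 : (q + 1) * ((finrank ℝ E + B) / (q + 1)) = finrank ℝ E + B := by field_simp
  have e2 : (p + 1) * ((finrank ℝ E + A) / (p + 1)) = finrank ℝ E + A := by field_simp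
  have hm : 0 < ((finrank ℝ E : ℝ) - 2) / 2 := by linarith
  exact Sys.false (σ := μ.toSphere)
    { m := ((finrank ℝ E : ℝ) - 2) / 2
      c0 := 2 ^ (-(((finrank ℝ E : ℝ) - 2) / 2)) / ((((finrank ℝ E : ℝ) - 2) / 2) * cn μ)
      p := p
      q := q
      g1 := (finrank ℝ E + B) / (q + 1)
      g2 := (finrank ℝ E + A) / (p + 1)
      cs := csi
      U := fun x => exp ((finrank ℝ E + B) / (q + 1) * x.2) * u (pt x)
      V := fun x => exp ((finrank ℝ E + A) / (p + 1) * x.2) * v (pt x)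
      hm := hm
      hc0 := by positivity
      hp := hp
      hq := hq
      hg1 := by rw [e1]; linarith
      hg2 := by rw [e2]; linarith
      hsub := by linarith
      cs_meas := csi_cont.measurable
      cs_symm := csi_symm
      cs_abs := csi_abs
      cs_lt := csi_lt μ hn
      hJ := J_bound μ hn
      U_cont := Continuous.mul (by fun_prop) (hu0.comp pt_cont)
      V_cont := Continuous.mul (by fun_prop) (hv0.comp pt_cont)
      U_pos := fun x => mul_pos (exp_pos _) (hup _)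
      V_pos := fun x => mul_pos (exp_pos _) (hvp _)
      U_diff := ray_diff hu2 _
      V_diff := ray_diff hv2 _
      U_bdd := ray_bdd hu0 _
      V_bdd := ray_bdd hv0 _
      U_rep := rep_cyl μ hn3 hu hvp e2 (rep_eq μ hn3 hq hu hv hB)
      V_rep := fun y => by
        simp only [← kk0_swap (g1 := (finrank ℝ E + B) / (q + 1)) csi_symm]
        exact rep_cyl μ hn3 hv hup e1 (rep_eq μ hn3 hp hv hu hA) y
      hσ := Measure.toSphere_ne_zero μ }

end Vale.Agent.P100
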