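import Vale.Agent.P100.Green

namespace Vale.Agent.P100
open MeasureTheory Set Real Filter Topology Module
open scoped ENNReal NNReal RealInnerProductSpace
set_option linter.unusedSectionVars false

variable {E : Type*} [NormedAddCommGroup E] [InnerProductSpace ℝ E] [FiniteDimensional ℝ E]
  [MeasurableSpace E] [BorelSpace E]

/-- Hypotheses on a positive supersolution off the origin. -/
structure Super (u G : E → ℝ) : Prop where
  hn : 2 ≤ finrank ℝ E
  cont : Continuous u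
  pos : ∀ x, 0 < u x
  diff : ContDiffOn ℝ 2 u {0}ᶜ
  mG : Measurable G
  G0 : ∀ y, 0 ≤ G y
  eq : ∀ y ≠ 0, -Laplacian.laplacian u y = G y

variable (μ : Measure E) [μ.IsAddHaarMeasure]

lemma green3 {u G : E → ℝ} (hu : Super u G) {χ χ' : ℝ → ℝ} (hd : ∀ s, HasDerivAt χ (χ' s) s)
    (hc : Continuous χ') {a b : ℝ} (ha : 0 < a) (h1 : ∀ s < a, χ s = 0 ∧ χ' s = 0)
    (h2 : ∀ s > b, χ s = 0 ∧ χ' s = 0) (h0 : ∀ s, 0 ≤ χ s) (x : E) :
    ∫⁻ y, ENNReal.ofReal (G y) * (∫⁻ s in Ioi (‖y - x‖ ^ 2),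
        ENNReal.ofReal (χ s * s ^ (-((finrank ℝ E : ℝ) / 2)))) ∂μ
      = ENNReal.ofReal (∫ y, u y * (4 * χ' (‖y - x‖ ^ 2)
        * (‖y - x‖ ^ 2) ^ (1 - (finrank ℝ E : ℝ) / 2)) ∂μ) ∧
    0 ≤ ∫ y, u y * (4 * χ' (‖y - x‖ ^ 2) * (‖y - x‖ ^ 2) ^ (1 - (finrank ℝ E : ℝ) / 2)) ∂μ := by
  set h : ℝ := (finrank ℝ E : ℝ) / 2 with hh
  set H : ℝ → ℝ := fun s => χ s * s ^ (-h) with hH
  set H' : ℝ → ℝ := fun s => χ' s * s ^ (-h) + χ s * (-h * s ^ (-h - 1)) with hH'
  have hχc : Continuous χ := continuous_iff_continuousAt.2 fun s => (hd s).continuousAt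
  have d1 : ∀ s, HasDerivAt H (H' s) s := by
    intro s
    by_cases hs : s < a
    · have e : H =ᶠ[𝓝 s] fun _ => 0 := by
        filter_upwards [gt_mem_nhds hs] with t ht
        simp [hH, (h1 t ht).1]
      have e2 : H' s = 0 := by simp [hH', (h1 s hs).1, (h1 s hs).2]
      rw [e2]
      exact (hasDerivAt_const s 0).congr_of_eventuallyEq e
    · have hs0 : s ≠ 0 := by linarith [not_lt.1 hs]
      exact (hd s).mul (hasDerivAt_rpow_const (Or.inl hs0))
  have c1 : Continuous H' := by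
    refine continuous_iff_continuousAt.2 fun s => ?_
    by_cases hs : s < a
    · have e : H' =ᶠ[𝓝 s] fun _ => 0 := by
        filter_upwards [gt_mem_nhds hs] with t ht
        simp [hH', (h1 t ht).1, (h1 t ht).2]
      exact continuousAt_const.congr e.symm
    · have hs0 : s ≠ 0 := by linarith [not_lt.1 hs]
      exact (hc.continuousAt.mul (continuousAt_rpow_const _ _ (Or.inl hs0))).add
        (hχc.continuousAt.mul (continuousAt_const.mul (continuousAt_rpow_const _ _ (Or.inl hs0))))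
  have c0 : Continuous H := continuous_iff_continuousAt.2 fun s => (d1 s).continuousAt
  have H0 : ∀ s, 0 ≤ H s := by
    intro s
    by_cases hs : s < a
    · simp [hH, (h1 s hs).1]
    · exact mul_nonneg (h0 s) (rpow_nonneg (by linarith [not_lt.1 hs]) _)
  have Hb : ∀ s > b, H s = 0 ∧ H' s = 0 := fun s hs => by
    simp [hH, hH', (h2 s hs).1, (h2 s hs).2]
  set Θ : ℝ → ℝ := fun t => -∫ s in b..t, H s with hΘ
  have d0 : ∀ t, HasDerivAt Θ (-H t) t := fun t =>
    (c0.integral_hasStrictDerivAt b t).hasDerivAt.neg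
  have Θb : ∀ t > b, Θ t = 0 := fun t ht => by
    simp only [hΘ]
    rw [intervalIntegral.integral_of_le ht.le, setIntegral_congr_fun measurableSet_Ioc
      (g := fun _ => 0) (fun s hs => (Hb s hs.1).1)]
    simp
  have Θe : ∀ t, 0 ≤ Θ t ∧ ENNReal.ofReal (Θ t) = ∫⁻ s in Ioi t, ENNReal.ofReal (H s) := by
    intro t
    have z : ∀ t ≥ b, ∫⁻ s in Ioi t, ENNReal.ofReal (H s) = 0 := fun t ht => by
      rw [setLIntegral_congr_fun measurableSet_Ioi (g := fun _ => 0)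
        (fun s hs => by simp [(Hb s (lt_of_le_of_lt ht hs)).1])]
      simp
    by_cases ht : t ≤ b
    · have e : Θ t = ∫ s in Ioc t b, H s := by
        simp only [hΘ]
        rw [← intervalIntegral.integral_symm, intervalIntegral.integral_of_le ht]
      rw [e, ← Ioc_union_Ioi_eq_Ioi ht, lintegral_union measurableSet_Ioi Ioc_disjoint_Ioi_same,
        z b le_rfl, add_zero]
      exact ⟨integral_nonneg H0, ofReal_integral_eq_lintegral_ofReal
        (c0.integrableOn_Icc.mono_set Ioc_subset_Icc_self) (Eventually.of_forall H0)⟩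
    · rw [Θb t (not_le.1 ht), z t (not_le.1 ht).le]; simp
  have key := green2 μ hu.hn hu.cont hu.diff hu.mG hu.G0 (stdOrthonormalBasis ℝ E)
    (fun y hy => by
      rw [← hu.eq y hy, neg_neg, InnerProductSpace.laplacian_eq_iteratedFDeriv_orthonormalBasis u
        (stdOrthonormalBasis ℝ E)])
    (C2_radial 0 x d0 (fun s => (d1 s).neg) c1.neg).c0
    (fun i => C2_radial (stdOrthonormalBasis ℝ E i) x d0 (fun s => (d1 s).neg) c1.neg)
    (fun y => (Θe _).1) (R := ‖x‖ + |b| + 1) (fun i y hy => by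
      have e1 : |b| + 1 < ‖y - x‖ := by linarith [norm_sub_norm_le y x]
      have e2 : b < ‖y - x‖ ^ 2 := by nlinarith [le_abs_self b, abs_nonneg b]
      simp [Θb _ e2, (Hb _ e2).1, (Hb _ e2).2])
  have e3 : ∀ y, -∑ i, (4 * (-H') (‖y - x‖ ^ 2) * ⟪y - x, stdOrthonormalBasis ℝ E i⟫ ^ 2
      + 2 * -H (‖y - x‖ ^ 2) * ‖stdOrthonormalBasis ℝ E i‖ ^ 2)
      = 4 * χ' (‖y - x‖ ^ 2) * (‖y - x‖ ^ 2) ^ (1 - h) := by
    intro y
    simp only [OrthonormalBasis.norm_eq_one, one_pow, mul_one]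
    rw [Finset.sum_add_distrib, ← Finset.mul_sum, OrthonormalBasis.sum_sq_inner_left,
      Finset.sum_const, Finset.card_univ, Fintype.card_fin, nsmul_eq_mul, Pi.neg_apply]
    generalize ‖y - x‖ ^ 2 = t
    by_cases ht : t < a
    · simp [hH, hH', (h1 t ht).1, (h1 t ht).2]
    · have ht0 : 0 < t := by linarith [not_lt.1 ht]
      have e4 : t ^ (-h) = t ^ (-h - 1) * t := by rw [← rpow_add_one ht0.ne']; congr 1; ring
      have e5 : t ^ (1 - h) = t ^ (-h - 1) * t * t := by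
        rw [← e4, ← rpow_add_one ht0.ne']; congr 1; ring
      have e6 : (finrank ℝ E : ℝ) = 2 * h := by rw [hh]; ring
      simp only [hH, hH']
      rw [e4, e5, e6]; ring
  simp only [Pi.neg_apply] at e3 key
  simp only [e3] at key
  refine ⟨Eq.trans ?_ key.1, key.2⟩
  refine lintegral_congr fun y => ?_
  rw [ENNReal.ofReal_mul (hu.G0 y), (Θe _).2]

noncomputable def s0 (w : ℝ) : ℝ := max 0 (6 * (w * (1 - w)))

noncomputable def S0 (w : ℝ) : ℝ := ∫ t in (0 : ℝ)..w, s0 t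

lemma s0_cont : Continuous s0 := by unfold s0; fun_prop

lemma s0_nonneg (w : ℝ) : 0 ≤ s0 w := le_max_left _ _

lemma s0_le (w : ℝ) : s0 w ≤ 3 / 2 := max_le (by norm_num) (by nlinarith [sq_nonneg (w - 1 / 2)])

lemma s0_neg {w : ℝ} (h : w ≤ 0) : s0 w = 0 := max_eq_left (by nlinarith)

lemma s0_big {w : ℝ} (h : 1 ≤ w) : s0 w = 0 := max_eq_left (by nlinarith)

lemma S0_d (w : ℝ) : HasDerivAt S0 (s0 w) w := (s0_cont.integral_hasStrictDerivAt 0 w).hasDerivAt

lemma S0_mono : Monotone S0 :=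
  monotone_of_hasDerivAt_nonneg S0_d s0_nonneg

lemma S0_neg {w : ℝ} (h : w ≤ 0) : S0 w = 0 := by
  unfold S0
  rw [intervalIntegral.integral_congr (g := fun _ => 0) fun t ht => s0_neg (by
    rw [uIcc_of_ge h] at ht; exact ht.2)]
  simp

lemma S0_big {w : ℝ} (h : 1 ≤ w) : S0 w = 1 := by
  unfold S0
  rw [← intervalIntegral.integral_add_adjacent_intervals (b := 1)
    (s0_cont.intervalIntegrable _ _) (s0_cont.intervalIntegrable _ _),
    intervalIntegral.integral_congr (a := 1) (g := fun _ => 0) fun t ht => s0_big (by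
      rw [uIcc_of_le h] at ht; exact ht.1),
    intervalIntegral.integral_congr (a := 0) (g := fun t => 6 * t - 6 * t ^ 2) fun t ht => by
      rw [uIcc_of_le zero_le_one] at ht
      unfold s0
      rw [max_eq_right (by nlinarith [ht.1, ht.2])]; ring]
  rw [intervalIntegral.integral_sub (by apply Continuous.intervalIntegrable; fun_prop)
    (by apply Continuous.intervalIntegrable; fun_prop), intervalIntegral.integral_const_mul,
    intervalIntegral.integral_const_mul, integral_id, integral_pow]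
  norm_num

lemma S0_nonneg (w : ℝ) : 0 ≤ S0 w := by
  rcases le_total w 0 with h | h
  · rw [S0_neg h]
  · exact (S0_neg le_rfl).ge.trans (S0_mono h)

lemma S0_le (w : ℝ) : S0 w ≤ 1 := by
  rcases le_total 1 w with h | h
  · rw [S0_big h]
  · exact (S0_mono h).trans (S0_big le_rfl).le

noncomputable def be (a L : ℝ) (z : E) : ℝ :=
  4 * (s0 ((‖z‖ ^ 2 - a) / L) / L) * (‖z‖ ^ 2) ^ (1 - (finrank ℝ E : ℝ) / 2)

lemma be_nonneg (a : ℝ) {L : ℝ} (hL : 0 < L) (z : E) : 0 ≤ be a L z := by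
  have := s0_nonneg ((‖z‖ ^ 2 - a) / L)
  unfold be; positivity

lemma be_cont {a L : ℝ} (ha : 0 < a) (hL : 0 < L) : Continuous (be (E := E) a L) := by
  have e : be (E := E) a L = fun z =>
      4 * (s0 ((‖z‖ ^ 2 - a) / L) / L) * (max a (‖z‖ ^ 2)) ^ (1 - (finrank ℝ E : ℝ) / 2) := by
    ext z
    unfold be
    rcases le_total a (‖z‖ ^ 2) with h | h
    · rw [max_eq_right h]
    · rw [s0_neg (div_nonpos_of_nonpos_of_nonneg (by linarith) hL.le)]; simp
  rw [e]
  have := s0_cont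
  refine Continuous.mul (by fun_prop) (Continuous.rpow_const (by fun_prop) fun z => Or.inl ?_)
  exact (ha.trans_le (le_max_left _ _)).ne'

lemma be_zero {a L : ℝ} (ha : 0 < a) (hL : 0 < L) {z : E} (hz : a + L + 1 < ‖z‖) :
    be a L z = 0 := by
  unfold be
  rw [s0_big (by rw [le_div_iff₀ hL]; nlinarith)]; simp

lemma integrable_be {u : E → ℝ} (hu : Continuous u) {a L : ℝ} (ha : 0 < a) (hL : 0 < L) (x : E) :
    Integrable (fun y => u y * be a L (y - x)) μ :=
  (hu.mul ((be_cont ha hL).comp (by fun_prop))).integrable_of_hasCompactSupport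
    (hcs (R := ‖x‖ + a + L + 1) fun y hy => by
      have := be_zero ha hL (z := y - x) (by linarith [norm_sub_norm_le y x])
      simp [this])

noncomputable def cn : ℝ := ∫ z, be 1 1 z ∂μ

lemma cn_pos (hn : 2 ≤ finrank ℝ E) : 0 < cn μ := by
  have : Nontrivial E := Module.nontrivial_of_finrank_pos (R := ℝ) (by omega)
  obtain ⟨z, hz⟩ := exists_norm_eq E (show (0 : ℝ) ≤ 5 / 4 by norm_num)
  refine (be_cont one_pos one_pos).integral_pos_of_hasCompactSupport_nonneg_nonzero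
    (hcs fun y hy => be_zero one_pos one_pos hy) (be_nonneg 1 one_pos) (x := z) ?_
  unfold be s0
  rw [hz]
  positivity

lemma be_scale {η : ℝ} (hη : 0 < η) (z : E) :
    be (η ^ 2) (η ^ 2) z = (η ^ finrank ℝ E)⁻¹ * be 1 1 (η⁻¹ • z) := by
  unfold be
  have e1 : ‖η⁻¹ • z‖ ^ 2 = ‖z‖ ^ 2 / η ^ 2 := by
    rw [norm_smul, norm_inv, Real.norm_eq_abs, abs_of_pos hη]; field_simp
  have e2 : (‖z‖ ^ 2 - η ^ 2) / η ^ 2 = (‖z‖ ^ 2 / η ^ 2 - 1) / 1 := by field_simp
  have e3 : (η ^ 2) ^ (1 - (finrank ℝ E : ℝ) / 2) = η ^ 2 / η ^ finrank ℝ E := by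
    rw [rpow_sub (by positivity), rpow_one, ← rpow_natCast η 2, ← rpow_mul hη.le,
      ← rpow_natCast η (finrank ℝ E)]
    congr 2; push_cast; ring
  rw [e1, e2, div_rpow (by positivity) (by positivity), e3]
  field_simp

lemma tendsto_be {u : E → ℝ} (hu : Continuous u) (x : E) :
    Tendsto (fun η : ℝ => ∫ y, u y * be (η ^ 2) (η ^ 2) (y - x) ∂μ) (𝓝[>] 0) (𝓝 (cn μ * u x)) := by
  have h1 := scale_tendsto μ hu (be_cont one_pos one_pos)
    (hcs fun y hy => be_zero one_pos one_pos hy) x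
  rw [mul_comm] at h1
  refine (h1.mono_left nhdsWithin_le_nhds).congr' ?_
  filter_upwards [self_mem_nhdsWithin] with η hη
  have hη' : (0 : ℝ) < η := hη
  simp only [be_scale hη', mul_left_comm (u _), integral_const_mul]
  rw [scale_eq μ u _ x hη', ← mul_assoc, inv_mul_cancel₀ (by positivity), one_mul]

noncomputable def chi (η a L s : ℝ) : ℝ := S0 ((s - η ^ 2) / η ^ 2) - S0 ((s - a) / L)

lemma green4 {u G : E → ℝ} (hu : Super u G) {η a L : ℝ} (hη : 0 < η) (ha : η ^ 2 ≤ a)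
    (hL : η ^ 2 ≤ L) (x : E) :
    ∫⁻ y, ENNReal.ofReal (G y) * (∫⁻ s in Ioi (‖y - x‖ ^ 2),
        ENNReal.ofReal (chi η a L s * s ^ (-((finrank ℝ E : ℝ) / 2)))) ∂μ
      = ENNReal.ofReal (∫ y, u y * be (η ^ 2) (η ^ 2) (y - x) ∂μ - ∫ y, u y * be a L (y - x) ∂μ) ∧
    ∫ y, u y * be a L (y - x) ∂μ ≤ ∫ y, u y * be (η ^ 2) (η ^ 2) (y - x) ∂μ := by
  have hη2 : 0 < η ^ 2 := by positivity
  have hL0 : 0 < L := hη2.trans_le hL
  have dd : ∀ (a L s : ℝ), HasDerivAt (fun s => S0 ((s - a) / L)) (s0 ((s - a) / L) / L) s := by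
    intro a L s
    have := (S0_d ((s - a) / L)).comp s (((hasDerivAt_id s).sub_const a).div_const L)
    exact this.congr_deriv (by ring)
  have := s0_cont
  have key := green3 μ hu (χ := chi η a L)
    (χ' := fun s => s0 ((s - η ^ 2) / η ^ 2) / η ^ 2 - s0 ((s - a) / L) / L)
    (fun s => (dd _ _ s).sub (dd _ _ s)) (by fun_prop) hη2 (b := a + L)
    (fun s hs => by
      have e1 : (s - η ^ 2) / η ^ 2 ≤ 0 := div_nonpos_of_nonpos_of_nonneg (by linarith) hη2.le
      have e2 : (s - a) / L ≤ 0 := div_nonpos_of_nonpos_of_nonneg (by linarith) hL0.le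
      simp [chi, S0_neg e1, S0_neg e2, s0_neg e1, s0_neg e2])
    (fun s hs => by
      have e1 : 1 ≤ (s - η ^ 2) / η ^ 2 := by rw [le_div_iff₀ hη2]; linarith
      have e2 : 1 ≤ (s - a) / L := by rw [le_div_iff₀ hL0]; linarith
      simp [chi, S0_big e1, S0_big e2, s0_big e1, s0_big e2])
    (fun s => by
      unfold chi
      rcases le_total s a with h | h
      · rw [S0_neg (w := (s - a) / L) (div_nonpos_of_nonpos_of_nonneg (by linarith) hL0.le),
          sub_zero]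
        exact S0_nonneg _
      · refine sub_nonneg.2 (S0_mono ?_)
        gcongr; linarith) x
  have e : ∫ y, u y * (4 * (s0 ((‖y - x‖ ^ 2 - η ^ 2) / η ^ 2) / η ^ 2
      - s0 ((‖y - x‖ ^ 2 - a) / L) / L) * (‖y - x‖ ^ 2) ^ (1 - (finrank ℝ E : ℝ) / 2)) ∂μ
      = ∫ y, u y * be (η ^ 2) (η ^ 2) (y - x) ∂μ - ∫ y, u y * be a L (y - x) ∂μ := by
    rw [← integral_sub (integrable_be μ hu.cont hη2 hη2 x)
      (integrable_be μ hu.cont (hη2.trans_le ha) hL0 x)]
    refine integral_congr_ae (Eventually.of_forall fun y => ?_)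
    simp only [be]; ring
  rw [e] at key
  exact ⟨key.1, sub_nonneg.1 key.2⟩

noncomputable def Nk (n : ℕ) (t : ℝ) : ℝ≥0∞ := ∫⁻ s in Ioi t, ENNReal.ofReal (s ^ (-((n : ℝ) / 2)))

lemma rep_le {u G : E → ℝ} (hu : Super u G) (x : E) :
    ∫⁻ y, ENNReal.ofReal (G y) * Nk (finrank ℝ E) (‖y - x‖ ^ 2) ∂μ
      ≤ ENNReal.ofReal (cn μ * u x) := by
  have hs : Tendsto (fun k : ℕ => (1 : ℝ) / ((k : ℝ) + 1)) atTop (𝓝[>] 0) :=
    tendsto_nhdsWithin_iff.2 ⟨tendsto_one_div_add_atTop_nhds_zero_nat,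
      Eventually.of_forall fun k => by simp only [mem_Ioi]; positivity⟩
  have t1 := (ENNReal.tendsto_ofReal (tendsto_be μ hu.cont x)).comp hs
  rw [← t1.liminf_eq]
  have hk : ∀ k : ℕ, (1 / ((k : ℝ) + 1)) ^ 2 ≤ (k : ℝ) + 1 := fun k => by
    have h0 : (0 : ℝ) ≤ k := Nat.cast_nonneg k
    have : 1 / ((k : ℝ) + 1) ≤ 1 := by rw [div_le_one (by positivity)]; linarith
    have : (1 / ((k : ℝ) + 1)) ^ 2 ≤ 1 := pow_le_one₀ (by positivity) this
    linarith
  have mχ : ∀ k : ℕ, Measurable fun s : ℝ => ENNReal.ofReal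
      (chi (1 / ((k : ℝ) + 1)) (k + 1) (k + 1) s * s ^ (-((finrank ℝ E : ℝ) / 2))) := by
    intro k
    have : Continuous S0 := continuous_iff_continuousAt.2 fun s => (S0_d s).continuousAt
    refine (Measurable.mul (Continuous.measurable ?_) (measurable_id.pow_const _)).ennreal_ofReal
    unfold chi; fun_prop
  calc _ ≤ ∫⁻ y, liminf (fun k : ℕ => ENNReal.ofReal (G y) * (∫⁻ s in Ioi (‖y - x‖ ^ 2),
        ENNReal.ofReal (chi (1 / ((k : ℝ) + 1)) (k + 1) (k + 1) s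
          * s ^ (-((finrank ℝ E : ℝ) / 2))))) atTop ∂μ := by
        refine lintegral_mono fun y => ?_
        simp only [Nk, ← lintegral_const_mul' _ _ ENNReal.ofReal_ne_top]
        refine le_trans ?_ (lintegral_liminf_le fun k => (mχ k).const_mul _)
        refine setLIntegral_mono' measurableSet_Ioi fun s hs' => ?_
        have hs0 : 0 < s := lt_of_le_of_lt (by positivity) hs'
        refine le_liminf_of_le (by isBoundedDefault) ?_
        have v1 : ∀ᶠ k : ℕ in atTop, (1 / ((k : ℝ) + 1)) ^ 2 < s / 2 := by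
          have := (tendsto_nhds_of_tendsto_nhdsWithin hs).pow 2
          rw [zero_pow two_ne_zero] at this
          exact this.eventually (gt_mem_nhds (by positivity))
        filter_upwards [v1, tendsto_natCast_atTop_atTop.eventually_ge_atTop s] with k h1 h2
        have e1 : chi (1 / ((k : ℝ) + 1)) (k + 1) (k + 1) s = 1 := by
          unfold chi
          rw [S0_big (by rw [le_div_iff₀ (by positivity)]; linarith),
            S0_neg (div_nonpos_of_nonpos_of_nonneg (by linarith) (by positivity)), sub_zero]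
        rw [e1, one_mul]
    _ ≤ _ := by
        refine (lintegral_liminf_le fun k => ?_).trans ?_
        · refine hu.mG.ennreal_ofReal.mul ?_
          have : Antitone fun t : ℝ => ∫⁻ s in Ioi t, ENNReal.ofReal
              (chi (1 / ((k : ℝ) + 1)) (k + 1) (k + 1) s * s ^ (-((finrank ℝ E : ℝ) / 2))) :=
            fun a b hab => lintegral_mono_set (Ioi_subset_Ioi hab)
          exact this.measurable.comp (by fun_prop)
        · refine liminf_le_liminf (Eventually.of_forall fun k => ?_)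
          rw [(green4 μ hu (by positivity) (hk k) (hk k) x).1]
          refine ENNReal.ofReal_le_ofReal (sub_le_self _ (integral_nonneg fun y => ?_))
          exact mul_nonneg (hu.pos y).le (be_nonneg _ (by positivity) _)

lemma small_eta {a L : ℝ} (ha : 0 < a) (hL : 0 < L) :
    ∀ᶠ η : ℝ in 𝓝[>] 0, 0 < η ∧ η ^ 2 ≤ a ∧ η ^ 2 ≤ L := by
  have h1 : Tendsto (fun η : ℝ => η ^ 2) (𝓝[>] 0) (𝓝 0) := by
    have := ((continuous_pow 2).tendsto (0 : ℝ)).mono_left (nhdsWithin_le_nhds (s := Ioi 0))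
    rwa [zero_pow two_ne_zero] at this
  filter_upwards [self_mem_nhdsWithin, h1.eventually (ge_mem_nhds ha),
    h1.eventually (ge_mem_nhds hL)] with η h1 h2 h3 using ⟨h1, h2, h3⟩

lemma harnack {u G : E → ℝ} (hu : Super u G) {a L : ℝ} (ha : 0 < a) (hL : 0 < L) (x : E) :
    ∫ y, u y * be a L (y - x) ∂μ ≤ cn μ * u x := by
  refine ge_of_tendsto (tendsto_be μ hu.cont x) ?_
  filter_upwards [small_eta ha hL] with η h using (green4 μ hu h.1 h.2.1 h.2.2 x).2

lemma rep_ge {u G : E → ℝ} (hu : Super u G) {a L : ℝ} (ha : 0 < a) (hL : 0 < L) (x : E) :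
    ENNReal.ofReal (cn μ * u x - ∫ y, u y * be a L (y - x) ∂μ)
      ≤ ∫⁻ y, ENNReal.ofReal (G y) * Nk (finrank ℝ E) (‖y - x‖ ^ 2) ∂μ := by
  refine le_of_tendsto (ENNReal.tendsto_ofReal ((tendsto_be μ hu.cont x).sub_const _)) ?_
  filter_upwards [small_eta ha hL] with η h
  rw [← (green4 μ hu h.1 h.2.1 h.2.2 x).1]
  refine lintegral_mono fun y => mul_le_mul_right ?_ _
  refine setLIntegral_mono' measurableSet_Ioi fun s hs => ENNReal.ofReal_le_ofReal ?_
  have hs0 : 0 < s := lt_of_le_of_lt (by positivity) hs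
  refine mul_le_of_le_one_left (by positivity) ?_
  unfold chi
  linarith [S0_le ((s - η ^ 2) / η ^ 2), S0_nonneg ((s - a) / L)]

lemma be_compare (hn : 2 ≤ finrank ℝ E) {R : ℝ} (hR : 0 < R) {z z' : E} (h : ‖z - z'‖ ≤ R / 5) :
    be (R ^ 2) (R ^ 2) z
      ≤ 72 * 4 ^ ((finrank ℝ E : ℝ) / 2 - 1) * be (R ^ 2 / 4) (8 * R ^ 2) z' := by
  have hb := be_nonneg (R ^ 2 / 4) (L := 8 * R ^ 2) (by positivity) z'
  have hn' : 1 - (finrank ℝ E : ℝ) / 2 ≤ 0 := by
    have : (2 : ℝ) ≤ finrank ℝ E := by exact_mod_cast hn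
    linarith
  by_cases h1 : ‖z‖ ≤ R
  · unfold be at hb ⊢
    rw [s0_neg (div_nonpos_of_nonpos_of_nonneg (by nlinarith [norm_nonneg z]) (by positivity))]
    simp only [zero_div, mul_zero, zero_mul]
    positivity
  by_cases h2 : 3 / 2 * R ≤ ‖z‖
  · unfold be at hb ⊢
    rw [s0_big (by rw [le_div_iff₀ (by positivity)]; nlinarith)]
    simp only [zero_div, mul_zero, zero_mul]
    positivity
  have h3 : 4 / 5 * R ≤ ‖z'‖ := by linarith [norm_sub_norm_le z z', not_le.1 h1]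
  have h4 : ‖z'‖ ≤ 17 / 10 * R := by
    linarith [norm_sub_norm_le z' z, norm_sub_rev z z', not_le.1 h2]
  have h5 : 16 / 25 * R ^ 2 ≤ ‖z'‖ ^ 2 := by nlinarith
  have h6 : ‖z'‖ ^ 2 ≤ 289 / 100 * R ^ 2 := by nlinarith [norm_nonneg z']
  have hR2 : 0 < R ^ 2 := by positivity
  have w1 : 39 / 800 ≤ (‖z'‖ ^ 2 - R ^ 2 / 4) / (8 * R ^ 2) := by
    rw [le_div_iff₀ (by positivity)]; linarith
  have w2 : (‖z'‖ ^ 2 - R ^ 2 / 4) / (8 * R ^ 2) ≤ 33 / 100 := by
    rw [div_le_iff₀ (by positivity)]; linarith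
  have w3 : 1 / 6 ≤ s0 ((‖z'‖ ^ 2 - R ^ 2 / 4) / (8 * R ^ 2)) :=
    le_max_of_le_right (by nlinarith)
  have w4 : (4 * R ^ 2) ^ (1 - (finrank ℝ E : ℝ) / 2) ≤ (‖z'‖ ^ 2) ^ (1 - (finrank ℝ E : ℝ) / 2) :=
    rpow_le_rpow_of_nonpos (by linarith) (by linarith) hn'
  have w5 : (‖z‖ ^ 2) ^ (1 - (finrank ℝ E : ℝ) / 2) ≤ (R ^ 2) ^ (1 - (finrank ℝ E : ℝ) / 2) :=
    rpow_le_rpow_of_nonpos hR2 (by nlinarith [not_le.1 h1]) hn'
  have w6 : (4 : ℝ) ^ ((finrank ℝ E : ℝ) / 2 - 1) * (4 * R ^ 2) ^ (1 - (finrank ℝ E : ℝ) / 2)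
      = (R ^ 2) ^ (1 - (finrank ℝ E : ℝ) / 2) := by
    rw [mul_rpow (by norm_num) hR2.le, ← mul_assoc, ← rpow_add (by norm_num)]
    simp
  have w7 := s0_le ((‖z‖ ^ 2 - R ^ 2) / R ^ 2)
  unfold be
  calc _ ≤ 4 * (3 / 2 / R ^ 2) * (R ^ 2) ^ (1 - (finrank ℝ E : ℝ) / 2) := by gcongr
    _ = 72 * 4 ^ ((finrank ℝ E : ℝ) / 2 - 1) * (4 * (1 / 6 / (8 * R ^ 2))
        * (4 * R ^ 2) ^ (1 - (finrank ℝ E : ℝ) / 2)) := by rw [← w6]; field_simp; norm_num
    _ ≤ _ := by gcongr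

lemma rep_or {u G : E → ℝ} (hu : Super u G) :
    (∀ x, ENNReal.ofReal (cn μ * u x)
      = ∫⁻ y, ENNReal.ofReal (G y) * Nk (finrank ℝ E) (‖y - x‖ ^ 2) ∂μ) ∨
    ∃ ε, 0 < ε ∧ ∀ x, ε ≤ u x := by
  rw [or_iff_not_imp_left, not_forall]
  rintro ⟨x, hx⟩
  have h1 := rep_le μ hu x
  set I := ∫⁻ y, ENNReal.ofReal (G y) * Nk (finrank ℝ E) (‖y - x‖ ^ 2) ∂μ
  have hI : I ≠ ∞ := ne_top_of_le_ne_top ENNReal.ofReal_ne_top h1
  have h2 : I.toReal < cn μ * u x :=
    (ENNReal.lt_ofReal_iff_toReal_lt hI).1 (lt_of_le_of_ne h1 (Ne.symm hx))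
  have hc := cn_pos μ hu.hn
  set C : ℝ := 72 * 4 ^ ((finrank ℝ E : ℝ) / 2 - 1)
  have hC : 0 < C := by positivity
  refine ⟨(cn μ * u x - I.toReal) / (C * cn μ), div_pos (by linarith) (by positivity), fun x' => ?_⟩
  set R := 5 * ‖x' - x‖ + 1 with hR
  have hR0 : 0 < R := by positivity
  have h3 := rep_ge μ hu (a := R ^ 2) (L := R ^ 2) (by positivity) (by positivity) x
  rw [ENNReal.ofReal_le_iff_le_toReal hI] at h3
  have h4 := harnack μ hu (a := R ^ 2 / 4) (L := 8 * R ^ 2) (by positivity) (by positivity) x'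
  have h5 : ∫ y, u y * be (R ^ 2) (R ^ 2) (y - x) ∂μ
      ≤ C * ∫ y, u y * be (R ^ 2 / 4) (8 * R ^ 2) (y - x') ∂μ := by
    rw [← integral_const_mul]
    refine integral_mono (integrable_be μ hu.cont (by positivity) (by positivity) x)
      ((integrable_be μ hu.cont (by positivity) (by positivity) x').const_mul C) fun y => ?_
    simp only
    rw [mul_left_comm]
    refine mul_le_mul_of_nonneg_left (be_compare hu.hn hR0 ?_) (hu.pos y).le
    rw [sub_sub_sub_cancel_left]; linarith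
  rw [div_le_iff₀ (by positivity)]
  nlinarith

end Vale.Agent.P100
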