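import Vale.Agent.P100.Ker

namespace Vale.Agent.P100
open MeasureTheory Set Real Filter Topology
open scoped ENNReal
set_option linter.unusedSectionVars false

variable {Ω : Type*} [TopologicalSpace Ω] [MeasurableSpace Ω] [BorelSpace Ω]
  [SecondCountableTopology Ω]

noncomputable def kk0 (m c0 g1 g2 : ℝ) (cs : Ω → Ω → ℝ) (x y : Ω × ℝ) : ℝ :=
  c0 * exp ((g1 - m) * x.2 + (g2 - m) * y.2) * kr m (cs x.1 y.1) (x.2 - y.2)

/-- The integral system on the cylinder. -/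
structure Sys (σ : Measure Ω) where
  m : ℝ
  c0 : ℝ
  p : ℝ
  q : ℝ
  g1 : ℝ
  g2 : ℝ
  cs : Ω → Ω → ℝ
  U : Ω × ℝ → ℝ
  V : Ω × ℝ → ℝ
  hm : 0 < m
  hc0 : 0 < c0
  hp : 0 < p
  hq : 0 < q
  hg1 : 2 * m < (q + 1) * g1
  hg2 : 2 * m < (p + 1) * g2
  hsub : 2 * m < g1 + g2
  cs_meas : Measurable fun z : Ω × Ω => cs z.1 z.2
  cs_symm : ∀ θ ω, cs θ ω = cs ω θ
  cs_abs : ∀ θ ω, |cs θ ω| ≤ 1
  cs_lt : ∀ θ, ∀ᵐ ω ∂σ, cs θ ω < 1
  hJ : ∃ J : ℝ≥0∞, J ≠ ∞ ∧ ∀ θ, ∫⁻ y : Ω × ℝ, (if |y.2| ≤ 1 then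
    ENNReal.ofReal ((cosh y.2 - cs θ y.1) ^ (-(m + 1 / 2))) else 0) ∂muP σ ≤ J
  U_cont : Continuous U
  V_cont : Continuous V
  U_pos : ∀ x, 0 < U x
  V_pos : ∀ x, 0 < V x
  U_diff : ∀ θ, Differentiable ℝ fun s => U (θ, s)
  V_diff : ∀ θ, Differentiable ℝ fun s => V (θ, s)
  U_bdd : ∀ t, ∃ C, ∀ θ s, s ≤ t → U (θ, s) ≤ C * exp (g1 * s)
  V_bdd : ∀ t, ∃ C, ∀ θ s, s ≤ t → V (θ, s) ≤ C * exp (g2 * s)
  U_rep : ∀ x, ENNReal.ofReal (U x)
    = ∫⁻ y, ENNReal.ofReal (kk0 m c0 g1 g2 cs x y) * ENNReal.ofReal (V y ^ p) ∂muP σ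
  V_rep : ∀ y, ENNReal.ofReal (V y)
    = ∫⁻ x, ENNReal.ofReal (kk0 m c0 g1 g2 cs x y) * ENNReal.ofReal (U x ^ q) ∂muP σ
  hσ : σ ≠ 0

lemma kk0_swap {m c0 g1 g2 : ℝ} {cs : Ω → Ω → ℝ} (h : ∀ θ ω, cs θ ω = cs ω θ) (x y : Ω × ℝ) :
    kk0 m c0 g2 g1 cs y x = kk0 m c0 g1 g2 cs x y := by
  unfold kk0
  rw [h y.1 x.1, ← kr_neg, neg_sub, add_comm]

namespace Sys
variable {σ : Measure Ω}

def swap (S : Sys σ) : Sys σ where
  m := S.m
  c0 := S.c0
  p := S.q
  q := S.p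
  g1 := S.g2
  g2 := S.g1
  cs := S.cs
  U := S.V
  V := S.U
  hm := S.hm
  hc0 := S.hc0
  hp := S.hq
  hq := S.hp
  hg1 := S.hg2
  hg2 := S.hg1
  hsub := by linarith [S.hsub]
  cs_meas := S.cs_meas
  cs_symm := S.cs_symm
  cs_abs := S.cs_abs
  cs_lt := S.cs_lt
  hJ := S.hJ
  U_cont := S.V_cont
  V_cont := S.U_cont
  U_pos := S.V_pos
  V_pos := S.U_pos
  U_diff := S.V_diff
  V_diff := S.U_diff
  U_bdd := S.V_bdd
  V_bdd := S.U_bdd
  U_rep := fun x => by simp only [kk0_swap (g1 := S.g1) S.cs_symm]; exact S.V_rep x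
  V_rep := fun x => by simp only [kk0_swap (g1 := S.g1) S.cs_symm]; exact S.U_rep x
  hσ := S.hσ

variable (S : Sys σ)

noncomputable def kk (x y : Ω × ℝ) : ℝ := kk0 S.m S.c0 S.g1 S.g2 S.cs x y

noncomputable def wt (x y : Ω × ℝ) : ℝ := exp ((S.g1 - S.m) * x.2 + (S.g2 - S.m) * y.2)

noncomputable def f (x : Ω × ℝ) : ℝ := S.U x ^ S.q

noncomputable def g (x : Ω × ℝ) : ℝ := S.V x ^ S.p

noncomputable def A1 (x y : Ω × ℝ) : ℝ :=
  S.c0 * S.wt x y * ((S.g1 - S.m) * kr S.m (S.cs x.1 y.1) (x.2 - y.2)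
    + dkr S.m (S.cs x.1 y.1) (x.2 - y.2))

lemma kk_eq (x y : Ω × ℝ) : S.kk x y = S.c0 * S.wt x y * kr S.m (S.cs x.1 y.1) (x.2 - y.2) := rfl

lemma kk_swap (x y : Ω × ℝ) : S.swap.kk y x = S.kk x y := kk0_swap S.cs_symm x y

lemma wt_swap (x y : Ω × ℝ) : S.swap.wt y x = S.wt x y := by
  unfold wt; rw [add_comm]; rfl

lemma cs_le (θ ω : Ω) : S.cs θ ω ≤ 1 := (abs_le.1 (S.cs_abs θ ω)).2

lemma wt_pos (x y : Ω × ℝ) : 0 < S.wt x y := exp_pos _

lemma kk_nonneg (x y : Ω × ℝ) : 0 ≤ S.kk x y :=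
  mul_nonneg (mul_pos S.hc0 (S.wt_pos x y)).le (kr_nonneg _ (S.cs_le _ _) _)

lemma f_pos (x : Ω × ℝ) : 0 < S.f x := rpow_pos_of_pos (S.U_pos x) _

lemma g_pos (x : Ω × ℝ) : 0 < S.g x := rpow_pos_of_pos (S.V_pos x) _

lemma g1_pos : 0 < S.g1 := by
  have := S.hg1; have := S.hm; have := S.hq
  by_contra hc
  nlinarith [not_lt.1 hc]

lemma g2_pos : 0 < S.g2 := S.swap.g1_pos

lemma f_cont : Continuous S.f := S.U_cont.rpow_const fun x => Or.inl (S.U_pos x).ne'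

lemma g_cont : Continuous S.g := S.swap.f_cont

lemma mf : Measurable S.f := S.f_cont.measurable

lemma mg : Measurable S.g := S.g_cont.measurable

lemma mwt : Measurable fun z : (Ω × ℝ) × (Ω × ℝ) => S.wt z.1 z.2 := by
  unfold wt; fun_prop

lemma mcs : Measurable fun z : (Ω × ℝ) × (Ω × ℝ) => (S.cs z.1.1 z.2.1, z.1.2 - z.2.2) :=
  (S.cs_meas.comp (f := fun z : (Ω × ℝ) × (Ω × ℝ) => (z.1.1, z.2.1)) (by fun_prop)).prodMk
    (by fun_prop)

lemma mkr : Measurable fun z : (Ω × ℝ) × (Ω × ℝ) => kr S.m (S.cs z.1.1 z.2.1) (z.1.2 - z.2.2) := by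
  have h := (measurable_kr S.m).comp S.mcs
  simpa only [Function.comp_def] using h

lemma mdkr : Measurable fun z : (Ω × ℝ) × (Ω × ℝ) =>
    dkr S.m (S.cs z.1.1 z.2.1) (z.1.2 - z.2.2) := by
  have h := (measurable_dkr S.m).comp S.mcs
  simpa only [Function.comp_def] using h

lemma mkk : Measurable fun z : (Ω × ℝ) × (Ω × ℝ) => S.kk z.1 z.2 := by
  simp only [kk_eq]
  exact (S.mwt.const_mul _).mul S.mkr

lemma mA1 : Measurable fun z : (Ω × ℝ) × (Ω × ℝ) => S.A1 z.1 z.2 := by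
  unfold A1
  exact (S.mwt.const_mul _).mul ((S.mkr.const_mul _).add S.mdkr)

lemma U_rep' (x : Ω × ℝ) : ENNReal.ofReal (S.U x)
    = ∫⁻ y, ENNReal.ofReal (S.kk x y) * ENNReal.ofReal (S.g y) ∂muP σ := S.U_rep x

lemma f_bdd (t : ℝ) : ∃ C, 0 ≤ C ∧ ∀ θ s, s ≤ t → S.f (θ, s) ≤ C * exp (S.q * S.g1 * s) := by
  obtain ⟨C, hC⟩ := S.U_bdd t
  refine ⟨(max C 0) ^ S.q, rpow_nonneg (le_max_right _ _) _, fun θ s hs => ?_⟩
  have h1 : S.U (θ, s) ≤ max C 0 * exp (S.g1 * s) :=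
    (hC θ s hs).trans (by gcongr; exact le_max_left _ _)
  calc S.f (θ, s) ≤ (max C 0 * exp (S.g1 * s)) ^ S.q :=
        rpow_le_rpow (S.U_pos _).le h1 S.hq.le
    _ = _ := by
        rw [mul_rpow (le_max_right _ _) (exp_pos _).le, ← exp_mul]; congr 2; ring

lemma U_bdd' (t : ℝ) : ∃ C, 0 ≤ C ∧ ∀ θ s, s ≤ t → S.U (θ, s) ≤ C := by
  obtain ⟨C, hC⟩ := S.U_bdd t
  refine ⟨max C 0 * exp (S.g1 * t), by positivity, fun θ s hs => (hC θ s hs).trans ?_⟩
  have := S.g1_pos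
  gcongr; exact le_max_left _ _

lemma hasDerivAt_kk {θ : Ω} {y : Ω × ℝ} (h : S.cs θ y.1 < 1) (s : ℝ) :
    HasDerivAt (fun s => S.kk (θ, s) y) (S.A1 (θ, s) y) s := by
  have h1 : HasDerivAt (fun s => exp ((S.g1 - S.m) * s + (S.g2 - S.m) * y.2))
      (exp ((S.g1 - S.m) * s + (S.g2 - S.m) * y.2) * (S.g1 - S.m)) s := by
    have := (((hasDerivAt_id s).const_mul (S.g1 - S.m)).add_const ((S.g2 - S.m) * y.2)).exp
    simpa using this
  have h2 : HasDerivAt (fun s => kr S.m (S.cs θ y.1) (s - y.2))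
      (dkr S.m (S.cs θ y.1) (s - y.2)) s := by
    exact (hasDerivAt_kr S.m h (s - y.2)).comp_sub_const s y.2
  refine ((h1.const_mul S.c0).mul h2).congr_deriv ?_
  unfold A1 wt; ring

lemma continuous_A1 {θ : Ω} {y : Ω × ℝ} (h : S.cs θ y.1 < 1) :
    Continuous fun s => S.A1 (θ, s) y := by
  have h1 : Continuous (kr S.m (S.cs θ y.1)) :=
    continuous_iff_continuousAt.2 fun z => (hasDerivAt_kr S.m h z).continuousAt
  have h2 := continuous_dkr S.m h
  have h3 : Continuous fun s : ℝ => s - y.2 := by fun_prop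
  have h4 : Continuous fun s : ℝ => S.wt (θ, s) y := by unfold wt; fun_prop
  exact (continuous_const.mul h4).mul ((continuous_const.mul (h1.comp h3)).add (h2.comp h3))

lemma abs_A1_le (x y : Ω × ℝ) : |S.A1 x y| ≤ (|S.g1 - S.m| + 5 * S.m) * S.kk x y
    + if |x.2 - y.2| ≤ 1 then
      2 * S.m * S.c0 * S.wt x y * (cosh (x.2 - y.2) - S.cs x.1 y.1) ^ (-(S.m + 1 / 2)) else 0 := by
  have hw := mul_pos S.hc0 (S.wt_pos x y)
  have hk := kr_nonneg S.m (S.cs_le x.1 y.1) (x.2 - y.2)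
  have hm := S.hm
  have h1 : |S.A1 x y| ≤ S.c0 * S.wt x y * (|S.g1 - S.m| * kr S.m (S.cs x.1 y.1) (x.2 - y.2)
      + |dkr S.m (S.cs x.1 y.1) (x.2 - y.2)|) := by
    unfold A1
    rw [abs_mul, abs_of_pos hw]
    gcongr
    refine (abs_add_le _ _).trans ?_
    rw [abs_mul, abs_of_nonneg hk]
  refine h1.trans ?_
  rw [kk_eq]
  split_ifs with hz
  · have h2 := abs_dkr_le (z := x.2 - y.2) hm (S.cs_abs x.1 y.1)
    have h3 : 0 ≤ S.m * kr S.m (S.cs x.1 y.1) (x.2 - y.2) := by positivity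
    nlinarith
  · have h2 := abs_dkr_far (z := x.2 - y.2) hm (S.cs_abs x.1 y.1) (not_le.1 hz).le
    nlinarith

variable [IsFiniteMeasure σ]

noncomputable def Wbar (x : Ω × ℝ) : ℝ≥0∞ :=
  ∫⁻ y, ENNReal.ofReal |S.A1 x y| * ENNReal.ofReal (S.g y) ∂muP σ

lemma Wbar_bdd (t : ℝ) : ∃ C : ℝ≥0∞, C ≠ ∞ ∧ ∀ θ s, s ≤ t → S.Wbar (θ, s) ≤ C := by
  obtain ⟨J, hJ, HJ⟩ := S.hJ
  obtain ⟨C1, hC1, H1⟩ := S.U_bdd' t
  obtain ⟨C2, hC2, H2⟩ := S.swap.f_bdd (t + 1)
  set κ := S.g2 - S.m + S.p * S.g2 with hκ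
  have hκ0 : 0 < κ := by have := S.hg2; have := S.hm; rw [hκ]; linarith
  have hκ1 : 0 < S.g1 - S.m + κ := by
    have := S.hsub; have := mul_pos S.hp S.g2_pos; rw [hκ]; linarith
  set C3 := 2 * S.m * S.c0 * C2 * exp ((S.g1 - S.m + κ) * t + κ) with hC3
  have hm := S.hm
  have hc0 := S.hc0
  refine ⟨ENNReal.ofReal (|S.g1 - S.m| + 5 * S.m) * ENNReal.ofReal C1 + ENNReal.ofReal C3 * J,
    by finiteness, fun θ s hs => ?_⟩
  have key : ∀ y : Ω × ℝ, ENNReal.ofReal |S.A1 (θ, s) y| * ENNReal.ofReal (S.g y)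
      ≤ ENNReal.ofReal (|S.g1 - S.m| + 5 * S.m)
          * (ENNReal.ofReal (S.kk (θ, s) y) * ENNReal.ofReal (S.g y))
        + ENNReal.ofReal C3 * (if |s - y.2| ≤ 1 then
          ENNReal.ofReal ((cosh (s - y.2) - S.cs θ y.1) ^ (-(S.m + 1 / 2))) else 0) := by
    intro y
    have h1 := S.abs_A1_le (θ, s) y
    have hk := S.kk_nonneg (θ, s) y
    have hg := (S.g_pos y).le
    refine (mul_le_mul_left (ENNReal.ofReal_le_ofReal h1) _).trans ?_
    refine (mul_le_mul_left ENNReal.ofReal_add_le _).trans ?_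
    rw [add_mul, ENNReal.ofReal_mul (by positivity), mul_assoc]
    refine add_le_add le_rfl ?_
    simp only
    split_ifs with hz
    · have hD : 0 ≤ (cosh (s - y.2) - S.cs θ y.1) ^ (-(S.m + 1 / 2)) :=
        rpow_nonneg (coshD_nonneg (S.cs_le _ _) _) _
      have hw := S.wt_pos (θ, s) y
      rw [← ENNReal.ofReal_mul (by positivity), ← ENNReal.ofReal_mul (by positivity)]
      refine ENNReal.ofReal_le_ofReal ?_
      have h2 : y.2 ≤ s + 1 := by linarith [(abs_le.1 hz).1]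
      have h3 : S.g y ≤ C2 * exp (S.p * S.g2 * y.2) := H2 y.1 y.2 (by linarith)
      have h4 : S.wt (θ, s) y * exp (S.p * S.g2 * y.2) ≤ exp ((S.g1 - S.m + κ) * t + κ) := by
        unfold wt
        rw [← exp_add]
        refine exp_le_exp.2 ?_
        have : κ * y.2 ≤ κ * (s + 1) := by gcongr
        have : (S.g1 - S.m + κ) * s ≤ (S.g1 - S.m + κ) * t := by gcongr
        simp only
        nlinarith
      calc _ = 2 * S.m * S.c0 * (S.wt (θ, s) y * S.g y)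
              * (cosh (s - y.2) - S.cs θ y.1) ^ (-(S.m + 1 / 2)) := by ring
        _ ≤ 2 * S.m * S.c0 * (S.wt (θ, s) y * (C2 * exp (S.p * S.g2 * y.2)))
              * (cosh (s - y.2) - S.cs θ y.1) ^ (-(S.m + 1 / 2)) := by gcongr
        _ = 2 * S.m * S.c0 * C2 * (S.wt (θ, s) y * exp (S.p * S.g2 * y.2))
              * (cosh (s - y.2) - S.cs θ y.1) ^ (-(S.m + 1 / 2)) := by ring
        _ ≤ _ := by rw [hC3]; gcongr
    · simp
  have m1 : Measurable fun y : Ω × ℝ => ENNReal.ofReal (S.kk (θ, s) y) * ENNReal.ofReal (S.g y) :=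
    (S.mkk.comp measurable_prodMk_left).ennreal_ofReal.mul S.mg.ennreal_ofReal
  refine (lintegral_mono key).trans ?_
  rw [lintegral_add_left (m1.const_mul _), lintegral_const_mul' _ _ ENNReal.ofReal_ne_top,
    lintegral_const_mul' _ _ ENNReal.ofReal_ne_top, ← S.U_rep']
  gcongr
  · exact H1 θ s hs
  · refine le_trans (le_of_eq ?_) (HJ θ)
    have m2 : Measurable fun y : Ω × ℝ => (if |y.2| ≤ 1 then
        ENNReal.ofReal ((cosh y.2 - S.cs θ y.1) ^ (-(S.m + 1 / 2))) else 0) := by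
      refine Measurable.ite (measurableSet_le (by fun_prop) measurable_const) ?_ measurable_const
      exact (((continuous_cosh.measurable.comp measurable_snd).sub
        (S.cs_meas.comp (f := fun y : Ω × ℝ => (θ, y.1)) (by fun_prop))).pow_const _).ennreal_ofReal
    have m3 := m2.comp (f := fun y : Ω × ℝ => (y.1, s - y.2)) (by fun_prop)
    unfold muP
    rw [lintegral_prod _ m2.aemeasurable]
    refine (lintegral_prod _ m3.aemeasurable).trans ?_
    refine lintegral_congr fun ω => ?_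
    exact lintegral_sub_left_eq_self (fun r => if |r| ≤ 1 then
      ENNReal.ofReal ((cosh r - S.cs θ ω) ^ (-(S.m + 1 / 2))) else 0) s

lemma mWbar : Measurable S.Wbar :=
  (S.mA1.abs.ennreal_ofReal.mul (S.mg.comp measurable_snd).ennreal_ofReal).lintegral_prod_right'

noncomputable def W (x : Ω × ℝ) : ℝ := ∫ y, S.A1 x y * S.g y ∂muP σ

lemma mA1g : Measurable fun z : (Ω × ℝ) × (Ω × ℝ) => S.A1 z.1 z.2 * S.g z.2 :=
  S.mA1.mul (S.mg.comp measurable_snd)

lemma enorm_A1g (x y : Ω × ℝ) :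
    ‖S.A1 x y * S.g y‖ₑ = ENNReal.ofReal |S.A1 x y| * ENNReal.ofReal (S.g y) := by
  rw [enorm_mul, Real.enorm_eq_ofReal_abs, Real.enorm_eq_ofReal (S.g_pos y).le]

lemma mW : Measurable S.W :=
  (S.mA1g.stronglyMeasurable.integral_prod_right' (ν := muP σ)).measurable

lemma enorm_W_le (x : Ω × ℝ) : ‖S.W x‖ₑ ≤ S.Wbar x := by
  refine (enorm_integral_le_lintegral_enorm _).trans (le_of_eq ?_)
  simp only [enorm_A1g]; rfl

lemma integrable_kk (x : Ω × ℝ) : Integrable (fun y => S.kk x y * S.g y) (muP σ) := by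
  refine ⟨((S.mkk.comp measurable_prodMk_left).mul S.mg).aestronglyMeasurable, ?_⟩
  have : ∀ y, ‖S.kk x y * S.g y‖ₑ = ENNReal.ofReal (S.kk x y) * ENNReal.ofReal (S.g y) :=
    fun y => by
      rw [enorm_mul, Real.enorm_eq_ofReal (S.kk_nonneg x y), Real.enorm_eq_ofReal (S.g_pos y).le]
  unfold HasFiniteIntegral
  simp only [this]
  rw [← S.U_rep']
  exact ENNReal.ofReal_lt_top

lemma int_kk (x : Ω × ℝ) : ∫ y, S.kk x y * S.g y ∂muP σ = S.U x := by
  have h := ofReal_integral_eq_lintegral_ofReal (S.integrable_kk x)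
    (Eventually.of_forall fun y => mul_nonneg (S.kk_nonneg x y) (S.g_pos y).le)
  simp only [ENNReal.ofReal_mul (S.kk_nonneg x _)] at h
  rw [← S.U_rep'] at h
  exact (ENNReal.ofReal_eq_ofReal_iff
    (integral_nonneg fun y => mul_nonneg (S.kk_nonneg x y) (S.g_pos y).le) (S.U_pos x).le).1 h

lemma ae_lt (θ : Ω) : ∀ᵐ y ∂muP σ, S.cs θ y.1 < 1 :=
  (Measure.quasiMeasurePreserving_fst (μ := σ) (ν := volume)).ae (S.cs_lt θ)

lemma ftc_U (θ : Ω) {a b : ℝ} (hab : a ≤ b) :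
    ∫ s in a..b, S.W (θ, s) = S.U (θ, b) - S.U (θ, a) := by
  obtain ⟨C, hC, HC⟩ := S.Wbar_bdd b
  have m1 : Measurable fun z : ℝ × (Ω × ℝ) => S.A1 (θ, z.1) z.2 * S.g z.2 :=
    S.mA1g.comp (f := fun z : ℝ × (Ω × ℝ) => ((θ, z.1), z.2)) (by fun_prop)
  have hint : Integrable (Function.uncurry fun (s : ℝ) (y : Ω × ℝ) => S.A1 (θ, s) y * S.g y)
      ((volume.restrict (Ioc a b)).prod (muP σ)) := by
    refine ⟨m1.aestronglyMeasurable, ?_⟩
    refine (lintegral_prod _ m1.enorm.aemeasurable).le.trans_lt ?_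
    calc _ ≤ ∫⁻ _ in Ioc a b, C := by
          refine setLIntegral_mono' measurableSet_Ioc fun s hs => ?_
          simp only [enorm_A1g]
          exact HC θ s hs.2
      _ < ∞ := by
          rw [setLIntegral_const, Real.volume_Ioc]
          exact ENNReal.mul_lt_top hC.lt_top ENNReal.ofReal_lt_top
  rw [intervalIntegral.integral_of_le hab]
  unfold W
  rw [integral_integral_swap hint, ← S.int_kk, ← S.int_kk,
    ← integral_sub (S.integrable_kk _) (S.integrable_kk _)]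
  refine integral_congr_ae ?_
  filter_upwards [S.ae_lt θ] with y hy
  rw [integral_mul_const, ← intervalIntegral.integral_of_le hab,
    intervalIntegral.integral_eq_sub_of_hasDerivAt (fun s _ => S.hasDerivAt_kk hy s)
      ((S.continuous_A1 hy).intervalIntegrable _ _)]
  ring

lemma ae_deriv (θ : Ω) : ∀ᵐ s, HasDerivAt (fun s => S.U (θ, s)) (S.W (θ, s)) s := by
  have hloc : LocallyIntegrable (fun s => S.W (θ, s)) volume := by
    rw [locallyIntegrable_iff]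
    intro k hk
    obtain ⟨t, ht⟩ := hk.bddAbove
    obtain ⟨C, hC, HC⟩ := S.Wbar_bdd t
    refine ⟨(S.mW.comp measurable_prodMk_left).aestronglyMeasurable, ?_⟩
    calc _ ≤ ∫⁻ _ in k, C :=
          setLIntegral_mono' hk.measurableSet fun s hs => (S.enorm_W_le _).trans (HC θ s (ht hs))
      _ < ∞ := by
          rw [setLIntegral_const]
          exact ENNReal.mul_lt_top hC.lt_top hk.measure_lt_top
  filter_upwards [LocallyIntegrable.ae_hasDerivAt_integral hloc] with s hs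
  have e : (fun s => S.U (θ, s)) = fun s => (∫ r in (0 : ℝ)..s, S.W (θ, r)) + S.U (θ, 0) := by
    ext s
    rcases le_total 0 s with h | h
    · rw [S.ftc_U θ h]; ring
    · rw [intervalIntegral.integral_symm, S.ftc_U θ h]; ring
  rw [e]
  exact (hs 0).add_const _

noncomputable def Xi (t : ℝ) (z : (Ω × ℝ) × (Ω × ℝ)) : ℝ :=
  if z.1.2 < t then S.A1 z.1 z.2 * S.g z.2 * S.f z.1 else 0

lemma mXi (t : ℝ) : Measurable (S.Xi t) :=
  Measurable.ite (measurableSet_lt (by fun_prop) measurable_const)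
    (S.mA1g.mul (S.mf.comp measurable_fst)) measurable_const

lemma Wf_bdd (t : ℝ) : ∃ C : ℝ≥0∞, C ≠ ∞ ∧ ∀ θ,
    ∫⁻ s in Iic t, S.Wbar (θ, s) * ENNReal.ofReal (S.f (θ, s)) ≤ C := by
  obtain ⟨C, hC, HC⟩ := S.Wbar_bdd t
  obtain ⟨C2, hC2, H2⟩ := S.f_bdd t
  have hi := (integrableOn_exp_mul_Iic (mul_pos S.hq S.g1_pos) t).const_mul C2
  refine ⟨C * ∫⁻ s in Iic t, ENNReal.ofReal (C2 * exp (S.q * S.g1 * s)),
    ENNReal.mul_ne_top hC hi.lintegral_lt_top.ne, fun θ => ?_⟩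
  rw [← lintegral_const_mul' _ _ hC]
  refine setLIntegral_mono' measurableSet_Iic fun s hs => ?_
  exact mul_le_mul' (HC θ s hs) (ENNReal.ofReal_le_ofReal (H2 θ s hs))

lemma integrable_Xi (t : ℝ) : Integrable (S.Xi t) ((muP σ).prod (muP σ)) := by
  refine ⟨(S.mXi t).aestronglyMeasurable, ?_⟩
  obtain ⟨C, hC, HC⟩ := S.Wf_bdd t
  unfold HasFiniteIntegral
  rw [lintegral_prod _ (S.mXi t).enorm.aemeasurable]
  have h1 : ∀ x : Ω × ℝ, ∫⁻ y, ‖S.Xi t (x, y)‖ₑ ∂muP σ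
      ≤ {x : Ω × ℝ | x.2 ≤ t}.indicator (fun x => S.Wbar x * ENNReal.ofReal (S.f x)) x := by
    intro x
    unfold Xi
    by_cases hx : x.2 < t
    · simp only [if_pos hx]
      rw [indicator_of_mem (show x ∈ {x : Ω × ℝ | x.2 ≤ t} from hx.le)]
      simp only [enorm_mul (S.A1 x _ * S.g _), enorm_A1g, Real.enorm_eq_ofReal (S.f_pos x).le]
      rw [lintegral_mul_const' _ _ ENNReal.ofReal_ne_top]
      rfl
    · simp [if_neg hx]
  refine (lintegral_mono h1).trans_lt ?_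
  have m1 : Measurable
      ({x : Ω × ℝ | x.2 ≤ t}.indicator (fun x => S.Wbar x * ENNReal.ofReal (S.f x))) :=
    (S.mWbar.mul S.mf.ennreal_ofReal).indicator (measurableSet_le measurable_snd measurable_const)
  refine (lintegral_prod _ m1.aemeasurable).le.trans_lt ?_
  calc _ ≤ ∫⁻ _, C ∂σ := by
        refine lintegral_mono fun θ => le_trans (le_of_eq ?_) (HC θ)
        rw [← lintegral_indicator measurableSet_Iic]
        rfl
    _ < ∞ := by
        rw [lintegral_const]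
        exact ENNReal.mul_lt_top hC.lt_top (measure_lt_top _ _)

lemma tendsto_U (θ : Ω) : Tendsto (fun s => S.U (θ, s)) atBot (𝓝 0) := by
  obtain ⟨C, hC⟩ := S.U_bdd 0
  have h1 : Tendsto (fun s => C * exp (S.g1 * s)) atBot (𝓝 (C * 0)) :=
    (tendsto_exp_atBot.comp (tendsto_id.const_mul_atBot S.g1_pos)).const_mul C
  rw [mul_zero] at h1
  refine tendsto_of_tendsto_of_tendsto_of_le_of_le' tendsto_const_nhds h1
    (Eventually.of_forall fun s => (S.U_pos _).le) ?_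
  filter_upwards [eventually_le_atBot 0] with s hs using hC θ s hs

lemma ray_id (θ : Ω) (t : ℝ) :
    ∫ s in Iic t, S.W (θ, s) * S.f (θ, s) = S.U (θ, t) ^ (S.q + 1) / (S.q + 1) := by
  have hq := S.hq
  have hd : ∀ s, HasDerivAt (fun s => S.U (θ, s) ^ (S.q + 1) / (S.q + 1))
      (deriv (fun s => S.U (θ, s)) s * S.f (θ, s)) s := by
    intro s
    have := ((S.U_diff θ s).hasDerivAt.rpow_const (p := S.q + 1)
      (Or.inl (S.U_pos _).ne')).div_const (S.q + 1)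
    refine this.congr_deriv ?_
    unfold f
    rw [add_sub_cancel_right]
    field_simp
  have hae : (fun s => deriv (fun s => S.U (θ, s)) s * S.f (θ, s))
      =ᵐ[volume.restrict (Iic t)] fun s => S.W (θ, s) * S.f (θ, s) := by
    refine ae_restrict_of_ae ?_
    filter_upwards [S.ae_deriv θ] with s hs
    rw [hs.deriv]
  have hint : IntegrableOn (fun s => S.W (θ, s) * S.f (θ, s)) (Iic t) := by
    obtain ⟨C, hC, HC⟩ := S.Wf_bdd t
    refine ⟨((S.mW.mul S.mf).comp measurable_prodMk_left).aestronglyMeasurable, ?_⟩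
    refine lt_of_le_of_lt ?_ ((HC θ).trans_lt hC.lt_top)
    refine lintegral_mono fun s => ?_
    simp only
    rw [enorm_mul, Real.enorm_eq_ofReal (S.f_pos _).le]
    exact mul_le_mul_left (S.enorm_W_le _) _
  have hlim : Tendsto (fun s => S.U (θ, s) ^ (S.q + 1) / (S.q + 1)) atBot (𝓝 0) := by
    have := ((S.tendsto_U θ).rpow_const (p := S.q + 1) (Or.inr (by linarith))).div_const (S.q + 1)
    rwa [zero_rpow (by linarith), zero_div] at this
  rw [← integral_congr_ae hae,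
    integral_Iic_of_hasDerivAt_of_tendsto' (fun s _ => hd s) (hint.congr hae.symm) hlim, sub_zero]

lemma integral_Xi (t : ℝ) : ∫ z, S.Xi t z ∂(muP σ).prod (muP σ)
    = ∫ θ, S.U (θ, t) ^ (S.q + 1) / (S.q + 1) ∂σ := by
  rw [integral_prod _ (S.integrable_Xi t)]
  have h1 : ∀ x : Ω × ℝ, ∫ y, S.Xi t (x, y) ∂muP σ
      = {x : Ω × ℝ | x.2 < t}.indicator (fun x => S.W x * S.f x) x := by
    intro x
    unfold Xi
    by_cases hx : x.2 < t
    · simp only [if_pos hx]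
      rw [indicator_of_mem (show x ∈ {x : Ω × ℝ | x.2 < t} from hx), integral_mul_const]
      rfl
    · simp only [if_neg hx]
      rw [indicator_of_notMem (show x ∉ {x : Ω × ℝ | x.2 < t} from hx)]
      simp
  have h2 := (S.integrable_Xi t).integral_prod_left
  simp only [h1] at h2 ⊢
  refine (integral_prod _ h2).trans ?_
  refine integral_congr_ae (Eventually.of_forall fun θ => ?_)
  simp only
  rw [← S.ray_id θ t, integral_Iic_eq_integral_Iio, ← integral_indicator measurableSet_Iio]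
  rfl

end Sys

end Vale.Agent.P100
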